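import Mathlib

/-! Definitions for the ordered binary matrix-removal problem. -/

namespace Vale.Agent.Lib.P037

/-- The number `N_H(A)` of ordered copies of the `k × k` binary pattern `H` in the `n × n` binary
matrix `A`: pairs of strictly increasing index maps `ρ, γ : Fin k → Fin n` (row choice and column
choice) with `A (ρ i) (γ j) = H i j` for all `i, j`. -/
noncomputable def copyCount {k n : ℕ} (H : Fin k → Fin k → Bool) (A : Fin n → Fin n → Bool) : ℕ :=
  {p : (Fin k → Fin n) × (Fin k → Fin n) |
    StrictMono p.1 ∧ StrictMono p.2 ∧ ∀ i j, A (p.1 i) (p.2 j) = H i j}.ncard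

/-- The number of entries at which two `n × n` matrices differ. -/
def hamming {n : ℕ} (A B : Fin n → Fin n → Bool) : ℕ :=
  (Finset.univ.filter (fun p : Fin n × Fin n => A p.1 p.2 ≠ B p.1 p.2)).card

/-- `dist_H(A)`: the least number of entries that must be changed to make `A` free of copies of
`H`, divided by `n ^ 2`. -/
noncomputable def distFree {k n : ℕ} (H : Fin k → Fin k → Bool) (A : Fin n → Fin n → Bool) : ℝ :=
  (sInf {d : ℕ | ∃ B : Fin n → Fin n → Bool, copyCount H B = 0 ∧ d = hamming A B} : ℕ) / (n : ℝ) ^ 2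

/-- The diagonal pattern `[[1,0],[0,1]]`. -/
def diagH : Fin 2 → Fin 2 → Bool := fun i j => decide (i = j)

/-- The antidiagonal pattern `[[0,1],[1,0]]`. -/
def antidiagH : Fin 2 → Fin 2 → Bool := fun i j => decide (i ≠ j)

end Vale.Agent.Lib.P037
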