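import Mathlib

/-! Elementary lemmas about finite strict total orders and chain graphs. -/

open Finset

namespace Vale.Agent.Lib.P037

section KeyLemma
variable {α : Type*} [DecidableEq α]

open Classical in
lemma exists_maximal_rel (D : Finset α) (hD : D.Nonempty) (R : α → α → Prop)
    (hirr : ∀ a ∈ D, ¬ R a a) (htrans : ∀ a ∈ D, ∀ b ∈ D, ∀ c ∈ D, R a b → R b c → R a c) :
    ∃ m ∈ D, ∀ b ∈ D, ¬ R m b := by
  obtain ⟨m, hm, hmax⟩ := D.exists_max_image (fun a => (D.filter (fun x => R x a)).card) hD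
  refine ⟨m, hm, fun b hb hmb => ?_⟩
  have hsub : insert m (D.filter (fun x => R x m)) ⊆ D.filter (fun x => R x b) := by
    intro x hx
    rcases mem_insert.1 hx with rfl | hx
    · exact mem_filter.2 ⟨hm, hmb⟩
    · obtain ⟨hxD, hxm⟩ := mem_filter.1 hx
      exact mem_filter.2 ⟨hxD, htrans x hxD m hm b hb hxm hmb⟩
  have hnot : m ∉ D.filter (fun x => R x m) := fun h => hirr m hm (mem_filter.1 h).2
  have h1 := card_le_card hsub
  rw [card_insert_of_notMem hnot] at h1
  have h2 := hmax b hb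
  omega

/-- A finite strict order has upward closed subsets of every size. -/
lemma exists_final (C : Finset α) (R : α → α → Prop)
    (hirr : ∀ a ∈ C, ¬ R a a) (htrans : ∀ a ∈ C, ∀ b ∈ C, ∀ c ∈ C, R a b → R b c → R a c)
    (t : ℕ) (ht : t ≤ C.card) :
    ∃ X ⊆ C, X.card = t ∧ ∀ a ∈ X, ∀ b ∈ C, R a b → b ∈ X := by
  induction t with
  | zero => exact ⟨∅, empty_subset _, card_empty, fun a ha => absurd ha (notMem_empty a)⟩
  | succ t ih =>
    obtain ⟨X, hXC, hXt, hXf⟩ := ih (by omega)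
    have hne : (C \ X).Nonempty := by
      rw [← card_pos, card_sdiff_of_subset hXC]
      omega
    obtain ⟨m, hm, hmax⟩ := exists_maximal_rel (C \ X) hne R
      (fun a ha => hirr a (mem_sdiff.1 ha).1)
      (fun a ha b hb c hc => htrans a (mem_sdiff.1 ha).1 b (mem_sdiff.1 hb).1 c (mem_sdiff.1 hc).1)
    have hmC := (mem_sdiff.1 hm).1
    have hmX := (mem_sdiff.1 hm).2
    refine ⟨insert m X, insert_subset hmC hXC, by rw [card_insert_of_notMem hmX, hXt], ?_⟩
    intro a ha b hb hab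
    rcases mem_insert.1 ha with rfl | ha
    · by_contra hbX
      have hbX' : b ∉ X := fun h => hbX (mem_insert_of_mem h)
      exact hmax b (mem_sdiff.2 ⟨hb, hbX'⟩) hab
    · exact mem_insert_of_mem (hXf a ha b hb hab)

open Classical in
/-- Key lemma: for a finite strict total order and a subset `S`, there is a final segment `X` such
that the two parts of the symmetric difference have the same size `t`, and `t ^ 2` is at most the
number of pairs `a ∈ S`, `b ∉ S` with `a` before `b`. -/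
lemma key_lemma (C S : Finset α) (hS : S ⊆ C) (R : α → α → Prop)
    (hirr : ∀ a ∈ C, ¬ R a a) (htrans : ∀ a ∈ C, ∀ b ∈ C, ∀ c ∈ C, R a b → R b c → R a c)
    (htot : ∀ a ∈ C, ∀ b ∈ C, a ≠ b → R a b ∨ R b a) :
    ∃ X ⊆ C, (∀ a ∈ X, ∀ b ∈ C, R a b → b ∈ X) ∧ (S \ X).card = (X \ S).card ∧
      (S \ X).card ^ 2 ≤ ((S ×ˢ (C \ S)).filter (fun p => R p.1 p.2)).card := by
  obtain ⟨X, hXC, hXcard, hXf⟩ := exists_final C R hirr htrans S.card (card_le_card hS)
  refine ⟨X, hXC, hXf, ?_, ?_⟩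
  · have h1 := card_sdiff_add_card_inter S X
    have h2 := card_sdiff_add_card_inter X S
    rw [inter_comm] at h2
    omega
  · have hcard : (S \ X).card = (X \ S).card := by
      have h1 := card_sdiff_add_card_inter S X
      have h2 := card_sdiff_add_card_inter X S
      rw [inter_comm] at h2
      omega
    have hsub : (S \ X) ×ˢ (X \ S) ⊆ (S ×ˢ (C \ S)).filter (fun p => R p.1 p.2) := by
      intro p hp
      obtain ⟨ha, hb⟩ := mem_product.1 hp
      obtain ⟨haS, haX⟩ := mem_sdiff.1 ha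
      obtain ⟨hbX, hbS⟩ := mem_sdiff.1 hb
      refine mem_filter.2 ⟨mem_product.2 ⟨haS, mem_sdiff.2 ⟨hXC hbX, hbS⟩⟩, ?_⟩
      have hne : p.1 ≠ p.2 := fun h => hbS (h ▸ haS)
      rcases htot p.1 (hS haS) p.2 (hXC hbX) hne with h | h
      · exact h
      · exact absurd (hXf p.2 hbX p.1 (hS haS) h) haX
    have := card_le_card hsub
    rw [card_product, ← hcard] at this
    rw [sq]
    exact this

end KeyLemma

section ChainCover
variable {β : Type*} [LinearOrder β] [DecidableEq β]

open Classical in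
/-- Chain cover: two disjoint finsets `P, Q` in a linear order. There is a set `Z ⊆ P ∪ Q` such that
after removing `Z` no element of `P` is below an element of `Q`, and `|Z| ^ 2 ≤ 4 * #(p < q)`. -/
lemma chain_cover (P Q : Finset β) (hPQ : Disjoint P Q) :
    ∃ Z ⊆ P ∪ Q, (∀ p ∈ P, ∀ q ∈ Q, p ∉ Z → q ∉ Z → ¬ p < q) ∧
      Z.card ^ 2 ≤ 4 * ((P ×ˢ Q).filter (fun x => x.1 < x.2)).card := by
  have hsubP : P ⊆ P ∪ Q := subset_union_left
  obtain ⟨X, hXC, hXf, hcard, hle⟩ := key_lemma (P ∪ Q) P hsubP (fun a b : β => a < b)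
    (fun a _ => lt_irrefl a) (fun a _ b _ c _ hab hbc => lt_trans hab hbc)
    (fun a _ b _ hab => lt_or_gt_of_ne hab)
  have hdiff : (P ∪ Q) \ P = Q := by
    ext x
    simp only [mem_sdiff, mem_union]
    constructor
    · rintro ⟨h | h, h'⟩
      · exact absurd h h'
      · exact h
    · intro h
      exact ⟨Or.inr h, fun h' => (disjoint_left.1 hPQ) h' h⟩
  rw [hdiff] at hle
  refine ⟨(P \ X) ∪ (X \ P), ?_, ?_, ?_⟩
  · intro x hx
    rcases mem_union.1 hx with h | h
    · exact mem_union_left _ (mem_sdiff.1 h).1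
    · exact hXC (mem_sdiff.1 h).1
  · intro p hp q hq hpZ hqZ hlt
    have hpX : p ∈ X := by
      by_contra h
      exact hpZ (mem_union_left _ (mem_sdiff.2 ⟨hp, h⟩))
    have hqX : q ∈ X := hXf p hpX q (mem_union_right _ hq) hlt
    have hqP : q ∉ P := fun h => (disjoint_left.1 hPQ) h hq
    exact hqZ (mem_union_right _ (mem_sdiff.2 ⟨hqX, hqP⟩))
  · have h1 : ((P \ X) ∪ (X \ P)).card ≤ (P \ X).card + (X \ P).card := card_union_le _ _
    have h2 : ((P \ X) ∪ (X \ P)).card ≤ 2 * (P \ X).card := by omega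
    calc ((P \ X) ∪ (X \ P)).card ^ 2 ≤ (2 * (P \ X).card) ^ 2 := Nat.pow_le_pow_left h2 2
      _ = 4 * (P \ X).card ^ 2 := by ring
      _ ≤ 4 * ((P ×ˢ Q).filter (fun x => x.1 < x.2)).card := by
        refine Nat.mul_le_mul_left 4 (le_trans hle (le_of_eq ?_))
        congr

end ChainCover

end Vale.Agent.Lib.P037
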