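import Mathlib
import Vale.Agent.Lib.P037.KeyLemma

/-! Rows of a binary matrix: inversions and the precedence relation. -/

open Finset
open Classical

namespace Vale.Agent.Lib.P037

variable {n : ℕ} (A : Fin n → Fin n → Bool)

/-- Pairs `a < b` of columns where row `r` has a one at `a` and a zero at `b`. -/
noncomputable def invSet (r : Fin n) : Finset (Fin n × Fin n) :=
  univ.filter (fun p => p.1 < p.2 ∧ A r p.1 = true ∧ A r p.2 = false)

/-- Column pairs forming a copy of the diagonal pattern with rows `r`, `r'`. -/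
noncomputable def copSet (r r' : Fin n) : Finset (Fin n × Fin n) :=
  univ.filter (fun p => p.1 < p.2 ∧ A r p.1 = true ∧ A r p.2 = false ∧
    A r' p.1 = false ∧ A r' p.2 = true)

/-- The number of copies on the rows `r`, `r'`. -/
noncomputable def cop (r r' : Fin n) : ℕ := (copSet A r r').card

/-- The number of copies whose first row is `r`. -/
noncomputable def X1 (r : Fin n) : ℕ := ∑ r' ∈ univ.filter (fun r' => r < r'), cop A r r'

/-- The total number of copies. -/
noncomputable def NN : ℕ := ∑ r, X1 A r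

lemma exists_Zc (r r' : Fin n) : ∃ Z : Finset (Fin n),
    (∀ p q, A r p = true → A r' p = false → A r q = false → A r' q = true →
      p ∉ Z → q ∉ Z → ¬ p < q) ∧ Z.card ^ 2 ≤ 4 * cop A r r' := by
  set P : Finset (Fin n) := univ.filter (fun c => A r c = true ∧ A r' c = false) with hP
  set Q : Finset (Fin n) := univ.filter (fun c => A r c = false ∧ A r' c = true) with hQ
  have hdisj : Disjoint P Q := by
    rw [disjoint_left]
    intro c hc hc'
    have h1 := (mem_filter.1 hc).2.1
    have h2 := (mem_filter.1 hc').2.1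
    rw [h1] at h2
    exact Bool.noConfusion h2
  obtain ⟨Z, -, hZ1, hZ2⟩ := chain_cover P Q hdisj
  refine ⟨Z, ?_, ?_⟩
  · intro p q h1 h2 h3 h4 hp hq
    exact hZ1 p (mem_filter.2 ⟨mem_univ _, h1, h2⟩) q (mem_filter.2 ⟨mem_univ _, h3, h4⟩) hp hq
  · refine le_trans hZ2 (Nat.mul_le_mul_left 4 (card_le_card ?_))
    intro x hx
    obtain ⟨hx1, hx2⟩ := mem_filter.1 hx
    obtain ⟨hx3, hx4⟩ := mem_product.1 hx1
    obtain ⟨-, h1, h2⟩ := mem_filter.1 hx3
    obtain ⟨-, h3, h4⟩ := mem_filter.1 hx4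
    exact mem_filter.2 ⟨mem_univ _, hx2, h1, h3, h2, h4⟩

/-- A chain cover of the columns for the pair of rows `r`, `r'`. -/
noncomputable def Zc (r r' : Fin n) : Finset (Fin n) := (exists_Zc A r r').choose

lemma Zc_spec (r r' p q : Fin n) (h1 : A r p = true) (h2 : A r' p = false) (h3 : A r q = false)
    (h4 : A r' q = true) (hp : p ∉ Zc A r r') (hq : q ∉ Zc A r r') : ¬ p < q :=
  (exists_Zc A r r').choose_spec.1 p q h1 h2 h3 h4 hp hq

lemma Zc_card (r r' : Fin n) : (Zc A r r').card ^ 2 ≤ 4 * cop A r r' :=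
  (exists_Zc A r r').choose_spec.2

/-- Some row of `T` inverts the pair `a`, `b`. -/
def inv (T : Finset (Fin n)) (a b : Fin n) : Prop := ∃ x ∈ T, A x a = true ∧ A x b = false

/-- `a` comes before `b` in the order of the columns after the rows of `T`. -/
def prec (T : Finset (Fin n)) (a b : Fin n) : Prop :=
  (a < b ∧ ¬ inv A T a b) ∨ (b < a ∧ inv A T b a)

/-- The rows of `T` contain no copy on the columns of `C`. -/
def NoCopyOn (T C : Finset (Fin n)) : Prop :=
  ∀ x ∈ T, ∀ y ∈ T, x < y → ∀ a ∈ C, ∀ b ∈ C, a < b →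
    ¬ (A x a = true ∧ A x b = false ∧ A y a = false ∧ A y b = true)

lemma inv_coclosed (T : Finset (Fin n)) (a b c : Fin n) (h : inv A T a c) :
    inv A T a b ∨ inv A T b c := by
  obtain ⟨x, hx, h1, h2⟩ := h
  by_cases hb : A x b = true
  · exact Or.inr ⟨x, hx, hb, h2⟩
  · exact Or.inl ⟨x, hx, h1, by simpa using hb⟩

variable {A}

lemma inv_closed {T C : Finset (Fin n)} (hT : NoCopyOn A T C) {a b c : Fin n}
    (ha : a ∈ C) (hb : b ∈ C) (hc : c ∈ C) (hab : a < b) (hbc : b < c)
    (h1 : inv A T a b) (h2 : inv A T b c) : inv A T a c := by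
  obtain ⟨x, hx, hxa, hxb⟩ := h1
  obtain ⟨y, hy, hyb, hyc⟩ := h2
  by_cases hxc : A x c = false
  · exact ⟨x, hx, hxa, hxc⟩
  by_cases hya : A y a = true
  · exact ⟨y, hy, hya, hyc⟩
  exfalso
  have hxc' : A x c = true := by simpa using hxc
  have hya' : A y a = false := by simpa using hya
  have hne : x ≠ y := by
    rintro rfl
    rw [hxb] at hyb
    exact Bool.noConfusion hyb
  rcases lt_or_gt_of_ne hne with hlt | hlt
  · exact hT x hx y hy hlt a ha b hb hab ⟨hxa, hxb, hya', hyb⟩
  · exact hT y hy x hx hlt b hb c hc hbc ⟨hyb, hyc, hxb, hxc'⟩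

lemma prec_irrefl (T : Finset (Fin n)) (a : Fin n) : ¬ prec A T a a := by
  rintro (⟨h, -⟩ | ⟨h, -⟩) <;> exact lt_irrefl a h

lemma prec_total (T : Finset (Fin n)) (a b : Fin n) (hab : a ≠ b) :
    prec A T a b ∨ prec A T b a := by
  rcases lt_or_gt_of_ne hab with h | h
  · by_cases hi : inv A T a b
    · exact Or.inr (Or.inr ⟨h, hi⟩)
    · exact Or.inl (Or.inl ⟨h, hi⟩)
  · by_cases hi : inv A T b a
    · exact Or.inl (Or.inr ⟨h, hi⟩)
    · exact Or.inr (Or.inl ⟨h, hi⟩)

lemma prec_trans {T C : Finset (Fin n)} (hT : NoCopyOn A T C) {a b c : Fin n}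
    (ha : a ∈ C) (hb : b ∈ C) (hc : c ∈ C) (hab : prec A T a b) (hbc : prec A T b c) :
    prec A T a c := by
  rcases hab with ⟨h1, h2⟩ | ⟨h1, h2⟩ <;> rcases hbc with ⟨h3, h4⟩ | ⟨h3, h4⟩
  · -- a < b < c
    left
    refine ⟨lt_trans h1 h3, fun h => ?_⟩
    rcases inv_coclosed A T a b c h with h' | h'
    · exact h2 h'
    · exact h4 h'
  · -- a < b, c < b : a ≠ c
    rcases lt_trichotomy a c with h | h | h
    · -- a < c < b
      left
      refine ⟨h, fun hi => h2 (inv_closed hT ha hc hb h h3 hi h4)⟩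
    · subst h
      exact absurd h4 h2
    · -- c < a < b
      right
      refine ⟨h, ?_⟩
      rcases inv_coclosed A T c a b h4 with h' | h'
      · exact h'
      · exact absurd h' h2
  · -- b < a, b < c
    rcases lt_trichotomy a c with h | h | h
    · -- b < a < c
      left
      refine ⟨h, fun hi => h4 (inv_closed hT hb ha hc h1 h h2 hi)⟩
    · subst h
      exact absurd h2 h4
    · -- b < c < a
      right
      refine ⟨h, ?_⟩
      rcases inv_coclosed A T b c a h2 with h' | h'
      · exact absurd h' h4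
      · exact h'
  · -- c < b < a
    right
    exact ⟨lt_trans h3 h1, inv_closed hT hc hb ha h3 h1 h4 h2⟩

variable (A)

lemma exists_seg (T C : Finset (Fin n)) (hT : NoCopyOn A T C) (r : Fin n) :
    ∃ X ⊆ C, (∀ a ∈ X, ∀ b ∈ C, prec A T a b → b ∈ X) ∧
      ((C.filter (fun c => A r c = true)) \ X).card = (X \ (C.filter (fun c => A r c = true))).card ∧
      ((C.filter (fun c => A r c = true)) \ X).card ^ 2 ≤
        (invSet A r \ T.biUnion (invSet A)).card + ∑ s ∈ T, cop A s r := by
  set S' := C.filter (fun c => A r c = true) with hS'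
  have hS'C : S' ⊆ C := filter_subset _ _
  obtain ⟨X, hXC, hXf, hcard, hle⟩ := key_lemma C S' hS'C (prec A T)
    (fun a _ => prec_irrefl T a)
    (fun a ha b hb c hc hab hbc => prec_trans hT ha hb hc hab hbc)
    (fun a _ b _ hab => prec_total T a b hab)
  refine ⟨X, hXC, hXf, hcard, le_trans hle ?_⟩
  have hsub : (S' ×ˢ (C \ S')).filter (fun p => prec A T p.1 p.2) ⊆
      (invSet A r \ T.biUnion (invSet A)) ∪
        T.biUnion (fun s => (copSet A s r).image Prod.swap) := by
    intro p hp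
    obtain ⟨hp1, hp2⟩ := mem_filter.1 hp
    obtain ⟨hp3, hp4⟩ := mem_product.1 hp1
    have hra : A r p.1 = true := (mem_filter.1 hp3).2
    have hrb : A r p.2 = false := by
      have h := (mem_sdiff.1 hp4).2
      have hC := (mem_sdiff.1 hp4).1
      have : ¬ A r p.2 = true := fun h' => h (mem_filter.2 ⟨hC, h'⟩)
      simpa using this
    rcases hp2 with ⟨h1, h2⟩ | ⟨h1, h2⟩
    · apply mem_union_left
      refine mem_sdiff.2 ⟨mem_filter.2 ⟨mem_univ _, h1, hra, hrb⟩, ?_⟩
      intro hmem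
      obtain ⟨s, hs, hsp⟩ := mem_biUnion.1 hmem
      obtain ⟨-, -, h3, h4⟩ := mem_filter.1 hsp
      exact h2 ⟨s, hs, h3, h4⟩
    · apply mem_union_right
      obtain ⟨x, hx, h3, h4⟩ := h2
      refine mem_biUnion.2 ⟨x, hx, mem_image.2 ⟨(p.2, p.1), ?_, rfl⟩⟩
      exact mem_filter.2 ⟨mem_univ _, h1, h3, h4, hrb, hra⟩
  refine le_trans (card_le_card hsub) (le_trans (card_union_le _ _) ?_)
  refine Nat.add_le_add_left ?_ _
  refine le_trans card_biUnion_le (sum_le_sum fun s _ => card_image_le)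

end Vale.Agent.Lib.P037
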