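import Mathlib

/-! A generic greedy selection lemma. -/

open Finset

namespace Vale.Agent.Lib.P037

section Select
variable {ι β : Type*} [Fintype ι] [DecidableEq ι] [DecidableEq β]

open Classical in
/-- Greedy selection: process blocks in increasing order; in each block select the admissible
element contributing the most new elements. -/
lemma exists_selection_aux (blk : ι → ℕ) (L : ℕ)
    (hL : ∀ k, (univ.filter (fun r => blk r = k)).card ≤ L)
    (I : ι → Finset β) (ok : Finset ι → ι → Prop) (k : ℕ) :
    ∃ S : Finset ι, (∀ s ∈ S, blk s < k) ∧ (∀ s ∈ S, ∀ s' ∈ S, blk s = blk s' → s = s') ∧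
      (∀ s ∈ S, ok (S.filter (fun x => blk x < blk s)) s) ∧
      ∑ r ∈ univ.filter (fun r => blk r < k ∧ ok (S.filter (fun x => blk x < blk r)) r),
        (I r \ (S.filter (fun x => blk x < blk r)).biUnion I).card ≤ L * (S.biUnion I).card := by
  induction k with
  | zero =>
    refine ⟨∅, by simp, by simp, by simp, by simp⟩
  | succ k ih =>
    obtain ⟨S, hSk, hSinj, hSok, hSsum⟩ := ih
    have hbefore_k : ∀ r, blk r = k → S.filter (fun x => blk x < blk r) = S := by
      intro r hr
      apply filter_true_of_mem
      intro x hx
      rw [hr]
      exact hSk x hx
    set D := univ.filter (fun r => blk r = k ∧ ok S r) with hD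
    by_cases hDne : D.Nonempty
    · -- choose the maximizer
      obtain ⟨s, hsD, hsmax⟩ := D.exists_max_image (fun r => (I r \ S.biUnion I).card) hDne
      obtain ⟨hsk, hsok⟩ := (mem_filter.1 hsD).2
      have hsnot : s ∉ S := fun h => by
        have := hSk s h
        omega
      have hbefore : ∀ r, blk r ≤ k →
          (insert s S).filter (fun x => blk x < blk r) = S.filter (fun x => blk x < blk r) := by
        intro r hr
        rw [filter_insert, if_neg (by omega)]
      refine ⟨insert s S, ?_, ?_, ?_, ?_⟩
      · intro x hx
        rcases mem_insert.1 hx with rfl | hx
        · omega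
        · have := hSk x hx
          omega
      · intro x hx y hy hxy
        rcases mem_insert.1 hx with hx' | hx' <;> rcases mem_insert.1 hy with hy' | hy'
        · rw [hx', hy']
        · have := hSk y hy'
          rw [hx'] at hxy
          omega
        · have := hSk x hx'
          rw [hy'] at hxy
          omega
        · exact hSinj x hx' y hy' hxy
      · intro x hx
        rcases mem_insert.1 hx with rfl | hx
        · rw [hbefore x (by omega), hbefore_k x hsk]
          exact hsok
        · have hxk := hSk x hx
          rw [hbefore x (by omega)]
          exact hSok x hx
      · -- split sum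
        have hfilter : univ.filter (fun r => blk r < k + 1 ∧
              ok ((insert s S).filter (fun x => blk x < blk r)) r) =
            univ.filter (fun r => blk r < k ∧ ok (S.filter (fun x => blk x < blk r)) r) ∪ D := by
          ext r
          simp only [mem_filter, mem_univ, true_and, mem_union, hD]
          constructor
          · rintro ⟨h1, h2⟩
            rw [hbefore r (by omega)] at h2
            by_cases hrk : blk r < k
            · exact Or.inl ⟨hrk, h2⟩
            · have hrk' : blk r = k := by omega
              rw [hbefore_k r hrk'] at h2
              exact Or.inr ⟨hrk', h2⟩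
          · rintro (⟨h1, h2⟩ | ⟨h1, h2⟩)
            · refine ⟨by omega, ?_⟩
              rw [hbefore r (by omega)]
              exact h2
            · refine ⟨by omega, ?_⟩
              rw [hbefore r (by omega), hbefore_k r h1]
              exact h2
        have hdisj : Disjoint (univ.filter (fun r => blk r < k ∧
            ok (S.filter (fun x => blk x < blk r)) r)) D := by
          rw [disjoint_left]
          intro r hr hr'
          have h1 := (mem_filter.1 hr).2.1
          have h2 := (mem_filter.1 hr').2.1
          omega
        rw [hfilter, sum_union hdisj]
        have hsum1 : ∑ r ∈ univ.filter (fun r => blk r < k ∧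
            ok (S.filter (fun x => blk x < blk r)) r),
            (I r \ ((insert s S).filter (fun x => blk x < blk r)).biUnion I).card =
            ∑ r ∈ univ.filter (fun r => blk r < k ∧
            ok (S.filter (fun x => blk x < blk r)) r),
            (I r \ (S.filter (fun x => blk x < blk r)).biUnion I).card := by
          apply sum_congr rfl
          intro r hr
          rw [hbefore r (by have := (mem_filter.1 hr).2.1; omega)]
        rw [hsum1]
        have hsum2 : ∑ r ∈ D, (I r \ ((insert s S).filter (fun x => blk x < blk r)).biUnion I).card
            ≤ L * (I s \ S.biUnion I).card := by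
          calc ∑ r ∈ D, (I r \ ((insert s S).filter (fun x => blk x < blk r)).biUnion I).card
              ≤ ∑ _r ∈ D, (I s \ S.biUnion I).card := by
                apply sum_le_sum
                intro r hr
                have hrk := (mem_filter.1 hr).2.1
                rw [hbefore r (by omega), hbefore_k r hrk]
                exact hsmax r hr
            _ = D.card * (I s \ S.biUnion I).card := by simp
            _ ≤ L * (I s \ S.biUnion I).card := by
                apply Nat.mul_le_mul_right
                refine le_trans (card_le_card ?_) (hL k)
                intro r hr
                exact mem_filter.2 ⟨mem_univ _, (mem_filter.1 hr).2.1⟩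
        have hunion : ((insert s S).biUnion I).card = (S.biUnion I).card + (I s \ S.biUnion I).card := by
          rw [biUnion_insert, union_comm, ← card_union_of_disjoint (disjoint_sdiff)]
          congr 1
          rw [union_sdiff_self_eq_union]
        rw [hunion, Nat.mul_add]
        omega
    · -- no admissible row in block k
      rw [not_nonempty_iff_eq_empty] at hDne
      refine ⟨S, fun s hs => by have := hSk s hs; omega, hSinj, hSok, ?_⟩
      have hfilter : univ.filter (fun r => blk r < k + 1 ∧
            ok (S.filter (fun x => blk x < blk r)) r) =
            univ.filter (fun r => blk r < k ∧ ok (S.filter (fun x => blk x < blk r)) r) := by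
        ext r
        simp only [mem_filter, mem_univ, true_and]
        constructor
        · rintro ⟨h1, h2⟩
          refine ⟨?_, h2⟩
          by_contra hrk
          have hrk' : blk r = k := by omega
          rw [hbefore_k r hrk'] at h2
          have : r ∈ D := mem_filter.2 ⟨mem_univ _, hrk', h2⟩
          rw [hDne] at this
          exact absurd this (notMem_empty r)
        · rintro ⟨h1, h2⟩
          exact ⟨by omega, h2⟩
      rw [hfilter]
      exact hSsum

open Classical in
/-- Greedy selection over all the blocks. -/
lemma exists_selection (blk : ι → ℕ) (m L : ℕ) (hblk : ∀ r, blk r < m)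
    (hL : ∀ k, (univ.filter (fun r => blk r = k)).card ≤ L)
    (I : ι → Finset β) (ok : Finset ι → ι → Prop) :
    ∃ S : Finset ι, (∀ s ∈ S, ∀ s' ∈ S, blk s = blk s' → s = s') ∧
      (∀ s ∈ S, ok (S.filter (fun x => blk x < blk s)) s) ∧
      ∑ r ∈ univ.filter (fun r => ok (S.filter (fun x => blk x < blk r)) r),
        (I r \ (S.filter (fun x => blk x < blk r)).biUnion I).card ≤ L * (S.biUnion I).card := by
  obtain ⟨S, -, h2, h3, h4⟩ := exists_selection_aux blk L hL I ok m
  refine ⟨S, h2, h3, ?_⟩
  have hfilter : univ.filter (fun r => blk r < m ∧ ok (S.filter (fun x => blk x < blk r)) r) =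
      univ.filter (fun r => ok (S.filter (fun x => blk x < blk r)) r) := by
    ext r
    simp [hblk r]
  rw [hfilter] at h4
  exact h4

end Select

end Vale.Agent.Lib.P037
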