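import Mathlib
import Vale.Agent.Lib.P037.Defs
import Vale.Agent.Lib.P037.KeyLemma
import Vale.Agent.Lib.P037.Select
import Vale.Agent.Lib.P037.Rows

/-! The construction of a nearby copy free matrix for the diagonal pattern. -/

open Finset
open Classical

namespace Vale.Agent.Lib.P037

variable {n : ℕ} (A : Fin n → Fin n → Bool)

/-- `B` has no copy of the diagonal pattern. -/
def NoQuad (B : Fin n → Fin n → Bool) : Prop :=
  ∀ r1 r2 c1 c2 : Fin n, r1 < r2 → c1 < c2 →
    ¬ (B r1 c1 = true ∧ B r1 c2 = false ∧ B r2 c1 = false ∧ B r2 c2 = true)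

/-- Admissible rows: few copies start there and small chain covers against the rows in `T`. -/
def okR (Θ₁ Θ' : ℝ) (T : Finset (Fin n)) (r : Fin n) : Prop :=
  (X1 A r : ℝ) ≤ Θ₁ ∧ ∀ s ∈ T, ((Zc A s r).card : ℝ) ≤ Θ'

lemma card_high_X1 (Θ₁ : ℝ) (hΘ₁ : 0 < Θ₁) :
    (((univ : Finset (Fin n)).filter (fun r => Θ₁ < (X1 A r : ℝ))).card : ℝ) ≤ (NN A : ℝ) / Θ₁ := by
  rw [le_div_iff₀ hΘ₁]
  calc (((univ : Finset (Fin n)).filter (fun r => Θ₁ < (X1 A r : ℝ))).card : ℝ) * Θ₁
      = ∑ _r ∈ (univ : Finset (Fin n)).filter (fun r => Θ₁ < (X1 A r : ℝ)), Θ₁ := by simp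
    _ ≤ ∑ r ∈ (univ : Finset (Fin n)).filter (fun r => Θ₁ < (X1 A r : ℝ)), (X1 A r : ℝ) :=
        sum_le_sum fun r hr => le_of_lt (mem_filter.1 hr).2
    _ ≤ ∑ r, (X1 A r : ℝ) := sum_le_sum_of_subset_of_nonneg (subset_univ _)
        (fun _ _ _ => Nat.cast_nonneg _)
    _ = (NN A : ℝ) := by simp [NN]

lemma card_high_Zc (Θ' : ℝ) (hΘ' : 0 < Θ') (s : Fin n) :
    (((univ : Finset (Fin n)).filter (fun r => s < r ∧ Θ' < ((Zc A s r).card : ℝ))).card : ℝ) ≤
      4 * (X1 A s : ℝ) / Θ' ^ 2 := by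
  have hpos : 0 < Θ' ^ 2 := by positivity
  rw [le_div_iff₀ hpos]
  set F := (univ : Finset (Fin n)).filter (fun r => s < r ∧ Θ' < ((Zc A s r).card : ℝ)) with hF
  calc (F.card : ℝ) * Θ' ^ 2 = ∑ _r ∈ F, Θ' ^ 2 := by simp
    _ ≤ ∑ r ∈ F, (4 * (cop A s r : ℝ)) := by
        apply sum_le_sum
        intro r hr
        obtain ⟨-, -, h2⟩ := mem_filter.1 hr
        have h3 : (((Zc A s r).card ^ 2 : ℕ) : ℝ) ≤ ((4 * cop A s r : ℕ) : ℝ) := by
          exact_mod_cast Zc_card A s r
        push_cast at h3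
        have h4 : Θ' ^ 2 ≤ ((Zc A s r).card : ℝ) ^ 2 := by
          exact pow_le_pow_left₀ hΘ'.le h2.le 2
        exact le_trans h4 h3
    _ ≤ ∑ r ∈ (univ : Finset (Fin n)).filter (fun r => s < r), (4 * (cop A s r : ℝ)) := by
        apply sum_le_sum_of_subset_of_nonneg
        · intro r hr
          obtain ⟨-, h1, -⟩ := mem_filter.1 hr
          exact mem_filter.2 ⟨mem_univ _, h1⟩
        · intro _ _ _
          positivity
    _ = 4 * (X1 A s : ℝ) := by
        rw [← mul_sum]
        simp [X1]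

lemma hamming_eq_sum (B : Fin n → Fin n → Bool) :
    hamming A B = ∑ r, (univ.filter (fun c => A r c ≠ B r c)).card := by
  unfold hamming
  simp only [card_filter]
  rw [Fintype.sum_prod_type]

theorem core (m L : ℕ) (blk : Fin n → ℕ) (hmono : ∀ r r', r ≤ r' → blk r ≤ blk r')
    (hblk : ∀ r, blk r < m)
    (hL : ∀ k, (univ.filter (fun r => blk r = k)).card ≤ L) (Θ₁ Θ' : ℝ) (hΘ₁ : 0 < Θ₁)
    (hΘ' : 0 < Θ') :
    ∃ (B : Fin n → Fin n → Bool) (T nk zc : ℕ), NoQuad B ∧
      hamming A B ≤ n * nk + n * zc + 2 * T ∧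
      (nk : ℝ) ≤ (NN A : ℝ) / Θ₁ + m * (4 * Θ₁ / Θ' ^ 2) ∧ (zc : ℝ) ≤ m ^ 2 * Θ' ∧
      (T : ℝ) ^ 2 ≤ n * (L * n ^ 2 + m * Θ₁) := by
  obtain ⟨S, hSinj, hSok, hSsum⟩ := exists_selection blk m L hblk hL (invSet A) (okR A Θ₁ Θ')
  set before : Fin n → Finset (Fin n) := fun r => S.filter (fun x => blk x < blk r) with hbefore
  have hbefore_lt : ∀ r s, s ∈ before r → s < r := by
    intro r s hs
    have := (mem_filter.1 hs).2
    by_contra h
    have h' := hmono r s (not_lt.1 h)
    omega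
  have hcardS : S.card ≤ m := by
    have : S.card ≤ (range m).card :=
      card_le_card_of_injOn blk (fun s _ => mem_range.2 (hblk s))
        (fun s hs s' hs' h => hSinj s hs s' hs' h)
    simpa using this
  have hXS : ∀ s ∈ S, (X1 A s : ℝ) ≤ Θ₁ := fun s hs => (hSok s hs).1
  -- the bad columns
  set P2 : Finset (Fin n × Fin n) := (S ×ˢ S).filter (fun p => p.1 < p.2) with hP2
  set Z : Finset (Fin n) := P2.biUnion (fun p => Zc A p.1 p.2) with hZ
  set C : Finset (Fin n) := univ \ Z with hC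
  have hbeforeS : ∀ s ∈ S, ∀ s' ∈ S, s < s' → s ∈ before s' := by
    intro s hs s' hs' hlt
    refine mem_filter.2 ⟨hs, ?_⟩
    have h1 := hmono s s' hlt.le
    have h2 : blk s ≠ blk s' := fun h => (ne_of_lt hlt) (hSinj s hs s' hs' h)
    omega
  have hZcard : (Z.card : ℝ) ≤ m ^ 2 * Θ' := by
    have h1 : (Z.card : ℝ) ≤ ∑ p ∈ P2, ((Zc A p.1 p.2).card : ℝ) := by
      have : Z.card ≤ ∑ p ∈ P2, (Zc A p.1 p.2).card := card_biUnion_le
      exact_mod_cast this
    have h2 : ∑ p ∈ P2, ((Zc A p.1 p.2).card : ℝ) ≤ ∑ _p ∈ P2, Θ' := by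
      apply sum_le_sum
      intro p hp
      obtain ⟨hp1, hp2⟩ := mem_filter.1 hp
      obtain ⟨hp3, hp4⟩ := mem_product.1 hp1
      exact (hSok p.2 hp4).2 p.1 (hbeforeS p.1 hp3 p.2 hp4 hp2)
    have h3 : ((P2.card : ℕ) : ℝ) ≤ (m : ℝ) ^ 2 := by
      have : P2.card ≤ m ^ 2 := by
        calc P2.card ≤ (S ×ˢ S).card := card_filter_le _ _
          _ = S.card * S.card := card_product _ _
          _ ≤ m * m := Nat.mul_le_mul hcardS hcardS
          _ = m ^ 2 := (sq m).symm
      exact_mod_cast this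
    calc (Z.card : ℝ) ≤ ∑ _p ∈ P2, Θ' := le_trans h1 h2
      _ = (P2.card : ℝ) * Θ' := by simp
      _ ≤ m ^ 2 * Θ' := by
        apply mul_le_mul_of_nonneg_right h3 hΘ'.le
  have hnocopy : NoCopyOn A S C := by
    intro x hx y hy hxy a ha b hb hab ⟨h1, h2, h3, h4⟩
    have hp : (x, y) ∈ P2 := mem_filter.2 ⟨mem_product.2 ⟨hx, hy⟩, hxy⟩
    have hsub : Zc A x y ⊆ Z := fun c hc => mem_biUnion.2 ⟨(x, y), hp, hc⟩
    have haZ : a ∉ Zc A x y := fun h => (mem_sdiff.1 ha).2 (hsub h)
    have hbZ : b ∉ Zc A x y := fun h => (mem_sdiff.1 hb).2 (hsub h)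
    exact Zc_spec A x y a b h1 h3 h2 h4 haZ hbZ hab
  have hnocopy' : ∀ r, NoCopyOn A (before r) C := by
    intro r x hx y hy
    exact hnocopy x (mem_filter.1 hx).1 y (mem_filter.1 hy).1
  have hseg := fun r => exists_seg A (before r) C (hnocopy' r) r
  choose X hXC hXf hXcard hXle using hseg
  set kept : Fin n → Prop := fun r => okR A Θ₁ Θ' (before r) r with hkept
  set B : Fin n → Fin n → Bool := fun r c => decide (kept r ∧ c ∈ X r) with hB
  set t : Fin n → ℕ := fun r => ((C.filter (fun c => A r c = true)) \ X r).card with ht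
  have hBtrue : ∀ r c, B r c = true ↔ (kept r ∧ c ∈ X r) := by
    intro r c
    simp [hB]
  have hNoQuad : NoQuad B := by
    intro r1 r2 c1 c2 hr hc ⟨h1, h2, h3, h4⟩
    have h1' := (hBtrue r1 c1).1 h1
    have h4' := (hBtrue r2 c2).1 h4
    have h2' : c2 ∉ X r1 := by
      intro h
      have := (hBtrue r1 c2).2 ⟨h1'.1, h⟩
      rw [this] at h2
      exact Bool.noConfusion h2
    have h3' : c1 ∉ X r2 := by
      intro h
      have := (hBtrue r2 c1).2 ⟨h4'.1, h⟩
      rw [this] at h3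
      exact Bool.noConfusion h3
    have hc1C : c1 ∈ C := hXC r1 h1'.2
    have hc2C : c2 ∈ C := hXC r2 h4'.2
    have hinv1 : inv A (before r1) c1 c2 := by
      by_contra hni
      exact h2' (hXf r1 c1 h1'.2 c2 hc2C (Or.inl ⟨hc, hni⟩))
    have hinv2 : inv A (before r2) c1 c2 := by
      obtain ⟨x, hx, h5, h6⟩ := hinv1
      refine ⟨x, ?_, h5, h6⟩
      obtain ⟨hxS, hxb⟩ := mem_filter.1 hx
      refine mem_filter.2 ⟨hxS, ?_⟩
      have := hmono r1 r2 hr.le
      omega
    exact h3' (hXf r2 c2 h4'.2 c1 hc1C (Or.inr ⟨hc, hinv2⟩))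
  -- the row counts
  have hrowbad : ∀ r, (univ.filter (fun c => A r c ≠ B r c)).card ≤ n := by
    intro r
    calc (univ.filter (fun c => A r c ≠ B r c)).card ≤ (univ : Finset (Fin n)).card :=
          card_le_card (filter_subset _ _)
      _ = n := by simp
  have hrowgood : ∀ r, kept r → (univ.filter (fun c => A r c ≠ B r c)).card ≤ Z.card + 2 * t r := by
    intro r hr
    have hsub : univ.filter (fun c => A r c ≠ B r c) ⊆
        Z ∪ (((C.filter (fun c => A r c = true)) \ X r) ∪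
          (X r \ (C.filter (fun c => A r c = true)))) := by
      intro c hc
      have hne := (mem_filter.1 hc).2
      by_cases hcZ : c ∈ Z
      · exact mem_union_left _ hcZ
      apply mem_union_right
      have hcC : c ∈ C := mem_sdiff.2 ⟨mem_univ _, hcZ⟩
      by_cases hA : A r c = true
      · apply mem_union_left
        refine mem_sdiff.2 ⟨mem_filter.2 ⟨hcC, hA⟩, fun hcX => hne ?_⟩
        rw [hA, (hBtrue r c).2 ⟨hr, hcX⟩]
      · apply mem_union_right
        have hBc : B r c = true := by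
          by_contra hBf
          apply hne
          simp only [Bool.not_eq_true] at hA hBf
          rw [hA, hBf]
        refine mem_sdiff.2 ⟨((hBtrue r c).1 hBc).2, fun h => hA (mem_filter.1 h).2⟩
    calc (univ.filter (fun c => A r c ≠ B r c)).card
        ≤ (Z ∪ (((C.filter (fun c => A r c = true)) \ X r) ∪
          (X r \ (C.filter (fun c => A r c = true))))).card := card_le_card hsub
      _ ≤ Z.card + (((C.filter (fun c => A r c = true)) \ X r) ∪
          (X r \ (C.filter (fun c => A r c = true)))).card := card_union_le _ _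
      _ ≤ Z.card + (((C.filter (fun c => A r c = true)) \ X r).card +
          (X r \ (C.filter (fun c => A r c = true))).card) :=
          Nat.add_le_add_left (card_union_le _ _) _
      _ = Z.card + 2 * t r := by
          rw [← hXcard r]
          simp only [ht]
          ring
  set Kp : Finset (Fin n) := univ.filter kept with hKp
  set NK : Finset (Fin n) := univ.filter (fun r => ¬ kept r) with hNK
  refine ⟨B, ∑ r ∈ Kp, t r, NK.card, Z.card, hNoQuad, ?_, ?_, hZcard, ?_⟩
  · -- hamming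
    rw [hamming_eq_sum]
    have hsplit : ∑ r, (univ.filter (fun c => A r c ≠ B r c)).card =
        ∑ r ∈ Kp, (univ.filter (fun c => A r c ≠ B r c)).card +
        ∑ r ∈ NK, (univ.filter (fun c => A r c ≠ B r c)).card :=
      (sum_filter_add_sum_filter_not _ _ _).symm
    rw [hsplit]
    have h1 : ∑ r ∈ Kp, (univ.filter (fun c => A r c ≠ B r c)).card ≤
        ∑ r ∈ Kp, (Z.card + 2 * t r) :=
      sum_le_sum fun r hr => hrowgood r (mem_filter.1 hr).2
    have h2 : ∑ r ∈ NK, (univ.filter (fun c => A r c ≠ B r c)).card ≤ ∑ _r ∈ NK, n :=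
      sum_le_sum fun r _ => hrowbad r
    rw [sum_const, smul_eq_mul] at h2
    rw [sum_add_distrib, sum_const, smul_eq_mul, ← mul_sum] at h1
    have h3 : Kp.card ≤ n := by
      calc Kp.card ≤ (univ : Finset (Fin n)).card := card_le_card (filter_subset _ _)
        _ = n := by simp
    have h4 : Kp.card * Z.card ≤ n * Z.card := Nat.mul_le_mul_right _ h3
    have h5 : NK.card * n = n * NK.card := Nat.mul_comm _ _
    omega
  · -- non kept rows
    have hsub : NK ⊆ (univ.filter (fun r => Θ₁ < (X1 A r : ℝ))) ∪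
        S.biUnion (fun s => univ.filter (fun r => s < r ∧ Θ' < ((Zc A s r).card : ℝ))) := by
      intro r hr
      have hnk := (mem_filter.1 hr).2
      by_cases hX : (X1 A r : ℝ) ≤ Θ₁
      · have : ¬ ∀ s ∈ before r, ((Zc A s r).card : ℝ) ≤ Θ' := fun h => hnk ⟨hX, h⟩
        push Not at this
        obtain ⟨s, hs, hsZ⟩ := this
        apply mem_union_right
        exact mem_biUnion.2 ⟨s, (mem_filter.1 hs).1,
          mem_filter.2 ⟨mem_univ _, hbefore_lt r s hs, hsZ⟩⟩
      · apply mem_union_left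
        exact mem_filter.2 ⟨mem_univ _, not_le.1 hX⟩
    have h1 : (NK.card : ℝ) ≤ ((univ.filter (fun r => Θ₁ < (X1 A r : ℝ))).card : ℝ) +
        ∑ s ∈ S, (((univ : Finset (Fin n)).filter
          (fun r => s < r ∧ Θ' < ((Zc A s r).card : ℝ))).card : ℝ) := by
      have h := le_trans (card_le_card hsub) (card_union_le _ _)
      have h' := Nat.add_le_add_left (card_biUnion_le (s := S)
        (t := fun s => (univ : Finset (Fin n)).filter
          (fun r => s < r ∧ Θ' < ((Zc A s r).card : ℝ))))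
        ((univ.filter (fun r => Θ₁ < (X1 A r : ℝ))).card)
      have h'' := le_trans h h'
      exact_mod_cast h''
    have h2 := card_high_X1 A Θ₁ hΘ₁
    have h3 : ∑ s ∈ S, (((univ : Finset (Fin n)).filter
          (fun r => s < r ∧ Θ' < ((Zc A s r).card : ℝ))).card : ℝ) ≤ m * (4 * Θ₁ / Θ' ^ 2) := by
      calc ∑ s ∈ S, (((univ : Finset (Fin n)).filter
          (fun r => s < r ∧ Θ' < ((Zc A s r).card : ℝ))).card : ℝ)
          ≤ ∑ _s ∈ S, (4 * Θ₁ / Θ' ^ 2) := by
            apply sum_le_sum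
            intro s hs
            refine le_trans (card_high_Zc A Θ' hΘ' s) ?_
            have := hXS s hs
            gcongr
        _ = (S.card : ℝ) * (4 * Θ₁ / Θ' ^ 2) := by simp
        _ ≤ m * (4 * Θ₁ / Θ' ^ 2) := by
            apply mul_le_mul_of_nonneg_right
            · exact_mod_cast hcardS
            · positivity
    linarith
  · -- the sum of the t
    have hCS : (∑ r ∈ Kp, t r) ^ 2 ≤ Kp.card * ∑ r ∈ Kp, t r ^ 2 := sq_sum_le_card_mul_sum_sq
    have hKn : Kp.card ≤ n := by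
      calc Kp.card ≤ (univ : Finset (Fin n)).card := card_le_card (filter_subset _ _)
        _ = n := by simp
    have hsumt : ∑ r ∈ Kp, t r ^ 2 ≤ L * n ^ 2 + ∑ s ∈ S, X1 A s := by
      calc ∑ r ∈ Kp, t r ^ 2 ≤ ∑ r ∈ Kp, ((invSet A r \ (before r).biUnion (invSet A)).card +
            ∑ s ∈ before r, cop A s r) := sum_le_sum fun r _ => hXle r
        _ = ∑ r ∈ Kp, (invSet A r \ (before r).biUnion (invSet A)).card +
            ∑ r ∈ Kp, ∑ s ∈ before r, cop A s r := sum_add_distrib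
        _ ≤ L * n ^ 2 + ∑ s ∈ S, X1 A s := by
          apply Nat.add_le_add
          · refine le_trans hSsum (Nat.mul_le_mul_left L ?_)
            calc (S.biUnion (invSet A)).card ≤ (univ : Finset (Fin n × Fin n)).card :=
                  card_le_card (subset_univ _)
              _ = n ^ 2 := by simp [sq]
          · have hswap : ∑ r ∈ Kp, ∑ s ∈ before r, cop A s r =
                ∑ s ∈ S, ∑ r ∈ Kp.filter (fun r => blk s < blk r), cop A s r := by
              apply sum_comm'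
              intro r s
              simp only [hbefore, mem_filter]
              tauto
            rw [hswap]
            apply sum_le_sum
            intro s _
            unfold X1
            apply sum_le_sum_of_subset_of_nonneg
            · intro r hr
              refine mem_filter.2 ⟨mem_univ _, ?_⟩
              have h1 := (mem_filter.1 hr).2
              by_contra h
              have h' := hmono r s (not_lt.1 h)
              omega
            · intro _ _ _
              exact Nat.zero_le _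
    have h1 : ((∑ r ∈ Kp, t r : ℕ) : ℝ) ^ 2 ≤ (Kp.card : ℝ) * ((L * n ^ 2 + ∑ s ∈ S, X1 A s : ℕ) : ℝ) := by
      have h := le_trans hCS (Nat.mul_le_mul_left Kp.card hsumt)
      exact_mod_cast h
    have h2 : ((L * n ^ 2 + ∑ s ∈ S, X1 A s : ℕ) : ℝ) ≤ L * n ^ 2 + m * Θ₁ := by
      push_cast
      have h3 : ∑ s ∈ S, (X1 A s : ℝ) ≤ ∑ _s ∈ S, Θ₁ := sum_le_sum fun s hs => hXS s hs
      have h4 : ∑ _s ∈ S, Θ₁ ≤ m * Θ₁ := by
        rw [sum_const, nsmul_eq_mul]
        apply mul_le_mul_of_nonneg_right _ hΘ₁.le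
        exact_mod_cast hcardS
      linarith
    have h5 : (Kp.card : ℝ) ≤ n := by exact_mod_cast hKn
    calc ((∑ r ∈ Kp, t r : ℕ) : ℝ) ^ 2 ≤ (Kp.card : ℝ) * ((L * n ^ 2 + ∑ s ∈ S, X1 A s : ℕ) : ℝ) := h1
      _ ≤ (n : ℝ) * (L * n ^ 2 + m * Θ₁) := by
        apply mul_le_mul h5 h2 (Nat.cast_nonneg _) (Nat.cast_nonneg _)

end Vale.Agent.Lib.P037
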