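import Mathlib
import Vale.Agent.Lib.P037.Defs

/-! Copies of `2 × 2` patterns as quadruples of rows and columns. -/

open Finset
open Classical

namespace Vale.Agent.Lib.P037

variable {n : ℕ}

/-- Copy free matrices from quadruples. -/
lemma copyCount_eq_zero_of (H : Fin 2 → Fin 2 → Bool) (B : Fin n → Fin n → Bool)
    (b00 b01 b10 b11 : Bool) (h00 : H 0 0 = b00) (h01 : H 0 1 = b01) (h10 : H 1 0 = b10)
    (h11 : H 1 1 = b11)
    (hB : ∀ r1 r2 c1 c2 : Fin n, r1 < r2 → c1 < c2 →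
      ¬ (B r1 c1 = b00 ∧ B r1 c2 = b01 ∧ B r2 c1 = b10 ∧ B r2 c2 = b11)) :
    copyCount H B = 0 := by
  have hempty : {p : (Fin 2 → Fin n) × (Fin 2 → Fin n) |
      StrictMono p.1 ∧ StrictMono p.2 ∧ ∀ i j, B (p.1 i) (p.2 j) = H i j} = ∅ := by
    ext p
    simp only [Set.mem_ofPred_eq, Set.mem_empty_iff_false, iff_false]
    rintro ⟨h1, h2, h3⟩
    have h01' : (0 : Fin 2) < 1 := by decide
    refine hB (p.1 0) (p.1 1) (p.2 0) (p.2 1) (h1 h01') (h2 h01') ⟨?_, ?_, ?_, ?_⟩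
    · rw [h3, h00]
    · rw [h3, h01]
    · rw [h3, h10]
    · rw [h3, h11]
  unfold copyCount
  rw [hempty]
  exact Set.ncard_empty _

/-- Quadruples give copies. -/
lemma quad_count_le (H : Fin 2 → Fin 2 → Bool) (A : Fin n → Fin n → Bool)
    (b00 b01 b10 b11 : Bool) (h00 : H 0 0 = b00) (h01 : H 0 1 = b01) (h10 : H 1 0 = b10)
    (h11 : H 1 1 = b11) :
    ∑ r, ∑ r' ∈ univ.filter (fun r' => r < r'),
      ((univ : Finset (Fin n × Fin n)).filter (fun p => p.1 < p.2 ∧ A r p.1 = b00 ∧ A r p.2 = b01 ∧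
        A r' p.1 = b10 ∧ A r' p.2 = b11)).card ≤ copyCount H A := by
  set Q : Finset (Σ _r : Fin n, Σ _r' : Fin n, Fin n × Fin n) :=
    (univ : Finset (Fin n)).sigma (fun r => (univ.filter (fun r' => r < r')).sigma
      (fun r' => (univ : Finset (Fin n × Fin n)).filter (fun p => p.1 < p.2 ∧ A r p.1 = b00 ∧
        A r p.2 = b01 ∧ A r' p.1 = b10 ∧ A r' p.2 = b11))) with hQ
  have hcard : Q.card = ∑ r, ∑ r' ∈ univ.filter (fun r' => r < r'),
      ((univ : Finset (Fin n × Fin n)).filter (fun p => p.1 < p.2 ∧ A r p.1 = b00 ∧ A r p.2 = b01 ∧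
        A r' p.1 = b10 ∧ A r' p.2 = b11)).card := by
    rw [hQ, card_sigma]
    refine sum_congr rfl fun r _ => ?_
    rw [card_sigma]
  rw [← hcard]
  set f : (Σ _r : Fin n, Σ _r' : Fin n, Fin n × Fin n) → (Fin 2 → Fin n) × (Fin 2 → Fin n) :=
    fun x => (![x.1, x.2.1], ![x.2.2.1, x.2.2.2]) with hf
  have hinj : Set.InjOn f (Q : Set _) := by
    rintro ⟨r, r', a, b⟩ _ ⟨s, s', c, d⟩ _ h
    have h1 := congrFun (congrArg Prod.fst h) 0
    have h2 := congrFun (congrArg Prod.fst h) 1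
    have h3 := congrFun (congrArg Prod.snd h) 0
    have h4 := congrFun (congrArg Prod.snd h) 1
    simp only [hf, Matrix.cons_val_zero, Matrix.cons_val_one] at h1 h2 h3 h4
    subst h1 h2 h3 h4
    rfl
  rw [← card_image_of_injOn hinj, ← Set.ncard_coe_finset]
  apply Set.ncard_le_ncard _ (Set.toFinite _)
  intro p hp
  obtain ⟨⟨r, r', a, b⟩, hx, rfl⟩ := mem_image.1 (mem_coe.1 hp)
  obtain ⟨-, hx⟩ := mem_sigma.1 hx
  obtain ⟨hrr, hx⟩ := mem_sigma.1 hx
  have hrr' : r < r' := (mem_filter.1 hrr).2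
  obtain ⟨-, hab, h1, h2, h3, h4⟩ := mem_filter.1 hx
  refine ⟨?_, ?_, ?_⟩
  · intro i j hij
    fin_cases i <;> fin_cases j <;> first | exact absurd hij (by decide) | exact hrr'
  · intro i j hij
    fin_cases i <;> fin_cases j <;> first | exact absurd hij (by decide) | exact hab
  · intro i j
    fin_cases i <;> fin_cases j
    · exact h1.trans h00.symm
    · exact h2.trans h01.symm
    · exact h3.trans h10.symm
    · exact h4.trans h11.symm

lemma distFree_lt' {k : ℕ} (H : Fin k → Fin k → Bool) (A B : Fin n → Fin n → Bool) (hn : 0 < n)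
    (hB : copyCount H B = 0) (ε : ℝ) (hle : (hamming A B : ℝ) < ε * (n : ℝ) ^ 2) :
    distFree H A < ε := by
  have hx : (0 : ℝ) < (n : ℝ) ^ 2 := by positivity
  unfold distFree
  rw [div_lt_iff₀ hx]
  refine lt_of_le_of_lt ?_ hle
  have : sInf {d : ℕ | ∃ B : Fin n → Fin n → Bool, copyCount H B = 0 ∧ d = hamming A B} ≤
      hamming A B := Nat.sInf_le ⟨B, hB, rfl⟩
  exact_mod_cast this

end Vale.Agent.Lib.P037
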