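import Mathlib
import Vale.Agent.Lib.P037.Defs
import Vale.Agent.Lib.P037.KeyLemma
import Vale.Agent.Lib.P037.Core
import Vale.Agent.Lib.P037.Count2

/-! The patterns `[[1,1],[0,0]]` and `[[1,1],[1,1]]`. -/

open Finset
open Classical

namespace Vale.Agent.Lib.P037

variable {n : ℕ}

lemma sq_card_le (S : Finset (Fin n)) :
    S.card ^ 2 ≤ 2 * ((univ : Finset (Fin n × Fin n)).filter
      (fun p => p.1 < p.2 ∧ p.1 ∈ S ∧ p.2 ∈ S)).card + S.card := by
  set F := (univ : Finset (Fin n × Fin n)).filter (fun p => p.1 < p.2 ∧ p.1 ∈ S ∧ p.2 ∈ S) with hF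
  have hsub : S ×ˢ S ⊆ (F ∪ F.image Prod.swap) ∪ S.image (fun c => (c, c)) := by
    intro p hp
    obtain ⟨h1, h2⟩ := mem_product.1 hp
    rcases lt_trichotomy p.1 p.2 with h | h | h
    · exact mem_union_left _ (mem_union_left _ (mem_filter.2 ⟨mem_univ _, h, h1, h2⟩))
    · apply mem_union_right
      exact mem_image.2 ⟨p.1, h1, by rw [Prod.ext_iff]; exact ⟨rfl, h⟩⟩
    · apply mem_union_left
      apply mem_union_right
      exact mem_image.2 ⟨p.swap, mem_filter.2 ⟨mem_univ _, h, h2, h1⟩, by simp⟩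
  have h1 := card_le_card hsub
  have h2 := card_union_le (F ∪ F.image Prod.swap) (S.image (fun c => (c, c)))
  have h3 := card_union_le F (F.image Prod.swap)
  have h4 : (F.image Prod.swap).card ≤ F.card := card_image_le
  have h5 : (S.image (fun c => (c, c))).card ≤ S.card := card_image_le
  rw [card_product] at h1
  rw [sq]
  omega

/-- Sum over increasing pairs as a double sum. -/
lemma sum_pairs (f : Fin n × Fin n → ℕ) :
    ∑ p ∈ (univ : Finset (Fin n × Fin n)).filter (fun p => p.1 < p.2), f p =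
      ∑ r, ∑ r' ∈ univ.filter (fun r' => r < r'), f (r, r') := by
  rw [sum_filter, Fintype.sum_prod_type]
  refine sum_congr rfl fun r _ => ?_
  rw [sum_filter]

/-- The elementary inequality used for both patterns. -/
lemma pairs_bound (x cnt : Fin n × Fin n → ℕ)
    (hx : ∀ p, x p ^ 2 ≤ 2 * cnt p + x p) :
    ((∑ p ∈ (univ : Finset (Fin n × Fin n)).filter (fun p => p.1 < p.2), x p : ℕ) : ℝ) ^ 2 ≤
      (n : ℝ) ^ 2 * (2 * ((∑ p ∈ (univ : Finset (Fin n × Fin n)).filter (fun p => p.1 < p.2), cnt p : ℕ) : ℝ) +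
        ((∑ p ∈ (univ : Finset (Fin n × Fin n)).filter (fun p => p.1 < p.2), x p : ℕ) : ℝ)) := by
  set P := (univ : Finset (Fin n × Fin n)).filter (fun p => p.1 < p.2) with hP
  have h1 : (∑ p ∈ P, x p) ^ 2 ≤ P.card * ∑ p ∈ P, x p ^ 2 := sq_sum_le_card_mul_sum_sq
  have h2 : ∑ p ∈ P, x p ^ 2 ≤ 2 * ∑ p ∈ P, cnt p + ∑ p ∈ P, x p := by
    rw [mul_sum, ← sum_add_distrib]
    exact sum_le_sum fun p _ => hx p
  have h3 : P.card ≤ n ^ 2 := by
    calc P.card ≤ (univ : Finset (Fin n × Fin n)).card := card_le_card (filter_subset _ _)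
      _ = n ^ 2 := by simp [sq]
  have h4 : (∑ p ∈ P, x p) ^ 2 ≤ n ^ 2 * (2 * ∑ p ∈ P, cnt p + ∑ p ∈ P, x p) :=
    le_trans h1 (Nat.mul_le_mul h3 h2)
  exact_mod_cast h4

/-- From the inequality `I ^ 2 ≤ n ^ 2 * (2 * N + I)` to an upper bound for `I`. -/
lemma pairs_arith (I N x e : ℝ) (hI : 0 ≤ I) (hx : 0 < x) (he : 0 < e)
    (h : I ^ 2 ≤ x ^ 2 * (2 * N + I)) (hlarge : 8 ≤ e ^ 2 * x) (hN : N < 1 / 64 * e ^ 4 * x ^ 4) :
    I < e ^ 2 * x ^ 3 / 4 := by
  by_contra hcon
  have hcon' : e ^ 2 * x ^ 3 / 4 ≤ I := not_lt.1 hcon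
  have h1 : 2 * x ^ 2 ≤ I := by
    have h2 : 2 * x ^ 2 ≤ e ^ 2 * x ^ 3 / 4 := by
      have h3 : e ^ 2 * x ^ 3 / 4 = (e ^ 2 * x) * x ^ 2 / 4 := by ring
      rw [h3]
      have h4 : 0 ≤ x ^ 2 := by positivity
      nlinarith
    linarith
  have h2 : x ^ 2 * I ≤ I ^ 2 / 2 := by
    have : 0 ≤ I := hI
    nlinarith
  have h3 : I ^ 2 ≤ 4 * x ^ 2 * N := by nlinarith
  have h4 : (e ^ 2 * x ^ 3 / 4) ^ 2 ≤ I ^ 2 := pow_le_pow_left₀ (by positivity) hcon' 2
  have h5 : (e ^ 2 * x ^ 3 / 4) ^ 2 = 4 * x ^ 2 * (1 / 64 * e ^ 4 * x ^ 4) := by ring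
  have h6 : 4 * x ^ 2 * N < 4 * x ^ 2 * (1 / 64 * e ^ 4 * x ^ 4) :=
    mul_lt_mul_of_pos_left hN (by positivity)
  linarith

variable (A : Fin n → Fin n → Bool)

/-- The pattern `[[1,1],[0,0]]`: cutting each column separately. -/
theorem adj_main (hn : 0 < n) (ε : ℝ) (he : 0 < ε) (he1 : ε < 1) (hlarge : 8 ≤ ε ^ 2 * (n : ℝ))
    (hN : ((∑ r, ∑ r' ∈ univ.filter (fun r' => r < r'),
      ((univ : Finset (Fin n × Fin n)).filter (fun p => p.1 < p.2 ∧ A r p.1 = true ∧ A r p.2 = true ∧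
        A r' p.1 = false ∧ A r' p.2 = false)).card : ℕ) : ℝ) < 1 / 64 * ε ^ 4 * (n : ℝ) ^ 4) :
    ∃ B : Fin n → Fin n → Bool,
      (∀ r1 r2 c1 c2 : Fin n, r1 < r2 → c1 < c2 →
        ¬ (B r1 c1 = true ∧ B r1 c2 = true ∧ B r2 c1 = false ∧ B r2 c2 = false)) ∧
      (hamming A B : ℝ) < ε * (n : ℝ) ^ 2 := by
  have hx : (0 : ℝ) < n := by exact_mod_cast hn
  set S : Fin n × Fin n → Finset (Fin n) := fun p => univ.filter (fun c => A p.1 c = true ∧ A p.2 c = false) with hS
  set cnt : Fin n × Fin n → ℕ := fun p => ((univ : Finset (Fin n × Fin n)).filter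
    (fun q => q.1 < q.2 ∧ q.1 ∈ S p ∧ q.2 ∈ S p)).card with hcnt
  set x : Fin n × Fin n → ℕ := fun p => (S p).card with hx'
  have hxc : ∀ p, x p ^ 2 ≤ 2 * cnt p + x p := fun p => sq_card_le (S p)
  have hcnteq : ∀ r r', cnt (r, r') = ((univ : Finset (Fin n × Fin n)).filter (fun p => p.1 < p.2 ∧
      A r p.1 = true ∧ A r p.2 = true ∧ A r' p.1 = false ∧ A r' p.2 = false)).card := by
    intro r r'
    simp only [hcnt, hS]
    congr 1
    ext q
    simp only [mem_filter, mem_univ, true_and]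
    tauto
  set P := (univ : Finset (Fin n × Fin n)).filter (fun p => p.1 < p.2) with hP
  set II := ∑ p ∈ P, x p with hII
  have hNN : ∑ p ∈ P, cnt p = ∑ r, ∑ r' ∈ univ.filter (fun r' => r < r'),
      ((univ : Finset (Fin n × Fin n)).filter (fun p => p.1 < p.2 ∧ A r p.1 = true ∧ A r p.2 = true ∧
        A r' p.1 = false ∧ A r' p.2 = false)).card := by
    rw [hP, sum_pairs]
    refine sum_congr rfl fun r _ => sum_congr rfl fun r' _ => hcnteq r r'
  have hpb := pairs_bound x cnt hxc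
  rw [← hP, ← hII] at hpb
  have hIbound : (II : ℝ) < ε ^ 2 * (n : ℝ) ^ 3 / 4 := by
    apply pairs_arith (II : ℝ) ((∑ p ∈ P, cnt p : ℕ) : ℝ) (n : ℝ) ε (Nat.cast_nonneg _) hx he hpb hlarge
    rw [hNN]
    exact hN
  -- column cuts
  have hcut : ∀ c : Fin n, ∃ X : Finset (Fin n), (∀ a ∈ X, ∀ b : Fin n, a < b → b ∈ X) ∧
      ((univ.filter (fun r => A r c = true)) \ X).card = (X \ (univ.filter (fun r => A r c = true))).card ∧
      ((univ.filter (fun r => A r c = true)) \ X).card ^ 2 ≤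
        ((univ : Finset (Fin n × Fin n)).filter (fun p => p.1 < p.2 ∧ A p.1 c = true ∧ A p.2 c = false)).card := by
    intro c
    obtain ⟨X, -, h1, h2, h3⟩ := key_lemma (univ : Finset (Fin n))
      (univ.filter (fun r => A r c = true)) (subset_univ _) (fun a b : Fin n => a < b)
      (fun a _ => lt_irrefl a) (fun a _ b _ c _ hab hbc => lt_trans hab hbc)
      (fun a _ b _ hab => lt_or_gt_of_ne hab)
    refine ⟨X, fun a ha b hab => h1 a ha b (mem_univ _) hab, h2, le_trans h3 (card_le_card ?_)⟩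
    intro p hp
    simp only [mem_filter, mem_product, mem_sdiff, mem_univ, true_and] at hp
    obtain ⟨⟨hp3, hp4⟩, hp2⟩ := hp
    rw [Bool.not_eq_true] at hp4
    exact mem_filter.2 ⟨mem_univ _, hp2, hp3, hp4⟩
  choose X hX1 hX2 hX3 using hcut
  set B : Fin n → Fin n → Bool := fun r c => decide (r ∈ X c) with hB
  have hBtrue : ∀ r c, B r c = true ↔ r ∈ X c := by
    intro r c
    simp [hB]
  refine ⟨B, ?_, ?_⟩
  · intro r1 r2 c1 c2 hr _ ⟨h1, _, h3, _⟩
    have h5 := hX1 c1 r1 ((hBtrue r1 c1).1 h1) r2 hr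
    have h6 := (hBtrue r2 c1).2 h5
    rw [h6] at h3
    exact Bool.noConfusion h3
  · -- the cost
    set t : Fin n → ℕ := fun c => ((univ.filter (fun r => A r c = true)) \ X c).card with ht
    have hcol : ∀ c, (univ.filter (fun r => A r c ≠ B r c)).card ≤ 2 * t c := by
      intro c
      have hsub : univ.filter (fun r => A r c ≠ B r c) ⊆
          ((univ.filter (fun r => A r c = true)) \ X c) ∪ (X c \ (univ.filter (fun r => A r c = true))) := by
        intro r hr
        have hne := (mem_filter.1 hr).2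
        by_cases h : A r c = true
        · apply mem_union_left
          refine mem_sdiff.2 ⟨mem_filter.2 ⟨mem_univ _, h⟩, fun hrX => hne ?_⟩
          rw [h, (hBtrue r c).2 hrX]
        · apply mem_union_right
          have hb : B r c = true := by
            by_contra hb
            apply hne
            simp only [Bool.not_eq_true] at h hb
            rw [h, hb]
          exact mem_sdiff.2 ⟨(hBtrue r c).1 hb, fun h' => h (mem_filter.1 h').2⟩
      have h1 := card_le_card hsub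
      have h2 := card_union_le ((univ.filter (fun r => A r c = true)) \ X c) (X c \ (univ.filter (fun r => A r c = true)))
      have h3 := hX2 c
      simp only [ht]
      omega
    have hham : hamming A B ≤ 2 * ∑ c, t c := by
      have h1 : hamming A B = ∑ c, (univ.filter (fun r => A r c ≠ B r c)).card := by
        unfold hamming
        simp only [card_filter]
        rw [Fintype.sum_prod_type, sum_comm]
      rw [h1, mul_sum]
      exact sum_le_sum fun c _ => hcol c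
    have hsumt : ∑ c, t c ^ 2 ≤ II := by
      calc ∑ c, t c ^ 2 ≤ ∑ c, ((univ : Finset (Fin n × Fin n)).filter
            (fun p => p.1 < p.2 ∧ A p.1 c = true ∧ A p.2 c = false)).card :=
            sum_le_sum fun c _ => hX3 c
        _ = II := by
            simp only [hII, hx', hS]
            simp only [card_filter]
            rw [sum_comm]
            rw [sum_filter]
            refine sum_congr rfl fun p _ => ?_
            by_cases hp : p.1 < p.2
            · simp only [hp, true_and, if_true]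
            · simp only [hp, false_and, if_false]
              simp
    have hCS : (∑ c, t c) ^ 2 ≤ (univ : Finset (Fin n)).card * ∑ c, t c ^ 2 :=
      sq_sum_le_card_mul_sum_sq
    rw [card_univ, Fintype.card_fin] at hCS
    have hCS' : (((∑ c, t c : ℕ) : ℝ)) ^ 2 ≤ (n : ℝ) * (II : ℝ) := by
      have := le_trans hCS (Nat.mul_le_mul_left n hsumt)
      exact_mod_cast this
    have hT : ((∑ c, t c : ℕ) : ℝ) < ε * (n : ℝ) ^ 2 / 2 := by
      have h1 : (((∑ c, t c : ℕ) : ℝ)) ^ 2 < (ε * (n : ℝ) ^ 2 / 2) ^ 2 := by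
        calc (((∑ c, t c : ℕ) : ℝ)) ^ 2 ≤ (n : ℝ) * (II : ℝ) := hCS'
          _ < (n : ℝ) * (ε ^ 2 * (n : ℝ) ^ 3 / 4) := mul_lt_mul_of_pos_left hIbound hx
          _ = (ε * (n : ℝ) ^ 2 / 2) ^ 2 := by ring
      exact lt_of_pow_lt_pow_left₀ 2 (by positivity) h1
    have h2 : (hamming A B : ℝ) ≤ 2 * ((∑ c, t c : ℕ) : ℝ) := by exact_mod_cast hham
    linarith

/-- The pattern `[[1,1],[1,1]]`: few ones. -/
theorem one_main (hn : 0 < n) (ε : ℝ) (he : 0 < ε) (he1 : ε < 1) (hlarge : 8 ≤ ε ^ 2 * (n : ℝ))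
    (hN : ((∑ r, ∑ r' ∈ univ.filter (fun r' => r < r'),
      ((univ : Finset (Fin n × Fin n)).filter (fun p => p.1 < p.2 ∧ A r p.1 = true ∧ A r p.2 = true ∧
        A r' p.1 = true ∧ A r' p.2 = true)).card : ℕ) : ℝ) < 1 / 64 * ε ^ 4 * (n : ℝ) ^ 4) :
    ∃ B : Fin n → Fin n → Bool,
      (∀ r1 r2 c1 c2 : Fin n, r1 < r2 → c1 < c2 →
        ¬ (B r1 c1 = true ∧ B r1 c2 = true ∧ B r2 c1 = true ∧ B r2 c2 = true)) ∧
      (hamming A B : ℝ) < ε * (n : ℝ) ^ 2 := by
  have hx : (0 : ℝ) < n := by exact_mod_cast hn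
  set S : Fin n × Fin n → Finset (Fin n) := fun p => univ.filter (fun c => A p.1 c = true ∧ A p.2 c = true) with hS
  set cnt : Fin n × Fin n → ℕ := fun p => ((univ : Finset (Fin n × Fin n)).filter
    (fun q => q.1 < q.2 ∧ q.1 ∈ S p ∧ q.2 ∈ S p)).card with hcnt
  set x : Fin n × Fin n → ℕ := fun p => (S p).card with hx'
  have hxc : ∀ p, x p ^ 2 ≤ 2 * cnt p + x p := fun p => sq_card_le (S p)
  have hcnteq : ∀ r r', cnt (r, r') = ((univ : Finset (Fin n × Fin n)).filter (fun p => p.1 < p.2 ∧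
      A r p.1 = true ∧ A r p.2 = true ∧ A r' p.1 = true ∧ A r' p.2 = true)).card := by
    intro r r'
    simp only [hcnt, hS]
    congr 1
    ext q
    simp only [mem_filter, mem_univ, true_and]
    tauto
  set P := (univ : Finset (Fin n × Fin n)).filter (fun p => p.1 < p.2) with hP
  set II := ∑ p ∈ P, x p with hII
  have hNN : ∑ p ∈ P, cnt p = ∑ r, ∑ r' ∈ univ.filter (fun r' => r < r'),
      ((univ : Finset (Fin n × Fin n)).filter (fun p => p.1 < p.2 ∧ A r p.1 = true ∧ A r p.2 = true ∧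
        A r' p.1 = true ∧ A r' p.2 = true)).card := by
    rw [hP, sum_pairs]
    refine sum_congr rfl fun r _ => sum_congr rfl fun r' _ => hcnteq r r'
  have hpb := pairs_bound x cnt hxc
  rw [← hP, ← hII] at hpb
  have hIbound : (II : ℝ) < ε ^ 2 * (n : ℝ) ^ 3 / 4 := by
    apply pairs_arith (II : ℝ) ((∑ p ∈ P, cnt p : ℕ) : ℝ) (n : ℝ) ε (Nat.cast_nonneg _) hx he hpb hlarge
    rw [hNN]
    exact hN
  -- the column degrees
  set deg : Fin n → Finset (Fin n) := fun c => univ.filter (fun r => A r c = true) with hdeg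
  have hdegII : ∑ c, ((univ : Finset (Fin n × Fin n)).filter
      (fun q => q.1 < q.2 ∧ q.1 ∈ deg c ∧ q.2 ∈ deg c)).card = II := by
    simp only [hII, hx', hS, hdeg]
    simp only [card_filter]
    rw [sum_comm, sum_filter]
    refine sum_congr rfl fun p _ => ?_
    by_cases hp : p.1 < p.2
    · simp only [hp, true_and, if_true, mem_filter, mem_univ]
    · simp only [hp, false_and, if_false]
      simp
  have hsumdeg : ∑ c, (deg c).card ^ 2 ≤ 2 * II + ∑ c, (deg c).card := by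
    rw [← hdegII, mul_sum, ← sum_add_distrib]
    exact sum_le_sum fun c _ => sq_card_le (deg c)
  have hCS : (∑ c, (deg c).card) ^ 2 ≤ (univ : Finset (Fin n)).card * ∑ c, (deg c).card ^ 2 :=
    sq_sum_le_card_mul_sum_sq
  rw [card_univ, Fintype.card_fin] at hCS
  set E := ∑ c, (deg c).card with hE
  have hE2 : (E : ℝ) ^ 2 ≤ (n : ℝ) * (2 * (II : ℝ) + (E : ℝ)) := by
    have := le_trans hCS (Nat.mul_le_mul_left n hsumdeg)
    exact_mod_cast this
  have hEbound : (E : ℝ) < ε * (n : ℝ) ^ 2 := by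
    by_contra hcon
    have hcon' : ε * (n : ℝ) ^ 2 ≤ (E : ℝ) := not_lt.1 hcon
    have h1 : 2 * (n : ℝ) ≤ (E : ℝ) := by
      have h2 : 2 ≤ ε * (n : ℝ) := by
        have h3 : ε ^ 2 * (n : ℝ) ≤ ε * (n : ℝ) := by
          apply mul_le_mul_of_nonneg_right _ hx.le
          nlinarith
        linarith
      have h4 : ε * (n : ℝ) ^ 2 = (ε * (n : ℝ)) * (n : ℝ) := by ring
      nlinarith
    have h5 : (n : ℝ) * (E : ℝ) ≤ (E : ℝ) ^ 2 / 2 := by
      have : (0 : ℝ) ≤ (E : ℝ) := Nat.cast_nonneg _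
      nlinarith
    have h6 : (E : ℝ) ^ 2 ≤ 4 * (n : ℝ) * (II : ℝ) := by nlinarith
    have h7 : (ε * (n : ℝ) ^ 2) ^ 2 ≤ (E : ℝ) ^ 2 := pow_le_pow_left₀ (by positivity) hcon' 2
    have h8 : 4 * (n : ℝ) * (II : ℝ) < 4 * (n : ℝ) * (ε ^ 2 * (n : ℝ) ^ 3 / 4) :=
      mul_lt_mul_of_pos_left hIbound (by positivity)
    have h9 : 4 * (n : ℝ) * (ε ^ 2 * (n : ℝ) ^ 3 / 4) = (ε * (n : ℝ) ^ 2) ^ 2 := by ring
    linarith
  refine ⟨fun _ _ => false, ?_, ?_⟩
  · intro r1 r2 c1 c2 _ _ ⟨h1, _⟩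
    exact Bool.noConfusion h1
  · have h1 : hamming A (fun _ _ => false) = E := by
      unfold hamming
      simp only [hE, hdeg]
      simp only [card_filter]
      rw [Fintype.sum_prod_type, sum_comm]
      refine sum_congr rfl fun c _ => sum_congr rfl fun r _ => ?_
      simp
    rw [h1]
    exact hEbound

end Vale.Agent.Lib.P037
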