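import Mathlib
import Vale.Agent.Lib.P037.Core

/-! The choice of parameters for the diagonal pattern. -/

open Finset
open Classical

namespace Vale.Agent.Lib.P037

variable {n : ℕ} (A : Fin n → Fin n → Bool)

lemma blocks (m : ℕ) (hm : 0 < m) :
    ∃ blk : Fin n → ℕ, (∀ r r', r ≤ r' → blk r ≤ blk r') ∧ (∀ r, blk r < m) ∧
      (∀ k, (univ.filter (fun r => blk r = k)).card ≤ n / m + 1) := by
  set L := n / m + 1 with hL
  have hLpos : 0 < L := Nat.succ_pos _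
  refine ⟨fun r => r.val / L, ?_, ?_, ?_⟩
  · intro r r' h
    exact Nat.div_le_div_right h
  · intro r
    apply Nat.div_lt_of_lt_mul
    have h1 : n < L * m := by
      have h2 := Nat.div_add_mod n m
      have h3 := Nat.mod_lt n hm
      have h4 : L * m = m * (n / m) + m := by
        rw [hL]
        ring
      rw [h4]
      omega
    have := r.isLt
    omega
  · intro k
    have h : (univ.filter (fun r : Fin n => r.val / L = k)).card ≤ (Ico (k * L) ((k + 1) * L)).card := by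
      apply card_le_card_of_injOn (fun r : Fin n => r.val)
      · intro r hr
        have hr' : r.val / L = k := (mem_filter.1 hr).2
        have hmem : r.val ∈ Ico (k * L) ((k + 1) * L) := by
          rw [mem_Ico]
          constructor
          · rw [← hr']
            exact Nat.div_mul_le_self _ _
          · rw [← hr']
            have := Nat.div_add_mod r.val L
            have h3 := Nat.mod_lt r.val hLpos
            calc r.val = L * (r.val / L) + r.val % L := this.symm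
              _ < L * (r.val / L) + L := by omega
              _ = (r.val / L + 1) * L := by ring
        exact hmem
      · intro a _ b _ hab
        exact Fin.ext hab
    rw [Nat.card_Ico] at h
    have h5 : (k + 1) * L - k * L = L := by
      rw [Nat.add_mul, Nat.add_sub_cancel_left, Nat.one_mul]
    rw [h5] at h
    exact h

lemma NoQuad_of_NN_zero (h : NN A = 0) : NoQuad A := by
  intro r1 r2 c1 c2 hr hc ⟨h1, h2, h3, h4⟩
  have h5 : X1 A r1 = 0 := by
    have := (sum_eq_zero_iff (s := univ) (f := fun r => X1 A r)).1 h r1 (mem_univ _)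
    exact this
  have h6 : cop A r1 r2 = 0 := by
    have := (sum_eq_zero_iff (s := univ.filter (fun r' => r1 < r')) (f := fun r' => cop A r1 r')).1
      h5 r2 (mem_filter.2 ⟨mem_univ _, hr⟩)
    exact this
  have h7 : (c1, c2) ∈ copSet A r1 r2 :=
    mem_filter.2 ⟨mem_univ _, hc, h1, h2, h3, h4⟩
  rw [cop, card_eq_zero] at h6
  rw [h6] at h7
  exact absurd h7 (notMem_empty _)

/-- The numerical core. -/
lemma arith_main (e x N mm L nk zc T c a : ℝ) (he : 0 < e) (he1 : e < 1) (hx : 0 < x)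
    (hc : c = 1 / 10 ^ 14) (ha : a = 2 / 10 ^ 5) (hN : N < c * e ^ 14 * x ^ 4)
    (hm1 : 64 / e ^ 2 ≤ mm) (hm2 : mm ≤ 65 / e ^ 2) (hL : L ≤ x * e ^ 2 / 32)
    (hnk : nk ≤ N / (8 * c * e ^ 13 * x ^ 3) + mm * (4 * (8 * c * e ^ 13 * x ^ 3) / (a * e ^ 5 * x) ^ 2))
    (hzc : zc ≤ mm ^ 2 * (a * e ^ 5 * x))
    (hT : T ^ 2 ≤ x * (L * x ^ 2 + mm * (8 * c * e ^ 13 * x ^ 3))) (hT0 : 0 ≤ T) :
    x * nk + x * zc + 2 * T < e * x ^ 2 := by
  subst hc ha
  have hmpos : 0 < mm := lt_of_lt_of_le (by positivity) hm1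
  have h1 : N / (8 * (1 / 10 ^ 14) * e ^ 13 * x ^ 3) ≤ e * x / 8 := by
    rw [div_le_iff₀ (by positivity)]
    have : e * x / 8 * (8 * (1 / 10 ^ 14) * e ^ 13 * x ^ 3) = 1 / 10 ^ 14 * e ^ 14 * x ^ 4 := by ring
    linarith
  have h2 : mm * (4 * (8 * (1 / 10 ^ 14) * e ^ 13 * x ^ 3) / ((2 / 10 ^ 5) * e ^ 5 * x) ^ 2) ≤
      (13 / 250) * e * x := by
    have h3 : 4 * (8 * (1 / 10 ^ 14 : ℝ) * e ^ 13 * x ^ 3) / ((2 / 10 ^ 5) * e ^ 5 * x) ^ 2 =
        (1 / 1250) * e ^ 3 * x := by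
      field_simp
      ring
    rw [h3]
    have h4 : mm * e ^ 2 ≤ 65 := by
      rwa [le_div_iff₀ (by positivity)] at hm2
    have h5 : mm * ((1 / 1250) * e ^ 3 * x) = (mm * e ^ 2) * ((1 / 1250) * e * x) := by ring
    rw [h5]
    calc (mm * e ^ 2) * ((1 / 1250) * e * x) ≤ 65 * ((1 / 1250) * e * x) := by
          apply mul_le_mul_of_nonneg_right h4 (by positivity)
      _ = (13 / 250) * e * x := by ring
  have h6 : mm ^ 2 * ((2 / 10 ^ 5) * e ^ 5 * x) ≤ (169 / 2000) * e * x := by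
    have h4 : mm * e ^ 2 ≤ 65 := by
      rwa [le_div_iff₀ (by positivity)] at hm2
    have h5 : mm ^ 2 * ((2 / 10 ^ 5) * e ^ 5 * x) = (mm * e ^ 2) ^ 2 * ((2 / 10 ^ 5) * e * x) := by ring
    rw [h5]
    have h7 : (mm * e ^ 2) ^ 2 ≤ 65 ^ 2 := by
      apply pow_le_pow_left₀ (by positivity) h4
    calc (mm * e ^ 2) ^ 2 * ((2 / 10 ^ 5) * e * x) ≤ 65 ^ 2 * ((2 / 10 ^ 5) * e * x) := by
          apply mul_le_mul_of_nonneg_right h7 (by positivity)
      _ = (169 / 2000) * e * x := by ring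
  have h8 : T ≤ x ^ 2 * e / 5 := by
    have h4 : mm * e ^ 2 ≤ 65 := by
      rwa [le_div_iff₀ (by positivity)] at hm2
    have h9 : mm * (8 * (1 / 10 ^ 14) * e ^ 13 * x ^ 3) ≤ (1 / 10 ^ 10) * e ^ 2 * x ^ 3 := by
      have h10 : mm * (8 * (1 / 10 ^ 14) * e ^ 13 * x ^ 3) =
          (mm * e ^ 2) * (8 * (1 / 10 ^ 14) * e ^ 11 * x ^ 3) := by ring
      rw [h10]
      have h11 : e ^ 11 ≤ e ^ 2 := by
        apply pow_le_pow_of_le_one he.le he1.le (by norm_num)
      calc (mm * e ^ 2) * (8 * (1 / 10 ^ 14) * e ^ 11 * x ^ 3)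
          ≤ 65 * (8 * (1 / 10 ^ 14) * e ^ 2 * x ^ 3) := by
            apply mul_le_mul h4 _ (by positivity) (by norm_num)
            gcongr
        _ ≤ (1 / 10 ^ 10) * e ^ 2 * x ^ 3 := by
            have : 0 ≤ e ^ 2 * x ^ 3 := by positivity
            nlinarith
    have h12 : T ^ 2 ≤ (x ^ 2 * e / 5) ^ 2 := by
      calc T ^ 2 ≤ x * (L * x ^ 2 + mm * (8 * (1 / 10 ^ 14) * e ^ 13 * x ^ 3)) := hT
        _ ≤ x * ((x * e ^ 2 / 32) * x ^ 2 + (1 / 10 ^ 10) * e ^ 2 * x ^ 3) := by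
            apply mul_le_mul_of_nonneg_left _ hx.le
            have : L * x ^ 2 ≤ (x * e ^ 2 / 32) * x ^ 2 :=
              mul_le_mul_of_nonneg_right hL (by positivity)
            linarith
        _ ≤ (x ^ 2 * e / 5) ^ 2 := by
            have : 0 ≤ e ^ 2 * x ^ 4 := by positivity
            nlinarith
    exact (pow_le_pow_iff_left₀ hT0 (by positivity) (by norm_num)).1 h12
  have h13 : x * nk ≤ x * (e * x / 8 + (13 / 250) * e * x) := by
    apply mul_le_mul_of_nonneg_left _ hx.le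
    linarith
  have h14 : x * zc ≤ x * ((169 / 2000) * e * x) := by
    apply mul_le_mul_of_nonneg_left _ hx.le
    linarith
  have h15 : 0 < e * x ^ 2 := by positivity
  nlinarith

theorem diag_core (hn : 0 < n) (ε : ℝ) (he : 0 < ε) (he1 : ε < 1)
    (hN : (NN A : ℝ) < 1 / 10 ^ 14 * ε ^ 14 * (n : ℝ) ^ 4) :
    ∃ B : Fin n → Fin n → Bool, NoQuad B ∧ (hamming A B : ℝ) < ε * (n : ℝ) ^ 2 := by
  have hx : (0 : ℝ) < n := by exact_mod_cast hn
  by_cases hN0 : NN A = 0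
  · refine ⟨A, NoQuad_of_NN_zero A hN0, ?_⟩
    have : hamming A A = 0 := by
      simp [hamming]
    rw [this]
    push_cast
    positivity
  have hN1 : (1 : ℝ) ≤ NN A := by
    have : 1 ≤ NN A := Nat.one_le_iff_ne_zero.2 hN0
    exact_mod_cast this
  set m : ℕ := ⌈64 / ε ^ 2⌉₊ with hm
  have hm1 : 64 / ε ^ 2 ≤ (m : ℝ) := Nat.le_ceil _
  have heps2 : ε ^ 2 ≤ 1 := pow_le_one₀ he.le he1.le
  have hm2 : (m : ℝ) ≤ 65 / ε ^ 2 := by
    have h := (Nat.ceil_lt_add_one (a := 64 / ε ^ 2) (by positivity)).le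
    have h' : (64 : ℝ) / ε ^ 2 + 1 ≤ 65 / ε ^ 2 := by
      rw [div_add_one (by positivity), div_le_div_iff_of_pos_right (by positivity)]
      linarith
    exact le_trans h h'
  have hmpos : 0 < m := by
    have : (0 : ℝ) < m := lt_of_lt_of_le (by positivity) hm1
    exact_mod_cast this
  have hmreal : (0 : ℝ) < m := by exact_mod_cast hmpos
  -- `m ≤ n`
  have hmn : m ≤ n := by
    by_contra hlt
    have hlt' : (n : ℝ) < m := by
      have : n < m := not_le.1 hlt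
      exact_mod_cast this
    have h1 : (n : ℝ) < 65 / ε ^ 2 := lt_of_lt_of_le hlt' hm2
    have h2 : (n : ℝ) * ε ^ 2 < 65 := by
      rwa [lt_div_iff₀ (by positivity)] at h1
    have h3 : ((n : ℝ) * ε ^ 2) ^ 4 ≤ 65 ^ 4 := pow_le_pow_left₀ (by positivity) h2.le 4
    have h4 : ε ^ 6 ≤ 1 := pow_le_one₀ he.le he1.le
    have h5 : 1 / 10 ^ 14 * ε ^ 14 * (n : ℝ) ^ 4 = 1 / 10 ^ 14 * ε ^ 6 * ((n : ℝ) * ε ^ 2) ^ 4 := by
      ring
    have h6 : 1 / 10 ^ 14 * ε ^ 6 * ((n : ℝ) * ε ^ 2) ^ 4 ≤ 1 / 10 ^ 14 * 1 * 65 ^ 4 := by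
      apply mul_le_mul _ h3 (by positivity) (by norm_num)
      apply mul_le_mul_of_nonneg_left h4 (by norm_num)
    norm_num at h6
    rw [h5] at hN
    norm_num at hN
    linarith
  obtain ⟨blk, hb1, hb2, hb3⟩ := blocks (n := n) m hmpos
  set L : ℕ := n / m + 1 with hLdef
  have hLreal : (L : ℝ) ≤ (n : ℝ) * ε ^ 2 / 32 := by
    have h1 : 1 ≤ n / m := (Nat.one_le_div_iff hmpos).2 hmn
    have h2 : L ≤ 2 * (n / m) := by omega
    have h3 : ((n / m : ℕ) : ℝ) ≤ (n : ℝ) / m := Nat.cast_div_le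
    have h4 : (L : ℝ) ≤ 2 * ((n : ℝ) / m) := by
      have : (L : ℝ) ≤ 2 * ((n / m : ℕ) : ℝ) := by exact_mod_cast h2
      linarith
    have h5 : (n : ℝ) / m ≤ (n : ℝ) * ε ^ 2 / 64 := by
      rw [div_le_iff₀ hmreal]
      have h6 : 64 ≤ (m : ℝ) * ε ^ 2 := by
        rwa [div_le_iff₀ (by positivity)] at hm1
      have : (n : ℝ) * ε ^ 2 / 64 * m = (n : ℝ) * (((m : ℝ) * ε ^ 2) / 64) := by ring
      rw [this]
      have h7 : 1 ≤ ((m : ℝ) * ε ^ 2) / 64 := by
        rw [le_div_iff₀ (by norm_num)]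
        linarith
      nlinarith
    linarith
  obtain ⟨B, T, nk, zc, hB, hham, hnk, hzc, hT⟩ :=
    core A m L blk hb1 hb2 hb3 (8 * (1 / 10 ^ 14) * ε ^ 13 * (n : ℝ) ^ 3)
      ((2 / 10 ^ 5) * ε ^ 5 * (n : ℝ)) (by positivity) (by positivity)
  refine ⟨B, hB, ?_⟩
  have hmain := arith_main ε (n : ℝ) (NN A : ℝ) (m : ℝ) (L : ℝ) (nk : ℝ) (zc : ℝ) (T : ℝ)
    (1 / 10 ^ 14) (2 / 10 ^ 5) he he1 hx rfl rfl hN hm1 hm2 hLreal hnk hzc hT (Nat.cast_nonneg _)
  have hham' : (hamming A B : ℝ) ≤ (n : ℝ) * nk + n * zc + 2 * T := by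
    exact_mod_cast hham
  linarith

end Vale.Agent.Lib.P037
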