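import Mathlib
import Vale.Agent.Lib.P037.Defs
import Vale.Agent.Lib.P037.Arith

/-! Conclusion for the two diagonal patterns. -/

open Finset
open Classical

namespace Vale.Agent.Lib.P037

variable {n : ℕ}

lemma copyCount_diag_zero (B : Fin n → Fin n → Bool) (hB : NoQuad B) : copyCount diagH B = 0 := by
  have hempty : {p : (Fin 2 → Fin n) × (Fin 2 → Fin n) |
      StrictMono p.1 ∧ StrictMono p.2 ∧ ∀ i j, B (p.1 i) (p.2 j) = diagH i j} = ∅ := by
    ext p
    simp only [Set.mem_setOf_eq, Set.mem_empty_iff_false, iff_false]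
    rintro ⟨h1, h2, h3⟩
    have h01 : (0 : Fin 2) < 1 := by decide
    refine hB (p.1 0) (p.1 1) (p.2 0) (p.2 1) (h1 h01) (h2 h01) ⟨?_, ?_, ?_, ?_⟩
    · rw [h3]; decide
    · rw [h3]; decide
    · rw [h3]; decide
    · rw [h3]; decide
  unfold copyCount
  rw [hempty]
  exact Set.ncard_empty _

lemma copyCount_antidiag_zero (B : Fin n → Fin n → Bool)
    (hB : NoQuad (fun r c => B r (Fin.rev c))) : copyCount antidiagH B = 0 := by
  have hempty : {p : (Fin 2 → Fin n) × (Fin 2 → Fin n) |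
      StrictMono p.1 ∧ StrictMono p.2 ∧ ∀ i j, B (p.1 i) (p.2 j) = antidiagH i j} = ∅ := by
    ext p
    simp only [Set.mem_setOf_eq, Set.mem_empty_iff_false, iff_false]
    rintro ⟨h1, h2, h3⟩
    have h01 : (0 : Fin 2) < 1 := by decide
    refine hB (p.1 0) (p.1 1) (Fin.rev (p.2 1)) (Fin.rev (p.2 0)) (h1 h01)
      (Fin.rev_lt_rev.2 (h2 h01)) ⟨?_, ?_, ?_, ?_⟩
    · simp only [Fin.rev_rev]; rw [h3]; decide
    · simp only [Fin.rev_rev]; rw [h3]; decide
    · simp only [Fin.rev_rev]; rw [h3]; decide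
    · simp only [Fin.rev_rev]; rw [h3]; decide
  unfold copyCount
  rw [hempty]
  exact Set.ncard_empty _

/-- The finset of quadruples counted by `NN`. -/
noncomputable def quads (A : Fin n → Fin n → Bool) :
    Finset (Σ _r : Fin n, Σ _r' : Fin n, Fin n × Fin n) :=
  (univ : Finset (Fin n)).sigma (fun r => (univ.filter (fun r' => r < r')).sigma
    (fun r' => copSet A r r'))

lemma card_quads (A : Fin n → Fin n → Bool) : (quads A).card = NN A := by
  unfold quads NN X1 cop
  rw [card_sigma]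
  refine sum_congr rfl fun r _ => ?_
  rw [card_sigma]

lemma NN_le_copyCount (A : Fin n → Fin n → Bool) : NN A ≤ copyCount diagH A := by
  rw [← card_quads]
  set f : (Σ _r : Fin n, Σ _r' : Fin n, Fin n × Fin n) → (Fin 2 → Fin n) × (Fin 2 → Fin n) :=
    fun x => (![x.1, x.2.1], ![x.2.2.1, x.2.2.2]) with hf
  have hinj : Set.InjOn f (quads A : Set _) := by
    rintro ⟨r, r', a, b⟩ _ ⟨s, s', c, d⟩ _ h
    have h1 := congrFun (congrArg Prod.fst h) 0
    have h2 := congrFun (congrArg Prod.fst h) 1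
    have h3 := congrFun (congrArg Prod.snd h) 0
    have h4 := congrFun (congrArg Prod.snd h) 1
    simp only [hf, Matrix.cons_val_zero, Matrix.cons_val_one] at h1 h2 h3 h4
    subst h1 h2 h3 h4
    rfl
  rw [← card_image_of_injOn hinj, ← Set.ncard_coe_finset]
  apply Set.ncard_le_ncard _ (Set.toFinite _)
  intro p hp
  obtain ⟨⟨r, r', a, b⟩, hx, rfl⟩ := mem_image.1 (mem_coe.1 hp)
  obtain ⟨-, hx⟩ := mem_sigma.1 hx
  obtain ⟨hrr, hx⟩ := mem_sigma.1 hx
  have hrr' : r < r' := (mem_filter.1 hrr).2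
  obtain ⟨-, hab, h1, h2, h3, h4⟩ := mem_filter.1 hx
  refine ⟨?_, ?_, ?_⟩
  · intro i j hij
    fin_cases i <;> fin_cases j <;> first | exact absurd hij (by decide) | exact hrr'
  · intro i j hij
    fin_cases i <;> fin_cases j <;> first | exact absurd hij (by decide) | exact hab
  · intro i j
    fin_cases i <;> fin_cases j
    · exact h1
    · exact h2
    · exact h3
    · exact h4

lemma NN_rev_le_copyCount (A : Fin n → Fin n → Bool) :
    NN (fun r c => A r (Fin.rev c)) ≤ copyCount antidiagH A := by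
  rw [← card_quads]
  set f : (Σ _r : Fin n, Σ _r' : Fin n, Fin n × Fin n) → (Fin 2 → Fin n) × (Fin 2 → Fin n) :=
    fun x => (![x.1, x.2.1], ![Fin.rev x.2.2.2, Fin.rev x.2.2.1]) with hf
  have hinj : Set.InjOn f (quads (fun r c => A r (Fin.rev c)) : Set _) := by
    rintro ⟨r, r', a, b⟩ _ ⟨s, s', c, d⟩ _ h
    have h1 := congrFun (congrArg Prod.fst h) 0
    have h2 := congrFun (congrArg Prod.fst h) 1
    have h3 := congrFun (congrArg Prod.snd h) 0
    have h4 := congrFun (congrArg Prod.snd h) 1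
    simp only [hf, Matrix.cons_val_zero, Matrix.cons_val_one, Fin.rev_inj] at h1 h2 h3 h4
    subst h1 h2 h3 h4
    rfl
  rw [← card_image_of_injOn hinj, ← Set.ncard_coe_finset]
  apply Set.ncard_le_ncard _ (Set.toFinite _)
  intro p hp
  obtain ⟨⟨r, r', a, b⟩, hx, rfl⟩ := mem_image.1 (mem_coe.1 hp)
  obtain ⟨-, hx⟩ := mem_sigma.1 hx
  obtain ⟨hrr, hx⟩ := mem_sigma.1 hx
  have hrr' : r < r' := (mem_filter.1 hrr).2
  obtain ⟨-, hab, h1, h2, h3, h4⟩ := mem_filter.1 hx
  have hab' : Fin.rev b < Fin.rev a := Fin.rev_lt_rev.2 hab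
  refine ⟨?_, ?_, ?_⟩
  · intro i j hij
    fin_cases i <;> fin_cases j <;> first | exact absurd hij (by decide) | exact hrr'
  · intro i j hij
    fin_cases i <;> fin_cases j <;> first | exact absurd hij (by decide) | exact hab'
  · intro i j
    fin_cases i <;> fin_cases j
    · exact h2
    · exact h1
    · exact h4
    · exact h3

lemma distFree_lt {k : ℕ} (H : Fin k → Fin k → Bool) (A B : Fin n → Fin n → Bool) (hn : 0 < n)
    (hB : copyCount H B = 0) (ε : ℝ) (hle : (hamming A B : ℝ) < ε * (n : ℝ) ^ 2) :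
    distFree H A < ε := by
  have hx : (0 : ℝ) < (n : ℝ) ^ 2 := by positivity
  unfold distFree
  rw [div_lt_iff₀ hx]
  refine lt_of_le_of_lt ?_ hle
  have : sInf {d : ℕ | ∃ B : Fin n → Fin n → Bool, copyCount H B = 0 ∧ d = hamming A B} ≤
      hamming A B := Nat.sInf_le ⟨B, hB, rfl⟩
  exact_mod_cast this

lemma hamming_rev (A B : Fin n → Fin n → Bool) :
    hamming A (fun r c => B r (Fin.rev c)) = hamming (fun r c => A r (Fin.rev c)) B := by
  rw [hamming_eq_sum, hamming_eq_sum]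
  refine sum_congr rfl fun r _ => ?_
  apply card_nbij' (Fin.rev) (Fin.rev)
  · intro c hc
    simp only [coe_filter, mem_univ, true_and, Set.mem_setOf_eq, Fin.rev_rev] at hc ⊢
    exact hc
  · intro c hc
    simp only [coe_filter, mem_univ, true_and, Set.mem_setOf_eq, Fin.rev_rev] at hc ⊢
    exact hc
  · intro c _
    simp
  · intro c _
    simp

/-- Removal bound for the diagonal pattern. -/
theorem diag_removal (hn : 1 ≤ n) (A : Fin n → Fin n → Bool) (ε : ℝ) (h0 : 0 < ε) (h1 : ε < 1)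
    (hd : ε ≤ distFree diagH A) :
    1 / 10 ^ 14 * ε ^ 14 * (n : ℝ) ^ 4 ≤ (copyCount diagH A : ℝ) := by
  by_contra hlt
  have hlt' : (copyCount diagH A : ℝ) < 1 / 10 ^ 14 * ε ^ 14 * (n : ℝ) ^ 4 := not_le.1 hlt
  have hNN : (NN A : ℝ) ≤ copyCount diagH A := by exact_mod_cast NN_le_copyCount A
  obtain ⟨B, hB, hham⟩ := diag_core A hn ε h0 h1 (lt_of_le_of_lt hNN hlt')
  exact absurd hd (not_le.2 (distFree_lt diagH A B hn (copyCount_diag_zero B hB) ε hham))

/-- Removal bound for the antidiagonal pattern. -/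
theorem antidiag_removal (hn : 1 ≤ n) (A : Fin n → Fin n → Bool) (ε : ℝ) (h0 : 0 < ε) (h1 : ε < 1)
    (hd : ε ≤ distFree antidiagH A) :
    1 / 10 ^ 14 * ε ^ 14 * (n : ℝ) ^ 4 ≤ (copyCount antidiagH A : ℝ) := by
  by_contra hlt
  have hlt' : (copyCount antidiagH A : ℝ) < 1 / 10 ^ 14 * ε ^ 14 * (n : ℝ) ^ 4 := not_le.1 hlt
  have hNN : (NN (fun r c => A r (Fin.rev c)) : ℝ) ≤ copyCount antidiagH A := by
    exact_mod_cast NN_rev_le_copyCount A
  obtain ⟨B, hB, hham⟩ := diag_core (fun r c => A r (Fin.rev c)) hn ε h0 h1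
    (lt_of_le_of_lt hNN hlt')
  set B' : Fin n → Fin n → Bool := fun r c => B r (Fin.rev c) with hB'
  have hB'' : NoQuad (fun r c => B' r (Fin.rev c)) := by
    simpa [hB'] using hB
  have hham' : (hamming A B' : ℝ) < ε * (n : ℝ) ^ 2 := by
    rw [hB', hamming_rev]
    exact hham
  exact absurd hd (not_le.2 (distFree_lt antidiagH A B' hn (copyCount_antidiag_zero B' hB'') ε hham'))

end Vale.Agent.Lib.P037
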