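import Mathlib

/-! Forest orders generated by rows without copies of `[[1,1],[1,0]]`, and longest paths. -/

open Finset
open Classical

namespace Vale.Agent.Lib.P037

section Path
variable {α : Type*} [LinearOrder α]

/-- In a forest order, a closed set contains a closed chain missing few elements: the square of the
number of missed elements is at most the number of ordered incomparable pairs. -/
lemma exists_path (Rl : α → α → Prop) (w : Finset α)
    (hclosed : ∀ a ∈ w, ∀ b, Rl a b → b ∈ w)
    (hforest : ∀ a b c, Rl a b → Rl a c → b < c → Rl b c)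
    (htrans : ∀ a b c, Rl a b → Rl b c → Rl a c)
    (hlt : ∀ a b, Rl a b → a < b) :
    ∃ P ⊆ w, (∀ a ∈ P, ∀ b ∈ P, a < b → Rl a b) ∧ (∀ a ∈ P, ∀ b, Rl a b → b ∈ P) ∧
      (w \ P).card ^ 2 ≤
        ((w ×ˢ w).filter (fun p => p.1 ≠ p.2 ∧ ¬ Rl p.1 p.2 ∧ ¬ Rl p.2 p.1)).card := by
  by_cases hw : w.Nonempty
  swap
  · rw [not_nonempty_iff_eq_empty] at hw
    subst hw
    exact ⟨∅, Subset.refl _, by simp, by simp, by simp⟩
  set Pth : α → Finset α := fun y => w.filter (fun b => b = y ∨ Rl y b) with hPth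
  obtain ⟨y, hy, hmax⟩ := w.exists_max_image (fun y => (Pth y).card) hw
  set P := Pth y with hP
  have hPw : P ⊆ w := filter_subset _ _
  have hPchain : ∀ a ∈ P, ∀ b ∈ P, a < b → Rl a b := by
    intro a ha b hb hab
    rcases (mem_filter.1 ha).2 with rfl | ha'
    · rcases (mem_filter.1 hb).2 with rfl | hb'
      · exact absurd hab (lt_irrefl _)
      · exact hb'
    · rcases (mem_filter.1 hb).2 with hby | hb'
      · subst hby
        exact absurd (lt_trans (hlt _ _ ha') hab) (lt_irrefl _)
      · exact hforest y a b ha' hb' hab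
  have hPclosed : ∀ a ∈ P, ∀ b, Rl a b → b ∈ P := by
    intro a ha b hab
    refine mem_filter.2 ⟨hclosed a (hPw ha) b hab, Or.inr ?_⟩
    rcases (mem_filter.1 ha).2 with rfl | ha'
    · exact hab
    · exact htrans _ _ _ ha' hab
  refine ⟨P, hPw, hPchain, hPclosed, ?_⟩
  set W := w \ P with hW
  set IncP : α × α → Prop := fun p => p.1 ≠ p.2 ∧ ¬ Rl p.1 p.2 ∧ ¬ Rl p.2 p.1 with hIncP
  set Comp : α → Finset α := fun x => Pth x \ P with hComp
  set Cross : α → Finset α := fun x => P \ Pth x with hCross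
  have hab : ∀ x ∈ W, (Comp x).card ≤ (Cross x).card := by
    intro x hx
    have hxw : x ∈ w := (mem_sdiff.1 hx).1
    have h1 := hmax x hxw
    have h2 := card_sdiff_add_card_inter (Pth x) P
    have h3 := card_sdiff_add_card_inter P (Pth x)
    rw [inter_comm] at h3
    simp only [hComp, hCross]
    omega
  have hCompW : ∀ x, Comp x ⊆ W := by
    intro x c hc
    obtain ⟨h1, h2⟩ := mem_sdiff.1 hc
    exact mem_sdiff.2 ⟨(mem_filter.1 h1).1, h2⟩
  have hCrossInc : ∀ x ∈ W, ∀ p ∈ Cross x, IncP (x, p) := by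
    intro x hx p hp
    obtain ⟨hpP, hpx⟩ := mem_sdiff.1 hp
    have hxP : x ∉ P := (mem_sdiff.1 hx).2
    refine ⟨fun h => hxP (by have h' : x = p := h; rw [h']; exact hpP), ?_,
      fun h => hxP (hPclosed p hpP x h)⟩
    intro h
    exact hpx (mem_filter.2 ⟨hPw hpP, Or.inr h⟩)
  set f : (Σ _ : α, α) → α × α := fun x => (x.1, x.2) with hf
  set g : (Σ _ : α, α) → α × α := fun x => (x.2, x.1) with hg
  have hfinj : Function.Injective f := by
    rintro ⟨a, b⟩ ⟨c, d⟩ h
    simp only [hf, Prod.mk.injEq] at h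
    obtain ⟨rfl, rfl⟩ := h
    rfl
  have hginj : Function.Injective g := by
    rintro ⟨a, b⟩ ⟨c, d⟩ h
    simp only [hg, Prod.mk.injEq] at h
    obtain ⟨rfl, rfl⟩ := h
    rfl
  set IncW := (W ×ˢ W).filter IncP with hIncW
  -- first estimate
  have hc1 : W.card ^ 2 ≤ 2 * ∑ x ∈ W, (Comp x).card + IncW.card := by
    have hsub : W ×ˢ W ⊆ ((W.sigma Comp).image f ∪ (W.sigma Comp).image g) ∪ IncW := by
      intro p hp
      obtain ⟨h1, h2⟩ := mem_product.1 hp
      by_cases h3 : p.2 ∈ Comp p.1
      · apply mem_union_left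
        apply mem_union_left
        exact mem_image.2 ⟨⟨p.1, p.2⟩, mem_sigma.2 ⟨h1, h3⟩, rfl⟩
      by_cases h4 : p.1 ∈ Comp p.2
      · apply mem_union_left
        apply mem_union_right
        exact mem_image.2 ⟨⟨p.2, p.1⟩, mem_sigma.2 ⟨h2, h4⟩, rfl⟩
      apply mem_union_right
      refine mem_filter.2 ⟨hp, ?_, ?_, ?_⟩
      · intro heq
        apply h3
        rw [← heq]
        exact mem_sdiff.2 ⟨mem_filter.2 ⟨(mem_sdiff.1 h1).1, Or.inl rfl⟩, (mem_sdiff.1 h1).2⟩
      · intro hr
        exact h3 (mem_sdiff.2 ⟨mem_filter.2 ⟨(mem_sdiff.1 h2).1, Or.inr hr⟩, (mem_sdiff.1 h2).2⟩)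
      · intro hr
        exact h4 (mem_sdiff.2 ⟨mem_filter.2 ⟨(mem_sdiff.1 h1).1, Or.inr hr⟩, (mem_sdiff.1 h1).2⟩)
    have h5 := card_le_card hsub
    have h6 := card_union_le ((W.sigma Comp).image f ∪ (W.sigma Comp).image g) IncW
    have h7 := card_union_le ((W.sigma Comp).image f) ((W.sigma Comp).image g)
    have h8 : ((W.sigma Comp).image f).card ≤ ∑ x ∈ W, (Comp x).card := by
      refine le_trans card_image_le (le_of_eq (card_sigma _ _))
    have h9 : ((W.sigma Comp).image g).card ≤ ∑ x ∈ W, (Comp x).card := by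
      refine le_trans card_image_le (le_of_eq (card_sigma _ _))
    rw [card_product] at h5
    rw [sq]
    omega
  -- second estimate
  have hc2 : 2 * ∑ x ∈ W, (Cross x).card + IncW.card ≤
      ((w ×ˢ w).filter IncP).card := by
    have h1 : ((W.sigma Cross).image f).card = ∑ x ∈ W, (Cross x).card := by
      rw [card_image_of_injective _ hfinj, card_sigma]
    have h2 : ((W.sigma Cross).image g).card = ∑ x ∈ W, (Cross x).card := by
      rw [card_image_of_injective _ hginj, card_sigma]
    have hWP : ∀ c, c ∈ W → c ∈ P → False := fun c h1 h2 => (mem_sdiff.1 h1).2 h2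
    have hd1 : Disjoint ((W.sigma Cross).image f) ((W.sigma Cross).image g) := by
      rw [disjoint_left]
      intro p hp hp'
      obtain ⟨x, hx, rfl⟩ := mem_image.1 hp
      obtain ⟨y, hy, hyx⟩ := mem_image.1 hp'
      obtain ⟨h3, h4⟩ := mem_sigma.1 hx
      obtain ⟨h5, h6⟩ := mem_sigma.1 hy
      have h7 : y.2 = x.1 := congrArg Prod.fst hyx
      exact hWP x.1 h3 (h7 ▸ (mem_sdiff.1 h6).1)
    have hd2 : Disjoint ((W.sigma Cross).image f ∪ (W.sigma Cross).image g) IncW := by
      rw [disjoint_left]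
      intro p hp hp'
      obtain ⟨hp1, hp2⟩ := mem_product.1 (mem_filter.1 hp').1
      rcases mem_union.1 hp with hq | hq
      · obtain ⟨x, hx, rfl⟩ := mem_image.1 hq
        obtain ⟨h3, h4⟩ := mem_sigma.1 hx
        exact hWP _ hp2 (mem_sdiff.1 h4).1
      · obtain ⟨x, hx, rfl⟩ := mem_image.1 hq
        obtain ⟨h3, h4⟩ := mem_sigma.1 hx
        exact hWP _ hp1 (mem_sdiff.1 h4).1
    have hsub : ((W.sigma Cross).image f ∪ (W.sigma Cross).image g) ∪ IncW ⊆
        (w ×ˢ w).filter IncP := by
      intro p hp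
      rcases mem_union.1 hp with hq | hq
      · rcases mem_union.1 hq with hq | hq
        · obtain ⟨x, hx, rfl⟩ := mem_image.1 hq
          obtain ⟨h3, h4⟩ := mem_sigma.1 hx
          refine mem_filter.2 ⟨mem_product.2 ⟨(mem_sdiff.1 h3).1, hPw (mem_sdiff.1 h4).1⟩, ?_⟩
          exact hCrossInc x.1 h3 x.2 h4
        · obtain ⟨x, hx, rfl⟩ := mem_image.1 hq
          obtain ⟨h3, h4⟩ := mem_sigma.1 hx
          refine mem_filter.2 ⟨mem_product.2 ⟨hPw (mem_sdiff.1 h4).1, (mem_sdiff.1 h3).1⟩, ?_⟩
          obtain ⟨h5, h6, h7⟩ := hCrossInc x.1 h3 x.2 h4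
          exact ⟨fun h => h5 h.symm, h7, h6⟩
      · obtain ⟨h3, h4⟩ := mem_filter.1 hq
        obtain ⟨h5, h6⟩ := mem_product.1 h3
        exact mem_filter.2 ⟨mem_product.2 ⟨(mem_sdiff.1 h5).1, (mem_sdiff.1 h6).1⟩, h4⟩
    have h8 := card_le_card hsub
    rw [card_union_of_disjoint hd2, card_union_of_disjoint hd1, h1, h2] at h8
    omega
  have hsum : ∑ x ∈ W, (Comp x).card ≤ ∑ x ∈ W, (Cross x).card := sum_le_sum hab
  have hfinal : W.card ^ 2 ≤ ((w ×ˢ w).filter IncP).card := by omega
  convert hfinal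

end Path

section Forest
variable {n : ℕ} (A : Fin n → Fin n → Bool)

/-- Direct arcs on the columns of `V` from the rows of `T`. -/
def Dir (V T : Finset (Fin n)) (a b : Fin n) : Prop :=
  a ∈ V ∧ b ∈ V ∧ a < b ∧ ∃ x ∈ T, A x a = true ∧ A x b = true

/-- The order generated by the direct arcs. -/
def Rel (V T : Finset (Fin n)) : Fin n → Fin n → Prop := Relation.TransGen (Dir A V T)

variable {A}

lemma Rel_lt {V T : Finset (Fin n)} {a b : Fin n} (h : Rel A V T a b) : a < b := by
  induction h with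
  | single h => exact h.2.2.1
  | tail _ h ih => exact lt_trans ih h.2.2.1

lemma Rel_left_mem {V T : Finset (Fin n)} {a b : Fin n} (h : Rel A V T a b) : a ∈ V := by
  induction h with
  | single h => exact h.1
  | tail _ _ ih => exact ih

lemma Rel_right_mem {V T : Finset (Fin n)} {a b : Fin n} (h : Rel A V T a b) : b ∈ V := by
  induction h with
  | single h => exact h.2.1
  | tail _ h _ => exact h.2.1

lemma Rel_mono {V T T' : Finset (Fin n)} (hT : T ⊆ T') {a b : Fin n} (h : Rel A V T a b) :
    Rel A V T' a b := by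
  have hf : ∀ x y, Dir A V T x y → Dir A V T' x y := by
    intro x y hd
    obtain ⟨h1, h2, h3, z, hz, h4, h5⟩ := hd
    exact ⟨h1, h2, h3, z, hT hz, h4, h5⟩
  induction h with
  | single hd => exact Relation.TransGen.single (hf _ _ hd)
  | tail _ hd ih => exact Relation.TransGen.tail ih (hf _ _ hd)

lemma Rel_trans {V T : Finset (Fin n)} {a b c : Fin n} (h1 : Rel A V T a b) (h2 : Rel A V T b c) :
    Rel A V T a c := Relation.TransGen.trans h1 h2

/-- A row with no copy with the rows of `T` on `V` is closed under the order. -/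
lemma Rel_closed {V T : Finset (Fin n)} {z : Fin n}
    (hz : ∀ g ∈ T, ∀ a ∈ V, ∀ b ∈ V, a < b → A g a = true → A g b = true → A z a = true →
      A z b = true)
    {a b : Fin n} (h : Rel A V T a b) (ha : A z a = true) : A z b = true := by
  induction h with
  | @single c h =>
    obtain ⟨h1, h2, h3, x, hx, h4, h5⟩ := h
    exact hz x hx a h1 c h2 h3 h4 h5 ha
  | @tail c d _ h ih =>
    obtain ⟨h1, h2, h3, x, hx, h4, h5⟩ := h
    exact hz x hx c h1 d h2 h3 h4 h5 ih

/-- The order after adding one row to `T`. -/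
lemma Rel_insert {V T : Finset (Fin n)} {g : Fin n}
    (hg : ∀ a ∈ V, ∀ b, Rel A V T a b → A g a = true → A g b = true)
    {a b : Fin n} (h : Rel A V (insert g T) a b) :
    Rel A V T a b ∨ ∃ e, e ∈ V ∧ A g e = true ∧ (a = e ∨ Rel A V T a e) ∧ b ∈ V ∧
      A g b = true ∧ e < b := by
  induction h with
  | @single c h =>
    obtain ⟨h1, h2, h3, x, hx, h4, h5⟩ := h
    rcases mem_insert.1 hx with rfl | hx
    · exact Or.inr ⟨a, h1, h4, Or.inl rfl, h2, h5, h3⟩
    · exact Or.inl (Relation.TransGen.single ⟨h1, h2, h3, x, hx, h4, h5⟩)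
  | @tail c d _ h ih =>
    obtain ⟨h1, h2, h3, x, hx, h4, h5⟩ := h
    rcases mem_insert.1 hx with rfl | hx
    · -- the new arc comes from `g`
      rcases ih with ih | ⟨e, he1, he2, he3, _, _, he6⟩
      · exact Or.inr ⟨c, h1, h4, Or.inr ih, h2, h5, h3⟩
      · exact Or.inr ⟨e, he1, he2, he3, h2, h5, lt_trans he6 h3⟩
    · have hd : Rel A V T c d := Relation.TransGen.single ⟨h1, h2, h3, x, hx, h4, h5⟩
      rcases ih with ih | ⟨e, he1, he2, he3, _, he5, he6⟩
      · exact Or.inl (Rel_trans ih hd)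
      · exact Or.inr ⟨e, he1, he2, he3, h2, hg c h1 d hd he5, lt_trans he6 h3⟩

/-- The order generated by rows without copies on `V` is a forest order. -/
lemma Rel_forest {V R : Finset (Fin n)}
    (hR : ∀ x ∈ R, ∀ y ∈ R, x < y → ∀ a ∈ V, ∀ b ∈ V, a < b → A x a = true → A x b = true →
      A y a = true → A y b = true) (T : Finset (Fin n)) (hT : T ⊆ R) :
    ∀ a b c, Rel A V T a b → Rel A V T a c → b < c → Rel A V T b c := by
  induction T using Finset.induction_on_max with
  | empty =>
    intro a b c h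
    exfalso
    induction h with
    | single h =>
      obtain ⟨_, _, _, x, hx, _⟩ := h
      exact absurd hx (notMem_empty x)
    | tail _ h _ =>
      obtain ⟨_, _, _, x, hx, _⟩ := h
      exact absurd hx (notMem_empty x)
  | insert g T hg ih =>
    have hgR : g ∈ R := hT (mem_insert_self _ _)
    have hTR : T ⊆ R := fun x hx => hT (mem_insert_of_mem hx)
    have ih' := ih hTR
    have hclosed : ∀ a ∈ V, ∀ b, Rel A V T a b → A g a = true → A g b = true := by
      intro a _ b hab ha
      exact Rel_closed (fun x hx p hp q hq hpq h1 h2 h3 =>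
        hR x (hTR hx) g hgR (hg x hx) p hp q hq hpq h1 h2 h3) hab ha
    have hdirect : ∀ p q, p ∈ V → q ∈ V → A g p = true → A g q = true → p < q →
        Rel A V (insert g T) p q := by
      intro p q hp hq h1 h2 hpq
      exact Relation.TransGen.single ⟨hp, hq, hpq, g, mem_insert_self _ _, h1, h2⟩
    have hsub : T ⊆ insert g T := subset_insert _ _
    intro a b c hab hac hbc
    rcases Rel_insert hclosed hab with h1 | ⟨e, he1, he2, he3, he4, he5, he6⟩
    · rcases Rel_insert hclosed hac with h2 | ⟨e', he1', he2', he3', he4', he5', he6'⟩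
      · exact Rel_mono hsub (ih' a b c h1 h2 hbc)
      · -- `a` attaches at `e'`
        have hbV := Rel_right_mem h1
        rcases he3' with rfl | he3'
        · exact hdirect b c hbV he4' (hclosed a he1' b h1 he2') he5' hbc
        · rcases lt_trichotomy b e' with hlt | rfl | hlt
          · have h3 : Rel A V T b e' := ih' a b e' h1 he3' hlt
            exact Rel_trans (Rel_mono hsub h3) (hdirect e' c he1' he4' he2' he5' he6')
          · exact hdirect b c he1' he4' he2' he5' he6'
          · have h3 : Rel A V T e' b := ih' a e' b he3' h1 hlt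
            exact hdirect b c hbV he4' (hclosed e' he1' b h3 he2') he5' hbc
    · rcases Rel_insert hclosed hac with h2 | ⟨e', _, _, _, he4', he5', _⟩
      · have hcV := Rel_right_mem h2
        rcases he3 with rfl | he3
        · exact hdirect b c he4 hcV he5 (hclosed a he1 c h2 he2) hbc
        · rcases lt_trichotomy e c with hlt | rfl | hlt
          · have h3 : Rel A V T e c := ih' a e c he3 h2 hlt
            exact hdirect b c he4 hcV he5 (hclosed e he1 c h3 he2) hbc
          · exact hdirect b e he4 he1 he5 he2 hbc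
          · exact absurd (lt_trans (lt_trans hbc hlt) he6) (lt_irrefl _)
      · exact hdirect b c he4 he4' he5 he5' hbc

end Forest

end Vale.Agent.Lib.P037
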