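import Mathlib
import Vale.Agent.Lib.P037.KeyLemma

/-! Rows of a binary matrix for the pattern `[[1,1],[1,0]]`. -/

open Finset
open Classical

namespace Vale.Agent.Lib.P037

variable {n : ℕ} (A : Fin n → Fin n → Bool)

/-- Column pairs forming a copy of `[[1,1],[1,0]]` with rows `r`, `r'`. -/
noncomputable def gCopSet (r r' : Fin n) : Finset (Fin n × Fin n) :=
  univ.filter (fun p => p.1 < p.2 ∧ A r p.1 = true ∧ A r p.2 = true ∧
    A r' p.1 = true ∧ A r' p.2 = false)

/-- The number of copies on the rows `r`, `r'`. -/
noncomputable def gCop (r r' : Fin n) : ℕ := (gCopSet A r r').card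

/-- The number of copies whose first row is `r`. -/
noncomputable def gX1 (r : Fin n) : ℕ := ∑ r' ∈ univ.filter (fun r' => r < r'), gCop A r r'

/-- The number of copies whose second row is `r`. -/
noncomputable def gX2 (r : Fin n) : ℕ := ∑ r' ∈ univ.filter (fun r' => r' < r), gCop A r' r

/-- The total number of copies. -/
noncomputable def gNN : ℕ := ∑ r, gX1 A r

lemma sum_gX2 : ∑ r, gX2 A r = gNN A := by
  unfold gNN gX1 gX2
  apply sum_comm'
  intro r r'
  simp

lemma exists_gZc (r r' : Fin n) : ∃ Z : Finset (Fin n),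
    (∀ p q, A r p = true → A r' p = true → A r q = true → A r' q = false →
      p ∉ Z → q ∉ Z → ¬ p < q) ∧ Z.card ^ 2 ≤ 4 * gCop A r r' := by
  set P : Finset (Fin n) := univ.filter (fun c => A r c = true ∧ A r' c = true) with hP
  set Q : Finset (Fin n) := univ.filter (fun c => A r c = true ∧ A r' c = false) with hQ
  have hdisj : Disjoint P Q := by
    rw [disjoint_left]
    intro c hc hc'
    have h1 := (mem_filter.1 hc).2.2
    have h2 := (mem_filter.1 hc').2.2
    rw [h1] at h2
    exact Bool.noConfusion h2
  obtain ⟨Z, -, hZ1, hZ2⟩ := chain_cover P Q hdisj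
  refine ⟨Z, ?_, ?_⟩
  · intro p q h1 h2 h3 h4 hp hq
    exact hZ1 p (mem_filter.2 ⟨mem_univ _, h1, h2⟩) q (mem_filter.2 ⟨mem_univ _, h3, h4⟩) hp hq
  · refine le_trans hZ2 (Nat.mul_le_mul_left 4 (card_le_card ?_))
    intro x hx
    obtain ⟨hx1, hx2⟩ := mem_filter.1 hx
    obtain ⟨hx3, hx4⟩ := mem_product.1 hx1
    obtain ⟨-, h1, h2⟩ := mem_filter.1 hx3
    obtain ⟨-, h3, h4⟩ := mem_filter.1 hx4
    exact mem_filter.2 ⟨mem_univ _, hx2, h1, h3, h2, h4⟩

/-- A chain cover of the columns for the pair of rows `r`, `r'`. -/
noncomputable def gZc (r r' : Fin n) : Finset (Fin n) := (exists_gZc A r r').choose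

lemma gZc_spec (r r' p q : Fin n) (h1 : A r p = true) (h2 : A r' p = true) (h3 : A r q = true)
    (h4 : A r' q = false) (hp : p ∉ gZc A r r') (hq : q ∉ gZc A r r') : ¬ p < q :=
  (exists_gZc A r r').choose_spec.1 p q h1 h2 h3 h4 hp hq

lemma gZc_card (r r' : Fin n) : (gZc A r r').card ^ 2 ≤ 4 * gCop A r r' :=
  (exists_gZc A r r').choose_spec.2

/-- Hamming distance between two rows. -/
noncomputable def ham (r r' : Fin n) : ℕ := (univ.filter (fun c => A r c ≠ A r' c)).card

lemma ham_comm (r r' : Fin n) : ham A r r' = ham A r' r := by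
  unfold ham
  congr 1
  ext c
  simp [ne_comm]

lemma ham_self (r : Fin n) : ham A r r = 0 := by
  simp [ham]

/-- Packing bound: rows with no copy on the columns of `V` and pairwise far apart on `V` are few. -/
lemma packing (V F : Finset (Fin n)) (q : ℕ) (hq : 0 < q)
    (hexact : ∀ r ∈ F, ∀ r' ∈ F, r < r' → ∀ a ∈ V, ∀ b ∈ V, a < b → A r a = true → A r b = true →
      A r' a = true → A r' b = true)
    (hfar : ∀ r ∈ F, ∀ r' ∈ F, r ≠ r' → 4 * q ≤ (V.filter (fun c => A r c ≠ A r' c)).card) :
    F.card ≤ n * (n / (2 * q) + 1) / q + 1 := by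
  set w : Fin n → Finset (Fin n) := fun r => V.filter (fun c => A r c = true) with hw
  have hsymm : ∀ r r' c, c ∈ V.filter (fun c => A r c ≠ A r' c) → c ∈ w r ∪ w r' := by
    intro r r' c hc
    obtain ⟨hV, hne⟩ := mem_filter.1 hc
    by_cases h : A r c = true
    · exact mem_union_left _ (mem_filter.2 ⟨hV, h⟩)
    · apply mem_union_right
      refine mem_filter.2 ⟨hV, ?_⟩
      by_contra h'
      apply hne
      simp only [Bool.not_eq_true] at h h'
      rw [h, h']
  -- the rows with a small support
  set Fs := F.filter (fun r => (w r).card < q) with hFs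
  set Fl := F.filter (fun r => ¬ (w r).card < q) with hFl
  have hFs1 : Fs.card ≤ 1 := by
    rw [card_le_one]
    intro r hr r' hr'
    obtain ⟨hrF, h1⟩ := mem_filter.1 hr
    obtain ⟨hrF', h2⟩ := mem_filter.1 hr'
    by_contra hne
    have h3 := hfar r hrF r' hrF' hne
    have h4 : (V.filter (fun c => A r c ≠ A r' c)).card ≤ (w r ∪ w r').card :=
      card_le_card (fun c hc => hsymm r r' c hc)
    have h5 := card_union_le (w r) (w r')
    omega
  -- initial segments
  have hD : ∀ r ∈ Fl, ∃ D ⊆ w r, D.card = q ∧ ∀ a ∈ D, ∀ b ∈ w r, b < a → b ∈ D := by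
    intro r hr
    have hcard : q ≤ (w r).card := not_lt.1 (mem_filter.1 hr).2
    obtain ⟨D, h1, h2, h3⟩ := exists_final (w r) (fun a b : Fin n => b < a)
      (fun a _ => lt_irrefl a) (fun a _ b _ c _ hab hbc => lt_trans hbc hab) q hcard
    exact ⟨D, h1, h2, fun a ha b hb hba => h3 a ha b hb hba⟩
  choose! D hD1 hD2 hD3 using hD
  -- per column bound
  have hcol : ∀ x : Fin n, (Fl.filter (fun r => x ∈ D r)).card ≤ n / (2 * q) + 1 := by
    intro x
    set f : Fin n → ℕ := fun r => ((w r).filter (fun c => x < c)).card with hf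
    have hfle : ∀ r, f r ≤ n := by
      intro r
      calc f r ≤ (univ : Finset (Fin n)).card := card_le_card (subset_univ _)
        _ = n := by simp
    have hstep : ∀ r ∈ Fl.filter (fun r => x ∈ D r), ∀ r' ∈ Fl.filter (fun r => x ∈ D r), r < r' →
        f r + 2 * q ≤ f r' := by
      intro r hr r' hr' hlt
      obtain ⟨hrl, hxr⟩ := mem_filter.1 hr
      obtain ⟨hrl', hxr'⟩ := mem_filter.1 hr'
      have hrF := (mem_filter.1 hrl).1
      have hrF' := (mem_filter.1 hrl').1
      have hxw := hD1 r hrl hxr
      have hxw' := hD1 r' hrl' hxr'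
      obtain ⟨hxV, hxA⟩ := mem_filter.1 hxw
      obtain ⟨-, hxA'⟩ := mem_filter.1 hxw'
      have hsub : (w r).filter (fun c => x < c) ⊆ (w r').filter (fun c => x < c) := by
        intro c hc
        obtain ⟨hc1, hc2⟩ := mem_filter.1 hc
        obtain ⟨hcV, hcA⟩ := mem_filter.1 hc1
        exact mem_filter.2 ⟨mem_filter.2 ⟨hcV, hexact r hrF r' hrF' hlt x hxV c hcV hc2 hxA hcA hxA'⟩, hc2⟩
      have hS : V.filter (fun c => A r c ≠ A r' c) ⊆ D r ∪ D r' ∪
          ((w r').filter (fun c => x < c) \ (w r).filter (fun c => x < c)) := by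
        intro c hc
        obtain ⟨hcV, hne⟩ := mem_filter.1 hc
        rcases lt_trichotomy c x with hcx | rfl | hcx
        · -- below `x`
          by_cases h : A r c = true
          · exact mem_union_left _ (mem_union_left _
              (hD3 r hrl x hxr c (mem_filter.2 ⟨hcV, h⟩) hcx))
          · have h' : A r' c = true := by
              by_contra h'
              apply hne
              simp only [Bool.not_eq_true] at h h'
              rw [h, h']
            exact mem_union_left _ (mem_union_right _
              (hD3 r' hrl' x hxr' c (mem_filter.2 ⟨hcV, h'⟩) hcx))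
        · exact absurd (by rw [hxA, hxA']) hne
        · -- above `x`
          by_cases h : A r c = true
          · have : A r' c = true := hexact r hrF r' hrF' hlt x hxV c hcV hcx hxA h hxA'
            exact absurd (by rw [h, this]) hne
          · have h' : A r' c = true := by
              by_contra h'
              apply hne
              simp only [Bool.not_eq_true] at h h'
              rw [h, h']
            apply mem_union_right
            refine mem_sdiff.2 ⟨mem_filter.2 ⟨mem_filter.2 ⟨hcV, h'⟩, hcx⟩, fun hmem => ?_⟩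
            exact h (mem_filter.1 (mem_filter.1 hmem).1).2
      have h1 := hfar r hrF r' hrF' (ne_of_lt hlt)
      have h2 := card_le_card hS
      have h3 := card_union_le (D r ∪ D r') ((w r').filter (fun c => x < c) \ (w r).filter (fun c => x < c))
      have h4 := card_union_le (D r) (D r')
      have h5 := card_sdiff_of_subset hsub
      have h6 := card_le_card hsub
      have h7 := hD2 r hrl
      have h8 := hD2 r' hrl'
      simp only [hf]
      omega
    have h2q : 0 < 2 * q := by omega
    have hinj : ((Fl.filter (fun r => x ∈ D r)).card) ≤ (range (n / (2 * q) + 1)).card := by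
      apply card_le_card_of_injOn (fun r => f r / (2 * q))
      · intro r _
        exact mem_range.2 (Nat.lt_succ_of_le (Nat.div_le_div_right (hfle r)))
      · intro r hr r' hr' heq
        by_contra hne
        have heq' : f r / (2 * q) = f r' / (2 * q) := heq
        rcases lt_or_gt_of_ne hne with hlt | hlt
        · have := hstep r hr r' hr' hlt
          have h5 : f r / (2 * q) + 1 ≤ f r' / (2 * q) := by
            have : f r / (2 * q) + 1 = (f r + 2 * q) / (2 * q) := (Nat.add_div_right _ h2q).symm
            rw [this]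
            exact Nat.div_le_div_right ‹_›
          omega
        · have := hstep r' hr' r hr hlt
          have h5 : f r' / (2 * q) + 1 ≤ f r / (2 * q) := by
            have : f r' / (2 * q) + 1 = (f r' + 2 * q) / (2 * q) := (Nat.add_div_right _ h2q).symm
            rw [this]
            exact Nat.div_le_div_right ‹_›
          omega
    simpa using hinj
  -- double counting
  have hdc : Fl.card * q ≤ n * (n / (2 * q) + 1) := by
    have h1 : ∑ r ∈ Fl, (D r).card = Fl.card * q := by
      rw [sum_congr rfl (fun r hr => hD2 r hr)]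
      simp
    have h2 : ∑ r ∈ Fl, (D r).card = ∑ x : Fin n, (Fl.filter (fun r => x ∈ D r)).card := by
      simp only [card_eq_sum_ones, sum_filter]
      have : ∀ r ∈ Fl, ∑ _x ∈ D r, 1 = ∑ x : Fin n, if x ∈ D r then 1 else 0 := by
        intro r _
        rw [← sum_filter]
        simp
      rw [sum_congr rfl this, sum_comm]
    rw [← h1, h2]
    calc ∑ x : Fin n, (Fl.filter (fun r => x ∈ D r)).card ≤ ∑ _x : Fin n, (n / (2 * q) + 1) :=
          sum_le_sum fun x _ => hcol x
      _ = n * (n / (2 * q) + 1) := by simp
  have hFl : Fl.card ≤ n * (n / (2 * q) + 1) / q := by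
    rw [Nat.le_div_iff_mul_le hq]
    exact hdc
  have htotal : F.card = Fs.card + Fl.card := (card_filter_add_card_filter_not _).symm
  omega

end Vale.Agent.Lib.P037
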