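import Mathlib
import Vale.Agent.Lib.P037.Defs
import Vale.Agent.Lib.P037.Core
import Vale.Agent.Lib.P037.GammaRows
import Vale.Agent.Lib.P037.GammaForest

/-! The construction of a nearby copy free matrix for the pattern `[[1,1],[1,0]]`. -/

open Finset
open Classical

namespace Vale.Agent.Lib.P037

section Scan
variable {α : Type*} [LinearOrder α]

lemma scan_down (U : Finset α) (Near Dirty : α → α → Prop) (Bad : α → Prop) :
    ∃ R ⊆ U, (∀ x ∈ R, ¬ Bad x) ∧ (∀ x ∈ R, ∀ y ∈ R, x < y → ¬ Near x y ∧ ¬ Dirty x y) ∧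
      ∀ r ∈ U, Bad r ∨ (∃ z ∈ R, r ≤ z ∧ Near r z) ∨ (∃ z ∈ R, r < z ∧ Dirty r z) ∨ r ∈ R := by
  induction U using Finset.induction_on_min with
  | empty => exact ⟨∅, Subset.refl _, by simp, by simp, by simp⟩
  | insert a s ha ih =>
    obtain ⟨R, hR, h1, h2, h3⟩ := ih
    have hcov : ∀ r ∈ s, Bad r ∨ (∃ z ∈ R, r ≤ z ∧ Near r z) ∨ (∃ z ∈ R, r < z ∧ Dirty r z) ∨ r ∈ R := h3
    by_cases hb : Bad a ∨ (∃ z ∈ R, a ≤ z ∧ Near a z) ∨ (∃ z ∈ R, a < z ∧ Dirty a z)
    · refine ⟨R, hR.trans (subset_insert _ _), h1, h2, ?_⟩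
      intro r hr
      rcases mem_insert.1 hr with rfl | hr
      · rcases hb with hb | hb | hb
        · exact Or.inl hb
        · exact Or.inr (Or.inl hb)
        · exact Or.inr (Or.inr (Or.inl hb))
      · exact hcov r hr
    · push Not at hb
      obtain ⟨hb1, hb2, hb3⟩ := hb
      refine ⟨insert a R, insert_subset_insert _ hR, ?_, ?_, ?_⟩
      · intro x hx
        rcases mem_insert.1 hx with rfl | hx
        · exact hb1
        · exact h1 x hx
      · intro x hx y hy hxy
        rcases mem_insert.1 hx with hx' | hx'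
        · subst hx'
          rcases mem_insert.1 hy with hy' | hy'
          · subst hy'
            exact absurd hxy (lt_irrefl _)
          · exact ⟨hb2 y hy' hxy.le, hb3 y hy' hxy⟩
        · rcases mem_insert.1 hy with hy' | hy'
          · subst hy'
            exact absurd (lt_trans hxy (ha x (hR hx'))) (lt_irrefl _)
          · exact h2 x hx' y hy' hxy
      · intro r hr
        rcases mem_insert.1 hr with rfl | hr
        · exact Or.inr (Or.inr (Or.inr (mem_insert_self _ _)))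
        · rcases hcov r hr with h | ⟨z, hz, h⟩ | ⟨z, hz, h⟩ | h
          · exact Or.inl h
          · exact Or.inr (Or.inl ⟨z, mem_insert_of_mem hz, h⟩)
          · exact Or.inr (Or.inr (Or.inl ⟨z, mem_insert_of_mem hz, h⟩))
          · exact Or.inr (Or.inr (Or.inr (mem_insert_of_mem h)))

lemma scan_up (U : Finset α) (Near Dirty : α → α → Prop) (Bad : α → Prop) :
    ∃ R ⊆ U, (∀ x ∈ R, ¬ Bad x) ∧ (∀ x ∈ R, ∀ y ∈ R, x < y → ¬ Near y x ∧ ¬ Dirty y x) ∧
      ∀ r ∈ U, Bad r ∨ (∃ z ∈ R, z ≤ r ∧ Near r z) ∨ (∃ z ∈ R, z < r ∧ Dirty r z) ∨ r ∈ R := by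
  induction U using Finset.induction_on_max with
  | empty => exact ⟨∅, Subset.refl _, by simp, by simp, by simp⟩
  | insert a s ha ih =>
    obtain ⟨R, hR, h1, h2, h3⟩ := ih
    have hcov : ∀ r ∈ s, Bad r ∨ (∃ z ∈ R, z ≤ r ∧ Near r z) ∨ (∃ z ∈ R, z < r ∧ Dirty r z) ∨ r ∈ R := h3
    by_cases hb : Bad a ∨ (∃ z ∈ R, z ≤ a ∧ Near a z) ∨ (∃ z ∈ R, z < a ∧ Dirty a z)
    · refine ⟨R, hR.trans (subset_insert _ _), h1, h2, ?_⟩
      intro r hr
      rcases mem_insert.1 hr with rfl | hr
      · rcases hb with hb | hb | hb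
        · exact Or.inl hb
        · exact Or.inr (Or.inl hb)
        · exact Or.inr (Or.inr (Or.inl hb))
      · exact hcov r hr
    · push Not at hb
      obtain ⟨hb1, hb2, hb3⟩ := hb
      refine ⟨insert a R, insert_subset_insert _ hR, ?_, ?_, ?_⟩
      · intro x hx
        rcases mem_insert.1 hx with rfl | hx
        · exact hb1
        · exact h1 x hx
      · intro x hx y hy hxy
        rcases mem_insert.1 hy with hy' | hy'
        · subst hy'
          rcases mem_insert.1 hx with hx' | hx'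
          · subst hx'
            exact absurd hxy (lt_irrefl _)
          · exact ⟨hb2 x hx' hxy.le, hb3 x hx' hxy⟩
        · rcases mem_insert.1 hx with hx' | hx'
          · subst hx'
            exact absurd (lt_trans hxy (ha y (hR hy'))) (lt_irrefl _)
          · exact h2 x hx' y hy' hxy
      · intro r hr
        rcases mem_insert.1 hr with rfl | hr
        · exact Or.inr (Or.inr (Or.inr (mem_insert_self _ _)))
        · rcases hcov r hr with h | ⟨z, hz, h⟩ | ⟨z, hz, h⟩ | h
          · exact Or.inl h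
          · exact Or.inr (Or.inl ⟨z, mem_insert_of_mem hz, h⟩)
          · exact Or.inr (Or.inr (Or.inl ⟨z, mem_insert_of_mem hz, h⟩))
          · exact Or.inr (Or.inr (Or.inr (mem_insert_of_mem h)))

end Scan

variable {n : ℕ} (A : Fin n → Fin n → Bool)

/-- `B` has no copy of the pattern `[[1,1],[1,0]]`. -/
def NoGamma (B : Fin n → Fin n → Bool) : Prop :=
  ∀ r1 r2 c1 c2 : Fin n, r1 < r2 → c1 < c2 →
    ¬ (B r1 c1 = true ∧ B r1 c2 = true ∧ B r2 c1 = true ∧ B r2 c2 = false)

/-- Far apart rows without many copies are few. -/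
lemma few_centers (h D : ℝ) (hD : 0 ≤ D) (q M : ℕ) (hq : 0 < q) (hq2 : (4 * q : ℝ) ≤ h / 2)
    (hM : n * (n / (2 * q) + 1) / q + 1 ≤ M) (hMD : ((M : ℝ) + 1) ^ 2 * D ≤ h / 2)
    (F : Finset (Fin n)) (hfar : ∀ x ∈ F, ∀ y ∈ F, x < y → h < (ham A x y : ℝ))
    (hZ : ∀ x ∈ F, ∀ y ∈ F, x < y → ((gZc A x y).card : ℝ) ≤ D) : F.card ≤ M := by
  by_contra hlt
  have hlt' : M + 1 ≤ F.card := by omega
  obtain ⟨F', hF', hcard⟩ := exists_subset_card_eq hlt'
  set P2 : Finset (Fin n × Fin n) := (F' ×ˢ F').filter (fun p => p.1 < p.2) with hP2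
  set Z : Finset (Fin n) := P2.biUnion (fun p => gZc A p.1 p.2) with hZdef
  set V : Finset (Fin n) := univ \ Z with hV
  have hZcard : (Z.card : ℝ) ≤ h / 2 := by
    have h1 : (Z.card : ℝ) ≤ ∑ p ∈ P2, ((gZc A p.1 p.2).card : ℝ) := by
      have : Z.card ≤ ∑ p ∈ P2, (gZc A p.1 p.2).card := card_biUnion_le
      exact_mod_cast this
    have h2 : ∑ p ∈ P2, ((gZc A p.1 p.2).card : ℝ) ≤ ∑ _p ∈ P2, D := by
      apply sum_le_sum
      intro p hp
      obtain ⟨hp1, hp2⟩ := mem_filter.1 hp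
      obtain ⟨hp3, hp4⟩ := mem_product.1 hp1
      exact hZ p.1 (hF' hp3) p.2 (hF' hp4) hp2
    have h3 : (P2.card : ℝ) ≤ ((M : ℝ) + 1) ^ 2 := by
      have : P2.card ≤ (M + 1) ^ 2 := by
        calc P2.card ≤ (F' ×ˢ F').card := card_filter_le _ _
          _ = F'.card * F'.card := card_product _ _
          _ = (M + 1) ^ 2 := by rw [hcard, sq]
      exact_mod_cast this
    calc (Z.card : ℝ) ≤ ∑ _p ∈ P2, D := le_trans h1 h2
      _ = (P2.card : ℝ) * D := by simp
      _ ≤ ((M : ℝ) + 1) ^ 2 * D := mul_le_mul_of_nonneg_right h3 hD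
      _ ≤ h / 2 := hMD
  have hexact : ∀ r ∈ F', ∀ r' ∈ F', r < r' → ∀ a ∈ V, ∀ b ∈ V, a < b → A r a = true →
      A r b = true → A r' a = true → A r' b = true := by
    intro r hr r' hr' hlt a ha b hb hab h1 h2 h3
    by_contra h4
    have h4' : A r' b = false := by simpa using h4
    have hp : (r, r') ∈ P2 := mem_filter.2 ⟨mem_product.2 ⟨hr, hr'⟩, hlt⟩
    have hsub : gZc A r r' ⊆ Z := fun c hc => mem_biUnion.2 ⟨(r, r'), hp, hc⟩
    exact gZc_spec A r r' a b h1 h3 h2 h4' (fun h => (mem_sdiff.1 ha).2 (hsub h))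
      (fun h => (mem_sdiff.1 hb).2 (hsub h)) hab
  have hfar' : ∀ r ∈ F', ∀ r' ∈ F', r ≠ r' →
      4 * q ≤ (V.filter (fun c => A r c ≠ A r' c)).card := by
    intro r hr r' hr' hne
    have hh : h < (ham A r r' : ℝ) := by
      rcases lt_or_gt_of_ne hne with hlt | hlt
      · exact hfar r (hF' hr) r' (hF' hr') hlt
      · rw [ham_comm]
        exact hfar r' (hF' hr') r (hF' hr) hlt
    have hsub : univ.filter (fun c => A r c ≠ A r' c) ⊆
        V.filter (fun c => A r c ≠ A r' c) ∪ Z := by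
      intro c hc
      by_cases hcZ : c ∈ Z
      · exact mem_union_right _ hcZ
      · exact mem_union_left _ (mem_filter.2 ⟨mem_sdiff.2 ⟨mem_univ _, hcZ⟩, (mem_filter.1 hc).2⟩)
    have h1 : ham A r r' ≤ (V.filter (fun c => A r c ≠ A r' c)).card + Z.card :=
      le_trans (card_le_card hsub) (card_union_le _ _)
    have h2 : (ham A r r' : ℝ) ≤ ((V.filter (fun c => A r c ≠ A r' c)).card : ℝ) + Z.card := by
      exact_mod_cast h1
    have h3 : ((4 * q : ℕ) : ℝ) ≤ ((V.filter (fun c => A r c ≠ A r' c)).card : ℝ) := by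
      push_cast
      linarith
    exact_mod_cast h3
  have hpack := packing A V F' q hq hexact hfar'
  omega

lemma card_high_gX (θ : ℝ) (hθ : 0 < θ) :
    (((univ : Finset (Fin n)).filter (fun r => θ < ((gX1 A r + gX2 A r : ℕ) : ℝ))).card : ℝ) ≤
      2 * (gNN A : ℝ) / θ := by
  rw [le_div_iff₀ hθ]
  set F := (univ : Finset (Fin n)).filter (fun r => θ < ((gX1 A r + gX2 A r : ℕ) : ℝ)) with hF
  calc (F.card : ℝ) * θ = ∑ _r ∈ F, θ := by simp
    _ ≤ ∑ r ∈ F, ((gX1 A r + gX2 A r : ℕ) : ℝ) := sum_le_sum fun r hr => le_of_lt (mem_filter.1 hr).2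
    _ ≤ ∑ r, ((gX1 A r + gX2 A r : ℕ) : ℝ) := sum_le_sum_of_subset_of_nonneg (subset_univ _)
        (fun _ _ _ => Nat.cast_nonneg _)
    _ = 2 * (gNN A : ℝ) := by
        have h1 : ∑ r, gX1 A r = gNN A := rfl
        have h2 := sum_gX2 A
        have h3 : ∑ r, (gX1 A r + gX2 A r) = 2 * gNN A := by
          rw [sum_add_distrib, h1, h2]
          ring
        exact_mod_cast h3

lemma card_dirty1 (D : ℝ) (hD : 0 < D) (s : Fin n) :
    (((univ : Finset (Fin n)).filter (fun r => s < r ∧ D < ((gZc A s r).card : ℝ))).card : ℝ) ≤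
      4 * (gX1 A s : ℝ) / D ^ 2 := by
  have hpos : 0 < D ^ 2 := by positivity
  rw [le_div_iff₀ hpos]
  set F := (univ : Finset (Fin n)).filter (fun r => s < r ∧ D < ((gZc A s r).card : ℝ)) with hF
  calc (F.card : ℝ) * D ^ 2 = ∑ _r ∈ F, D ^ 2 := by simp
    _ ≤ ∑ r ∈ F, (4 * (gCop A s r : ℝ)) := by
        apply sum_le_sum
        intro r hr
        obtain ⟨-, -, h2⟩ := mem_filter.1 hr
        have h3 : (((gZc A s r).card ^ 2 : ℕ) : ℝ) ≤ ((4 * gCop A s r : ℕ) : ℝ) := by
          exact_mod_cast gZc_card A s r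
        push_cast at h3
        exact le_trans (pow_le_pow_left₀ hD.le h2.le 2) h3
    _ ≤ ∑ r ∈ (univ : Finset (Fin n)).filter (fun r => s < r), (4 * (gCop A s r : ℝ)) := by
        apply sum_le_sum_of_subset_of_nonneg
        · intro r hr
          obtain ⟨-, h1, -⟩ := mem_filter.1 hr
          exact mem_filter.2 ⟨mem_univ _, h1⟩
        · intro _ _ _
          positivity
    _ = 4 * (gX1 A s : ℝ) := by
        rw [← mul_sum]
        simp [gX1]

lemma card_dirty2 (D : ℝ) (hD : 0 < D) (s : Fin n) :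
    (((univ : Finset (Fin n)).filter (fun r => r < s ∧ D < ((gZc A r s).card : ℝ))).card : ℝ) ≤
      4 * (gX2 A s : ℝ) / D ^ 2 := by
  have hpos : 0 < D ^ 2 := by positivity
  rw [le_div_iff₀ hpos]
  set F := (univ : Finset (Fin n)).filter (fun r => r < s ∧ D < ((gZc A r s).card : ℝ)) with hF
  calc (F.card : ℝ) * D ^ 2 = ∑ _r ∈ F, D ^ 2 := by simp
    _ ≤ ∑ r ∈ F, (4 * (gCop A r s : ℝ)) := by
        apply sum_le_sum
        intro r hr
        obtain ⟨-, -, h2⟩ := mem_filter.1 hr
        have h3 : (((gZc A r s).card ^ 2 : ℕ) : ℝ) ≤ ((4 * gCop A r s : ℕ) : ℝ) := by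
          exact_mod_cast gZc_card A r s
        push_cast at h3
        exact le_trans (pow_le_pow_left₀ hD.le h2.le 2) h3
    _ ≤ ∑ r ∈ (univ : Finset (Fin n)).filter (fun r => r < s), (4 * (gCop A r s : ℝ)) := by
        apply sum_le_sum_of_subset_of_nonneg
        · intro r hr
          obtain ⟨-, h1, -⟩ := mem_filter.1 hr
          exact mem_filter.2 ⟨mem_univ _, h1⟩
        · intro _ _ _
          positivity
    _ = 4 * (gX2 A s : ℝ) := by
        rw [← mul_sum]
        simp [gX2]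

lemma ham_triangle (a b c : Fin n) : ham A a c ≤ ham A a b + ham A b c := by
  unfold ham
  refine le_trans (card_le_card ?_) (card_union_le _ _)
  intro x hx
  have hne := (mem_filter.1 hx).2
  by_cases h : A a x = A b x
  · apply mem_union_right
    refine mem_filter.2 ⟨mem_univ _, ?_⟩
    rw [← h]
    exact hne
  · exact mem_union_left _ (mem_filter.2 ⟨mem_univ _, h⟩)

/-- The main construction. -/
theorem gamma_core (h D θ t : ℝ) (hh : 0 ≤ h) (hD : 0 < D) (hθ : 0 < θ) (ht0 : 0 ≤ t)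
    (ht : 4 * h * n ≤ t ^ 2) (q M : ℕ) (hq : 0 < q) (hq2 : (4 * q : ℝ) ≤ h / 2)
    (hM : n * (n / (2 * q) + 1) / q + 1 ≤ M) (hMD : ((M : ℝ) + 1) ^ 2 * D ≤ h / 2) :
    ∃ (B : Fin n → Fin n → Bool) (nk zc : ℕ), NoGamma B ∧
      (hamming A B : ℝ) ≤ n * nk + n * (zc + h + t) ∧
      (nk : ℝ) ≤ 2 * (gNN A : ℝ) / θ + 2 * M * (4 * θ / D ^ 2) ∧
      (zc : ℝ) ≤ (2 * M) ^ 2 * D := by
  set nr : Fin n → Fin n → Prop := fun r z => (ham A r z : ℝ) ≤ h with hnr
  set High : Fin n → Prop := fun r => θ < ((gX1 A r + gX2 A r : ℕ) : ℝ) with hHigh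
  -- first scan
  obtain ⟨R1, -, hR1bad, hR1pair, hR1cov⟩ := scan_down (univ : Finset (Fin n)) nr
    (fun r z => D < ((gZc A r z).card : ℝ)) High
  -- second scan
  set Bad2 : Fin n → Prop := fun r => High r ∨ ∃ z ∈ R1,
    (r < z ∧ D < ((gZc A r z).card : ℝ)) ∨ (z < r ∧ D < ((gZc A z r).card : ℝ)) with hBad2
  obtain ⟨R2, -, hR2bad, hR2pair, hR2cov⟩ := scan_up (univ : Finset (Fin n)) nr
    (fun r z => D < ((gZc A z r).card : ℝ)) Bad2
  have hR1card : R1.card ≤ M := by
    apply few_centers A h D hD.le q M hq hq2 hM hMD R1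
    · intro x hx y hy hxy
      have := (hR1pair x hx y hy hxy).1
      exact not_le.1 this
    · intro x hx y hy hxy
      exact not_lt.1 (hR1pair x hx y hy hxy).2
  have hR2card : R2.card ≤ M := by
    apply few_centers A h D hD.le q M hq hq2 hM hMD R2
    · intro x hx y hy hxy
      have := (hR2pair x hx y hy hxy).1
      rw [ham_comm]
      exact not_le.1 this
    · intro x hx y hy hxy
      exact not_lt.1 (hR2pair x hx y hy hxy).2
  set R := R1 ∪ R2 with hR
  have hRcard : R.card ≤ 2 * M := by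
    calc R.card ≤ R1.card + R2.card := card_union_le _ _
      _ ≤ 2 * M := by omega
  have hRpair : ∀ x ∈ R, ∀ y ∈ R, x < y → ((gZc A x y).card : ℝ) ≤ D := by
    intro x hx y hy hxy
    rcases mem_union.1 hx with hx1 | hx2 <;> rcases mem_union.1 hy with hy1 | hy2
    · exact not_lt.1 (hR1pair x hx1 y hy1 hxy).2
    · by_contra hc
      exact hR2bad y hy2 (Or.inr ⟨x, hx1, Or.inr ⟨hxy, not_le.1 hc⟩⟩)
    · by_contra hc
      exact hR2bad x hx2 (Or.inr ⟨y, hy1, Or.inl ⟨hxy, not_le.1 hc⟩⟩)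
    · exact not_lt.1 (hR2pair x hx2 y hy2 hxy).2
  have hRhigh : ∀ x ∈ R, ((gX1 A x + gX2 A x : ℕ) : ℝ) ≤ θ := by
    intro x hx
    rcases mem_union.1 hx with hx1 | hx2
    · exact not_lt.1 (hR1bad x hx1)
    · by_contra hc
      exact hR2bad x hx2 (Or.inl (not_le.1 hc))
  -- the deleted columns
  set P2 : Finset (Fin n × Fin n) := (R ×ˢ R).filter (fun p => p.1 < p.2) with hP2
  set Z : Finset (Fin n) := P2.biUnion (fun p => gZc A p.1 p.2) with hZ
  set V : Finset (Fin n) := univ \ Z with hV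
  have hZcard : (Z.card : ℝ) ≤ (2 * M) ^ 2 * D := by
    have h1 : (Z.card : ℝ) ≤ ∑ p ∈ P2, ((gZc A p.1 p.2).card : ℝ) := by
      have : Z.card ≤ ∑ p ∈ P2, (gZc A p.1 p.2).card := card_biUnion_le
      exact_mod_cast this
    have h2 : ∑ p ∈ P2, ((gZc A p.1 p.2).card : ℝ) ≤ ∑ _p ∈ P2, D := by
      apply sum_le_sum
      intro p hp
      obtain ⟨hp1, hp2⟩ := mem_filter.1 hp
      obtain ⟨hp3, hp4⟩ := mem_product.1 hp1
      exact hRpair p.1 hp3 p.2 hp4 hp2
    have h3 : (P2.card : ℝ) ≤ (2 * (M : ℝ)) ^ 2 := by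
      have : P2.card ≤ (2 * M) ^ 2 := by
        calc P2.card ≤ (R ×ˢ R).card := card_filter_le _ _
          _ = R.card * R.card := card_product _ _
          _ ≤ (2 * M) * (2 * M) := Nat.mul_le_mul hRcard hRcard
          _ = (2 * M) ^ 2 := (sq _).symm
      exact_mod_cast this
    calc (Z.card : ℝ) ≤ ∑ _p ∈ P2, D := le_trans h1 h2
      _ = (P2.card : ℝ) * D := by simp
      _ ≤ (2 * (M : ℝ)) ^ 2 * D := mul_le_mul_of_nonneg_right h3 hD.le
  have hexact : ∀ r ∈ R, ∀ r' ∈ R, r < r' → ∀ a ∈ V, ∀ b ∈ V, a < b → A r a = true →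
      A r b = true → A r' a = true → A r' b = true := by
    intro r hr r' hr' hlt a ha b hb hab h1 h2 h3
    by_contra h4
    have h4' : A r' b = false := by simpa using h4
    have hp : (r, r') ∈ P2 := mem_filter.2 ⟨mem_product.2 ⟨hr, hr'⟩, hlt⟩
    have hsub : gZc A r r' ⊆ Z := fun c hc => mem_biUnion.2 ⟨(r, r'), hp, hc⟩
    exact gZc_spec A r r' a b h1 h3 h2 h4' (fun h => (mem_sdiff.1 ha).2 (hsub h))
      (fun h => (mem_sdiff.1 hb).2 (hsub h)) hab
  -- the discarded rows
  set Dirty : Fin n → Prop := fun r => ∃ z ∈ R,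
    (r < z ∧ D < ((gZc A r z).card : ℝ)) ∨ (z < r ∧ D < ((gZc A z r).card : ℝ)) with hDirty
  set Disc : Fin n → Prop := fun r => High r ∨ Dirty r with hDisc
  have hcenters : ∀ r, ¬ Disc r → (∃ z ∈ R, r ≤ z ∧ nr r z) ∧ (∃ z ∈ R, z ≤ r ∧ nr r z) := by
    intro r hr
    have hr1 : ¬ High r := fun h => hr (Or.inl h)
    have hr2 : ¬ Dirty r := fun h => hr (Or.inr h)
    constructor
    · rcases hR1cov r (mem_univ _) with h1 | ⟨z, hz, h1⟩ | ⟨z, hz, h1⟩ | h1
      · exact absurd h1 hr1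
      · exact ⟨z, mem_union_left _ hz, h1⟩
      · exact absurd ⟨z, mem_union_left _ hz, Or.inl h1⟩ hr2
      · refine ⟨r, mem_union_left _ h1, le_refl _, ?_⟩
        simp only [hnr, ham_self]
        simpa using hh
    · rcases hR2cov r (mem_univ _) with h1 | ⟨z, hz, h1⟩ | ⟨z, hz, h1⟩ | h1
      · rcases h1 with h1 | ⟨z, hz, h1⟩
        · exact absurd h1 hr1
        · exact absurd ⟨z, mem_union_left _ hz, h1⟩ hr2
      · exact ⟨z, mem_union_right _ hz, h1⟩
      · exact absurd ⟨z, mem_union_right _ hz, Or.inr h1⟩ hr2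
      · refine ⟨r, mem_union_right _ h1, le_refl _, ?_⟩
        simp only [hnr, ham_self]
        simpa using hh
  -- the rounding of one row
  set T : Fin n → Finset (Fin n) := fun r => R.filter (fun x => x ≤ r) with hT
  have hTsub : ∀ r, T r ⊆ R := fun r => filter_subset _ _
  have hrow : ∀ r, ∃ P : Finset (Fin n), ¬ Disc r →
      (P ⊆ V ∧ (∀ a ∈ P, ∀ b ∈ P, a < b → Rel A V (T r) a b) ∧
        (∀ a ∈ P, ∀ b, Rel A V (T r) a b → b ∈ P) ∧
        (∃ e : Finset (Fin n), (e.card : ℝ) ≤ Z.card + h + t ∧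
          ∀ c, c ∉ e → (A r c = true ↔ c ∈ P))) := by
    intro r
    by_cases hr : Disc r
    · exact ⟨∅, fun h => absurd hr h⟩
    obtain ⟨⟨zu, hzu, hrzu, hnu⟩, ⟨zd, hzd, hzdr, hnd⟩⟩ := hcenters r hr
    set w : Finset (Fin n) := V.filter (fun c => A zu c = true) with hw
    have hzclosed : ∀ a b, Rel A V (T r) a b → A zu a = true → A zu b = true := by
      intro a b hab ha
      refine Rel_closed (fun g hg p hp q' hq' hpq h1 h2 h3 => ?_) hab ha
      have hgR := hTsub r hg
      have hgr : g ≤ r := (mem_filter.1 hg).2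
      rcases lt_or_eq_of_le (le_trans hgr hrzu) with hlt | heq
      · exact hexact g hgR zu hzu hlt p hp q' hq' hpq h1 h2 h3
      · rw [← heq]
        exact h2
    have hwclosed : ∀ a ∈ w, ∀ b, Rel A V (T r) a b → b ∈ w := by
      intro a ha b hab
      exact mem_filter.2 ⟨Rel_right_mem hab, hzclosed a b hab (mem_filter.1 ha).2⟩
    obtain ⟨P, hPw, hPchain, hPclosed, hPcard⟩ := exists_path (Rel A V (T r)) w hwclosed
      (Rel_forest hexact (T r) (hTsub r)) (fun a b c => Rel_trans) (fun a b => Rel_lt)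
    refine ⟨P, fun _ => ⟨fun c hc => (mem_filter.1 (hPw hc)).1, hPchain, hPclosed, ?_⟩⟩
    -- the incomparable pairs
    set E : Finset (Fin n) := univ.filter (fun c => A zu c ≠ A zd c) with hE
    have hEcard : (E.card : ℝ) ≤ 2 * h := by
      have h1 : E.card ≤ ham A zu r + ham A r zd := ham_triangle A zu r zd
      have h2 : (E.card : ℝ) ≤ (ham A zu r : ℝ) + (ham A r zd : ℝ) := by exact_mod_cast h1
      rw [ham_comm] at h2
      have h3 : (ham A r zu : ℝ) ≤ h := hnu
      have h4 : (ham A r zd : ℝ) ≤ h := hnd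
      linarith
    have hInc : ((w ×ˢ w).filter (fun p => p.1 ≠ p.2 ∧ ¬ Rel A V (T r) p.1 p.2 ∧
        ¬ Rel A V (T r) p.2 p.1)).card ≤ E.card * n + n * E.card := by
      have hsub : (w ×ˢ w).filter (fun p => p.1 ≠ p.2 ∧ ¬ Rel A V (T r) p.1 p.2 ∧
          ¬ Rel A V (T r) p.2 p.1) ⊆ (E ×ˢ univ) ∪ (univ ×ˢ E) := by
        intro p hp
        obtain ⟨hp1, hp2, hp3, hp4⟩ := mem_filter.1 hp
        obtain ⟨hp5, hp6⟩ := mem_product.1 hp1
        obtain ⟨hp7, hp8⟩ := mem_filter.1 hp5
        obtain ⟨hp9, hp10⟩ := mem_filter.1 hp6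
        by_cases h1 : A zd p.1 = true
        · by_cases h2 : A zd p.2 = true
          · exfalso
            have hzdT : zd ∈ T r := mem_filter.2 ⟨hzd, hzdr⟩
            rcases lt_or_gt_of_ne hp2 with hlt | hlt
            · exact hp3 (Relation.TransGen.single ⟨hp7, hp9, hlt, zd, hzdT, h1, h2⟩)
            · exact hp4 (Relation.TransGen.single ⟨hp9, hp7, hlt, zd, hzdT, h2, h1⟩)
          · apply mem_union_right
            refine mem_product.2 ⟨mem_univ _, mem_filter.2 ⟨mem_univ _, ?_⟩⟩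
            rw [hp10]
            exact fun h => h2 h.symm
        · apply mem_union_left
          refine mem_product.2 ⟨mem_filter.2 ⟨mem_univ _, ?_⟩, mem_univ _⟩
          rw [hp8]
          exact fun h => h1 h.symm
      calc _ ≤ ((E ×ˢ univ) ∪ (univ ×ˢ E)).card := card_le_card hsub
        _ ≤ (E ×ˢ (univ : Finset (Fin n))).card + ((univ : Finset (Fin n)) ×ˢ E).card :=
            card_union_le _ _
        _ = E.card * n + n * E.card := by
            rw [card_product, card_product]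
            simp
    have htsq : (((w \ P).card : ℝ)) ^ 2 ≤ t ^ 2 := by
      have h1 : (w \ P).card ^ 2 ≤ E.card * n + n * E.card := le_trans hPcard hInc
      have h2 : (((w \ P).card : ℝ)) ^ 2 ≤ (E.card : ℝ) * n + n * E.card := by exact_mod_cast h1
      have h3 : (E.card : ℝ) * n + n * E.card = 2 * (E.card : ℝ) * n := by ring
      have h4 : 2 * (E.card : ℝ) * n ≤ 2 * (2 * h) * n := by
        have : (0 : ℝ) ≤ n := Nat.cast_nonneg _
        nlinarith
      nlinarith
    have htle : (((w \ P).card : ℝ)) ≤ t := by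
      exact (pow_le_pow_iff_left₀ (Nat.cast_nonneg _) ht0 (by norm_num)).1 htsq
    refine ⟨Z ∪ ((univ.filter (fun c => A r c ≠ A zu c)) ∪ (w \ P)), ?_, ?_⟩
    · have h1 : (Z ∪ ((univ.filter (fun c => A r c ≠ A zu c)) ∪ (w \ P))).card ≤
          Z.card + (ham A r zu + (w \ P).card) := by
        refine le_trans (card_union_le _ _) (Nat.add_le_add_left (card_union_le _ _) _)
      have h2 : ((Z ∪ ((univ.filter (fun c => A r c ≠ A zu c)) ∪ (w \ P))).card : ℝ) ≤
          (Z.card : ℝ) + ((ham A r zu : ℝ) + ((w \ P).card : ℝ)) := by exact_mod_cast h1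
      have h3 : (ham A r zu : ℝ) ≤ h := hnu
      linarith
    · intro c hc
      have hc1 : c ∉ Z := fun h => hc (mem_union_left _ h)
      have hc2 : A r c = A zu c := by
        by_contra hne
        exact hc (mem_union_right _ (mem_union_left _ (mem_filter.2 ⟨mem_univ _, hne⟩)))
      have hc3 : c ∉ w \ P := fun h => hc (mem_union_right _ (mem_union_right _ h))
      have hcV : c ∈ V := mem_sdiff.2 ⟨mem_univ _, hc1⟩
      constructor
      · intro hA
        by_contra hcP
        exact hc3 (mem_sdiff.2 ⟨mem_filter.2 ⟨hcV, by rw [← hc2]; exact hA⟩, hcP⟩)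
      · intro hcP
        rw [hc2]
        exact (mem_filter.1 (hPw hcP)).2
  choose P hP using hrow
  set B : Fin n → Fin n → Bool := fun r c => decide (¬ Disc r ∧ c ∈ P r) with hB
  have hBtrue : ∀ r c, B r c = true ↔ (¬ Disc r ∧ c ∈ P r) := by
    intro r c
    simp [hB]
  have hNo : NoGamma B := by
    intro r1 r2 c1 c2 hr hc ⟨h1, h2, h3, h4⟩
    obtain ⟨h5, h6⟩ := (hBtrue r1 c1).1 h1
    obtain ⟨-, h7⟩ := (hBtrue r1 c2).1 h2
    obtain ⟨h8, h9⟩ := (hBtrue r2 c1).1 h3
    have h10 : Rel A V (T r1) c1 c2 := (hP r1 h5).2.1 c1 h6 c2 h7 hc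
    have hsub : T r1 ⊆ T r2 := by
      intro x hx
      obtain ⟨hx1, hx2⟩ := mem_filter.1 hx
      exact mem_filter.2 ⟨hx1, le_trans hx2 hr.le⟩
    have h11 : Rel A V (T r2) c1 c2 := Rel_mono hsub h10
    have h12 : c2 ∈ P r2 := (hP r2 h8).2.2.1 c1 h9 c2 h11
    have h13 := (hBtrue r2 c2).2 ⟨h8, h12⟩
    rw [h13] at h4
    exact Bool.noConfusion h4
  set NK : Finset (Fin n) := univ.filter Disc with hNK
  refine ⟨B, NK.card, Z.card, hNo, ?_, ?_, hZcard⟩
  · -- the cost
    rw [hamming_eq_sum]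
    have hrow1 : ∀ r, r ∉ NK →
        (((univ.filter (fun c => A r c ≠ B r c)).card : ℕ) : ℝ) ≤ Z.card + h + t := by
      intro r hr
      have hr' : ¬ Disc r := fun h => hr (mem_filter.2 ⟨mem_univ _, h⟩)
      obtain ⟨e, he1, he2⟩ := (hP r hr').2.2.2
      refine le_trans ?_ he1
      have hsub : univ.filter (fun c => A r c ≠ B r c) ⊆ e := by
        intro c hc
        by_contra hce
        apply (mem_filter.1 hc).2
        have h1 := he2 c hce
        by_cases h2 : A r c = true
        · have h3 := (hBtrue r c).2 ⟨hr', h1.1 h2⟩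
          rw [h2, h3]
        · have h3 : B r c ≠ true := fun h => h2 (h1.2 ((hBtrue r c).1 h).2)
          simp only [Bool.not_eq_true] at h2 h3
          rw [h2, h3]
      exact_mod_cast card_le_card hsub
    have hrow2 : ∀ r, (((univ.filter (fun c => A r c ≠ B r c)).card : ℕ) : ℝ) ≤
        if r ∈ NK then (n : ℝ) else (Z.card : ℝ) + h + t := by
      intro r
      split_ifs with hr
      · have : (univ.filter (fun c => A r c ≠ B r c)).card ≤ n := by
          calc _ ≤ (univ : Finset (Fin n)).card := card_le_card (filter_subset _ _)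
            _ = n := by simp
        exact_mod_cast this
      · exact hrow1 r hr
    have hnn : (0 : ℝ) ≤ (Z.card : ℝ) + h + t := by positivity
    calc ((∑ r, (univ.filter (fun c => A r c ≠ B r c)).card : ℕ) : ℝ)
        = ∑ r, (((univ.filter (fun c => A r c ≠ B r c)).card : ℕ) : ℝ) := by push_cast; rfl
      _ ≤ ∑ r, (if r ∈ NK then (n : ℝ) else (Z.card : ℝ) + h + t) := sum_le_sum fun r _ => hrow2 r
      _ = NK.card * (n : ℝ) + ((univ \ NK).card : ℝ) * ((Z.card : ℝ) + h + t) := by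
          rw [sum_ite]
          have e1 : (univ : Finset (Fin n)).filter (fun r => r ∈ NK) = NK := by
            ext x
            simp
          have e2 : (univ : Finset (Fin n)).filter (fun r => r ∉ NK) = univ \ NK := by
            ext x
            simp
          rw [e1, e2]
          simp only [sum_const, nsmul_eq_mul]
      _ ≤ n * NK.card + n * ((Z.card : ℝ) + h + t) := by
          have h1 : ((univ \ NK).card : ℝ) ≤ n := by
            have : (univ \ NK).card ≤ n := by
              calc _ ≤ (univ : Finset (Fin n)).card := card_le_card sdiff_subset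
                _ = n := by simp
            exact_mod_cast this
          have h2 := mul_le_mul_of_nonneg_right h1 hnn
          linarith [mul_comm (NK.card : ℝ) (n : ℝ)]
  · -- the number of discarded rows
    have hsub : NK ⊆ (univ.filter High) ∪ R.biUnion (fun s =>
        (univ.filter (fun r => s < r ∧ D < ((gZc A s r).card : ℝ))) ∪
        (univ.filter (fun r => r < s ∧ D < ((gZc A r s).card : ℝ)))) := by
      intro r hr
      rcases (mem_filter.1 hr).2 with h1 | ⟨z, hz, h1⟩
      · exact mem_union_left _ (mem_filter.2 ⟨mem_univ _, h1⟩)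
      · apply mem_union_right
        refine mem_biUnion.2 ⟨z, hz, ?_⟩
        rcases h1 with ⟨h2, h3⟩ | ⟨h2, h3⟩
        · exact mem_union_right _ (mem_filter.2 ⟨mem_univ _, h2, h3⟩)
        · exact mem_union_left _ (mem_filter.2 ⟨mem_univ _, h2, h3⟩)
    have h1 : (NK.card : ℝ) ≤ ((univ.filter High).card : ℝ) + ∑ s ∈ R,
        (((univ.filter (fun r => s < r ∧ D < ((gZc A s r).card : ℝ))).card : ℝ) +
         ((univ.filter (fun r => r < s ∧ D < ((gZc A r s).card : ℝ))).card : ℝ)) := by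
      have h2 := le_trans (card_le_card hsub) (card_union_le _ _)
      have h3 : (R.biUnion (fun s =>
        (univ.filter (fun r => s < r ∧ D < ((gZc A s r).card : ℝ))) ∪
        (univ.filter (fun r => r < s ∧ D < ((gZc A r s).card : ℝ))))).card ≤ ∑ s ∈ R,
          ((univ.filter (fun r => s < r ∧ D < ((gZc A s r).card : ℝ))).card +
           (univ.filter (fun r => r < s ∧ D < ((gZc A r s).card : ℝ))).card) :=
        le_trans card_biUnion_le (sum_le_sum fun s _ => card_union_le _ _)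
      have h4 := le_trans h2 (Nat.add_le_add_left h3 _)
      exact_mod_cast h4
    have h2 := card_high_gX A θ hθ
    have h3 : ∑ s ∈ R,
        (((univ.filter (fun r => s < r ∧ D < ((gZc A s r).card : ℝ))).card : ℝ) +
         ((univ.filter (fun r => r < s ∧ D < ((gZc A r s).card : ℝ))).card : ℝ)) ≤
        2 * M * (4 * θ / D ^ 2) := by
      calc _ ≤ ∑ _s ∈ R, (4 * θ / D ^ 2) := by
            apply sum_le_sum
            intro s hs
            have h4 := card_dirty1 A D hD s
            have h5 := card_dirty2 A D hD s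
            have h6 := hRhigh s hs
            push_cast at h6
            have h7 : 4 * (gX1 A s : ℝ) / D ^ 2 + 4 * (gX2 A s : ℝ) / D ^ 2 =
                4 * ((gX1 A s : ℝ) + (gX2 A s : ℝ)) / D ^ 2 := by ring
            have h8 : 4 * ((gX1 A s : ℝ) + (gX2 A s : ℝ)) / D ^ 2 ≤ 4 * θ / D ^ 2 := by
              gcongr
            linarith
        _ = (R.card : ℝ) * (4 * θ / D ^ 2) := by simp
        _ ≤ 2 * M * (4 * θ / D ^ 2) := by
            apply mul_le_mul_of_nonneg_right
            · exact_mod_cast hRcard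
            · positivity
    linarith

end Vale.Agent.Lib.P037
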