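import Mathlib
import Vale.Agent.Lib.P037.GammaCore

/-! The choice of parameters for the pattern `[[1,1],[1,0]]`. -/

open Finset
open Classical

namespace Vale.Agent.Lib.P037

variable {n : ℕ} (A : Fin n → Fin n → Bool)

lemma NoGamma_of_gNN_zero (h : gNN A = 0) : NoGamma A := by
  intro r1 r2 c1 c2 hr hc ⟨h1, h2, h3, h4⟩
  have h5 : gX1 A r1 = 0 := by
    have := (sum_eq_zero_iff (s := univ) (f := fun r => gX1 A r)).1 h r1 (mem_univ _)
    exact this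
  have h6 : gCop A r1 r2 = 0 := by
    have := (sum_eq_zero_iff (s := univ.filter (fun r' => r1 < r')) (f := fun r' => gCop A r1 r')).1
      h5 r2 (mem_filter.2 ⟨mem_univ _, hr⟩)
    exact this
  have h7 : (c1, c2) ∈ gCopSet A r1 r2 :=
    mem_filter.2 ⟨mem_univ _, hc, h1, h2, h3, h4⟩
  rw [gCop, card_eq_zero] at h6
  rw [h6] at h7
  exact absurd h7 (notMem_empty _)

/-- The numerical part. -/
lemma gamma_arith (e x N mm nk zc : ℝ) (he : 0 < e) (he1 : e < 1) (hx : 0 < x)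
    (hN : N < 1 / 10 ^ 38 * e ^ 26 * x ^ 4)
    (hm1 : 0 ≤ mm) (hm2 : mm ≤ 600001 / e ^ 4)
    (hnk : nk ≤ 2 * N / (1 / 10 ^ 36 * e ^ 25 * x ^ 3) +
      2 * mm * (4 * (1 / 10 ^ 36 * e ^ 25 * x ^ 3) / (1 / 10 ^ 14 * e ^ 10 * x) ^ 2))
    (hzc : zc ≤ (2 * mm) ^ 2 * (1 / 10 ^ 14 * e ^ 10 * x)) :
    x * nk + x * (zc + e ^ 2 * x / 64 + e * x / 4) < e * x ^ 2 := by
  have hme : mm * e ^ 4 ≤ 600001 := by
    rwa [le_div_iff₀ (by positivity)] at hm2
  have h1 : 2 * N / (1 / 10 ^ 36 * e ^ 25 * x ^ 3) ≤ (1 / 50) * e * x := by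
    rw [div_le_iff₀ (by positivity)]
    have : (1 / 50) * e * x * (1 / 10 ^ 36 * e ^ 25 * x ^ 3) = 2 * (1 / 10 ^ 38 * e ^ 26 * x ^ 4) := by
      ring
    linarith
  have h2 : 2 * mm * (4 * (1 / 10 ^ 36 * e ^ 25 * x ^ 3) / (1 / 10 ^ 14 * e ^ 10 * x) ^ 2) ≤
      (1 / 20) * e * x := by
    have h3 : 4 * (1 / 10 ^ 36 * e ^ 25 * x ^ 3) / (1 / 10 ^ 14 * e ^ 10 * x) ^ 2 =
        (1 / 25000000) * e ^ 5 * x := by
      field_simp
      ring
    rw [h3]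
    have h4 : 2 * mm * ((1 / 25000000) * e ^ 5 * x) = (mm * e ^ 4) * ((2 / 25000000) * e * x) := by
      ring
    rw [h4]
    calc (mm * e ^ 4) * ((2 / 25000000) * e * x) ≤ 600001 * ((2 / 25000000) * e * x) := by
          apply mul_le_mul_of_nonneg_right hme (by positivity)
      _ ≤ (1 / 20) * e * x := by
          have : 0 ≤ e * x := by positivity
          nlinarith
  have h5 : (2 * mm) ^ 2 * (1 / 10 ^ 14 * e ^ 10 * x) ≤ (1 / 40) * e * x := by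
    have h6 : (2 * mm) ^ 2 * (1 / 10 ^ 14 * e ^ 10 * x) =
        (mm * e ^ 4) ^ 2 * ((4 / 10 ^ 14) * e ^ 2 * x) := by ring
    rw [h6]
    have h7 : (mm * e ^ 4) ^ 2 ≤ 600001 ^ 2 := pow_le_pow_left₀ (by positivity) hme 2
    have h8 : e ^ 2 ≤ e := by nlinarith
    calc (mm * e ^ 4) ^ 2 * ((4 / 10 ^ 14) * e ^ 2 * x) ≤
          600001 ^ 2 * ((4 / 10 ^ 14) * e ^ 2 * x) :=
          mul_le_mul_of_nonneg_right h7 (by positivity)
      _ ≤ 600001 ^ 2 * ((4 / 10 ^ 14) * e * x) := by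
          apply mul_le_mul_of_nonneg_left _ (by norm_num)
          apply mul_le_mul_of_nonneg_right _ hx.le
          apply mul_le_mul_of_nonneg_left h8 (by norm_num)
      _ ≤ (1 / 40) * e * x := by
          have : 0 ≤ e * x := by positivity
          nlinarith
  have h9 : e ^ 2 * x / 64 ≤ (1 / 64) * e * x := by
    have h8 : e ^ 2 ≤ e := by nlinarith
    have : e ^ 2 * x ≤ e * x := mul_le_mul_of_nonneg_right h8 hx.le
    linarith
  have h10 : x * nk ≤ x * ((1 / 50) * e * x + (1 / 20) * e * x) :=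
    mul_le_mul_of_nonneg_left (by linarith) hx.le
  have h11 : x * (zc + e ^ 2 * x / 64 + e * x / 4) ≤
      x * ((1 / 40) * e * x + (1 / 64) * e * x + e * x / 4) :=
    mul_le_mul_of_nonneg_left (by linarith) hx.le
  have h12 : 0 < e * x ^ 2 := by positivity
  nlinarith

theorem gamma_main (hn : 0 < n) (ε : ℝ) (he : 0 < ε) (he1 : ε < 1)
    (hN : (gNN A : ℝ) < 1 / 10 ^ 38 * ε ^ 26 * (n : ℝ) ^ 4) :
    ∃ B : Fin n → Fin n → Bool, NoGamma B ∧ (hamming A B : ℝ) < ε * (n : ℝ) ^ 2 := by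
  have hx : (0 : ℝ) < n := by exact_mod_cast hn
  by_cases hN0 : gNN A = 0
  · refine ⟨A, NoGamma_of_gNN_zero A hN0, ?_⟩
    have : hamming A A = 0 := by
      simp [hamming]
    rw [this]
    push_cast
    positivity
  have hN1 : (1 : ℝ) ≤ gNN A := by
    have : 1 ≤ gNN A := Nat.one_le_iff_ne_zero.2 hN0
    exact_mod_cast this
  -- `n` is large
  have hlarge : 1024 ≤ ε ^ 2 * (n : ℝ) := by
    by_contra hlt
    have hlt' : ε ^ 2 * (n : ℝ) < 1024 := not_le.1 hlt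
    have h1 : (ε ^ 2 * (n : ℝ)) ^ 4 ≤ 1024 ^ 4 := pow_le_pow_left₀ (by positivity) hlt'.le 4
    have h2 : ε ^ 18 ≤ 1 := pow_le_one₀ he.le he1.le
    have h3 : 1 / 10 ^ 38 * ε ^ 26 * (n : ℝ) ^ 4 = 1 / 10 ^ 38 * ε ^ 18 * (ε ^ 2 * (n : ℝ)) ^ 4 := by
      ring
    have h4 : 1 / 10 ^ 38 * ε ^ 18 * (ε ^ 2 * (n : ℝ)) ^ 4 ≤ 1 / 10 ^ 38 * 1 * 1024 ^ 4 := by
      apply mul_le_mul _ h1 (by positivity) (by norm_num)
      exact mul_le_mul_of_nonneg_left h2 (by norm_num)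
    rw [h3] at hN
    norm_num at h4 hN
    linarith
  set h : ℝ := ε ^ 2 * (n : ℝ) / 64 with hh
  have hh16 : 16 ≤ h := by
    rw [hh]
    linarith
  set q : ℕ := ⌊h / 8⌋₊ with hq
  have hq1 : (q : ℝ) ≤ h / 8 := Nat.floor_le (by positivity)
  have hq2 : h / 8 - 1 < (q : ℝ) := by
    have := Nat.lt_floor_add_one (h / 8)
    rw [← hq] at this
    linarith
  have hq3 : h / 16 ≤ (q : ℝ) := by linarith
  have hqpos : 0 < q := by
    have : (0 : ℝ) < q := by linarith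
    exact_mod_cast this
  have hqreal : (0 : ℝ) < q := by exact_mod_cast hqpos
  set M : ℕ := ⌈600000 / ε ^ 4⌉₊ with hM
  have hM1 : 600000 / ε ^ 4 ≤ (M : ℝ) := Nat.le_ceil _
  have heps4 : ε ^ 4 ≤ 1 := pow_le_one₀ he.le he1.le
  have hM2 : (M : ℝ) ≤ 600001 / ε ^ 4 := by
    have h1 := (Nat.ceil_lt_add_one (a := 600000 / ε ^ 4) (by positivity)).le
    have h2 : (600000 : ℝ) / ε ^ 4 + 1 ≤ 600001 / ε ^ 4 := by
      rw [div_add_one (by positivity), div_le_div_iff_of_pos_right (by positivity)]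
      linarith
    exact le_trans h1 h2
  -- the packing bound fits
  have hMbound : n * (n / (2 * q) + 1) / q + 1 ≤ M := by
    have hxq : (n : ℝ) / q ≤ 1024 / ε ^ 2 := by
      rw [div_le_div_iff₀ hqreal (by positivity)]
      have : h / 16 * 1024 = ε ^ 2 * (n : ℝ) := by rw [hh]; ring
      nlinarith
    have hxq0 : 0 ≤ (n : ℝ) / q := by positivity
    have h1 : ((n / (2 * q) : ℕ) : ℝ) ≤ (n : ℝ) / (2 * q) := by
      have := @Nat.cast_div_le ℝ _ _ _ n (2 * q)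
      simpa using this
    have h2 : ((n * (n / (2 * q) + 1) / q : ℕ) : ℝ) ≤ ((n * (n / (2 * q) + 1) : ℕ) : ℝ) / q :=
      Nat.cast_div_le
    have h3 : ((n * (n / (2 * q) + 1) : ℕ) : ℝ) / q ≤
        (1024 / ε ^ 2) * (512 / ε ^ 2 + 1) := by
      push_cast
      have h4 : (n : ℝ) * (((n / (2 * q) : ℕ) : ℝ) + 1) / q =
          ((n : ℝ) / q) * (((n / (2 * q) : ℕ) : ℝ) + 1) := by ring
      rw [h4]
      have h5 : ((n / (2 * q) : ℕ) : ℝ) ≤ 512 / ε ^ 2 := by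
        refine le_trans h1 ?_
        have : (n : ℝ) / (2 * q) = ((n : ℝ) / q) / 2 := by field_simp
        rw [this]
        have h6 : (512 : ℝ) / ε ^ 2 = (1024 / ε ^ 2) / 2 := by ring
        rw [h6]
        linarith
      exact mul_le_mul hxq (by linarith) (by positivity) (by positivity)
    have h7 : (1024 / ε ^ 2) * (512 / ε ^ 2 + 1) + 1 ≤ 600000 / ε ^ 4 := by
      have h8 : (1024 / ε ^ 2) * (512 / ε ^ 2 + 1) + 1 = (524288 + 1024 * ε ^ 2 + ε ^ 4) / ε ^ 4 := by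
        field_simp
        ring
      rw [h8, div_le_div_iff_of_pos_right (by positivity)]
      have : ε ^ 2 ≤ 1 := pow_le_one₀ he.le he1.le
      linarith
    have h9 : ((n * (n / (2 * q) + 1) / q + 1 : ℕ) : ℝ) ≤ (M : ℝ) := by
      push_cast at h2 h3 ⊢
      linarith
    exact_mod_cast h9
  have hMD : ((M : ℝ) + 1) ^ 2 * (1 / 10 ^ 14 * ε ^ 10 * (n : ℝ)) ≤ h / 2 := by
    have h1 : ((M : ℝ) + 1) * ε ^ 4 ≤ 600002 := by
      have h2 : (M : ℝ) * ε ^ 4 ≤ 600001 := by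
        rwa [le_div_iff₀ (by positivity)] at hM2
      nlinarith
    have h3 : ((M : ℝ) + 1) ^ 2 * (1 / 10 ^ 14 * ε ^ 10 * (n : ℝ)) =
        (((M : ℝ) + 1) * ε ^ 4) ^ 2 * (1 / 10 ^ 14 * ε ^ 2 * (n : ℝ)) := by ring
    rw [h3, hh]
    have h4 : (((M : ℝ) + 1) * ε ^ 4) ^ 2 ≤ 600002 ^ 2 := pow_le_pow_left₀ (by positivity) h1 2
    calc (((M : ℝ) + 1) * ε ^ 4) ^ 2 * (1 / 10 ^ 14 * ε ^ 2 * (n : ℝ)) ≤
          600002 ^ 2 * (1 / 10 ^ 14 * ε ^ 2 * (n : ℝ)) :=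
          mul_le_mul_of_nonneg_right h4 (by positivity)
      _ ≤ ε ^ 2 * (n : ℝ) / 64 / 2 := by
          have : 0 ≤ ε ^ 2 * (n : ℝ) := by positivity
          nlinarith
  obtain ⟨B, nk, zc, hB, hham, hnk, hzc⟩ := gamma_core A h (1 / 10 ^ 14 * ε ^ 10 * (n : ℝ))
    (1 / 10 ^ 36 * ε ^ 25 * (n : ℝ) ^ 3) (ε * (n : ℝ) / 4) (by positivity) (by positivity)
    (by positivity) (by positivity)
    (by rw [hh]; ring_nf; exact le_refl _) q M hqpos (by linarith) hMbound hMD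
  refine ⟨B, hB, ?_⟩
  have hmain := gamma_arith ε (n : ℝ) (gNN A : ℝ) (M : ℝ) (nk : ℝ) (zc : ℝ) he he1 hx hN
    (Nat.cast_nonneg _) hM2 hnk hzc
  have hh2 : h = ε ^ 2 * (n : ℝ) / 64 := hh
  rw [hh2] at hham
  linarith

end Vale.Agent.Lib.P037
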