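import Mathlib
import Vale.Agent.Lib.P037.Defs

/-! The symmetries of the ordered removal problem: reversing rows, reversing columns, complementing
entries and transposing. -/

open Finset

namespace Vale.Agent.Lib.P037

/-- Reverse the order of the rows. -/
def rowRev {n : ℕ} (A : Fin n → Fin n → Bool) : Fin n → Fin n → Bool :=
  fun r c => A (Fin.rev r) c

/-- Reverse the order of the columns. -/
def colRev {n : ℕ} (A : Fin n → Fin n → Bool) : Fin n → Fin n → Bool :=
  fun r c => A r (Fin.rev c)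

/-- Complement all the entries. -/
def compl {n : ℕ} (A : Fin n → Fin n → Bool) : Fin n → Fin n → Bool :=
  fun r c => ! A r c

/-- Exchange rows and columns. -/
def transp {n : ℕ} (A : Fin n → Fin n → Bool) : Fin n → Fin n → Bool :=
  fun r c => A c r

lemma rowRev_rowRev {n : ℕ} (A : Fin n → Fin n → Bool) : rowRev (rowRev A) = A := by
  funext r c
  simp [rowRev]

lemma colRev_colRev {n : ℕ} (A : Fin n → Fin n → Bool) : colRev (colRev A) = A := by
  funext r c
  simp [colRev]

lemma compl_compl {n : ℕ} (A : Fin n → Fin n → Bool) : compl (compl A) = A := by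
  funext r c
  simp [compl]

lemma transp_transp {n : ℕ} (A : Fin n → Fin n → Bool) : transp (transp A) = A := rfl

lemma strictMono_rev_comp_rev {k n : ℕ} {f : Fin k → Fin n} (hf : StrictMono f) :
    StrictMono (fun i => Fin.rev (f (Fin.rev i))) := by
  intro i j hij
  exact Fin.rev_lt_rev.2 (hf (Fin.rev_lt_rev.2 hij))

/-- Transfer of copy counts along an involution of the pairs of index maps. -/
lemma copyCount_congr {k n : ℕ} (H H' : Fin k → Fin k → Bool) (A A' : Fin n → Fin n → Bool)
    (f : (Fin k → Fin n) × (Fin k → Fin n) → (Fin k → Fin n) × (Fin k → Fin n))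
    (hinv : ∀ p, f (f p) = p)
    (h1 : ∀ p, (StrictMono p.1 ∧ StrictMono p.2 ∧ ∀ i j, A (p.1 i) (p.2 j) = H i j) →
      (StrictMono (f p).1 ∧ StrictMono (f p).2 ∧ ∀ i j, A' ((f p).1 i) ((f p).2 j) = H' i j))
    (h2 : ∀ p, (StrictMono p.1 ∧ StrictMono p.2 ∧ ∀ i j, A' (p.1 i) (p.2 j) = H' i j) →
      (StrictMono (f p).1 ∧ StrictMono (f p).2 ∧ ∀ i j, A ((f p).1 i) ((f p).2 j) = H i j)) :
    copyCount H' A' = copyCount H A := by
  unfold copyCount
  have hinj : Function.Injective f := Function.LeftInverse.injective hinv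
  rw [← Set.ncard_image_of_injective _ hinj]
  congr 1
  ext p
  constructor
  · rintro ⟨q, hq, rfl⟩
    exact h2 q hq
  · intro hp
    exact ⟨f p, h1 p hp, hinv p⟩

lemma copyCount_rowRev {k n : ℕ} (H : Fin k → Fin k → Bool) (A : Fin n → Fin n → Bool) :
    copyCount (rowRev H) (rowRev A) = copyCount H A := by
  apply copyCount_congr H (rowRev H) A (rowRev A)
    (fun p => (fun i => Fin.rev (p.1 (Fin.rev i)), p.2))
  · intro p
    ext i <;> simp
  · rintro ⟨r, c⟩ ⟨h1, h2, h3⟩
    refine ⟨strictMono_rev_comp_rev h1, h2, fun i j => ?_⟩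
    simpa [rowRev] using h3 (Fin.rev i) j
  · rintro ⟨r, c⟩ ⟨h1, h2, h3⟩
    refine ⟨strictMono_rev_comp_rev h1, h2, fun i j => ?_⟩
    have := h3 (Fin.rev i) j
    simpa [rowRev] using this

lemma copyCount_colRev {k n : ℕ} (H : Fin k → Fin k → Bool) (A : Fin n → Fin n → Bool) :
    copyCount (colRev H) (colRev A) = copyCount H A := by
  apply copyCount_congr H (colRev H) A (colRev A)
    (fun p => (p.1, fun i => Fin.rev (p.2 (Fin.rev i))))
  · intro p
    ext i <;> simp
  · rintro ⟨r, c⟩ ⟨h1, h2, h3⟩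
    refine ⟨h1, strictMono_rev_comp_rev h2, fun i j => ?_⟩
    simpa [colRev] using h3 i (Fin.rev j)
  · rintro ⟨r, c⟩ ⟨h1, h2, h3⟩
    refine ⟨h1, strictMono_rev_comp_rev h2, fun i j => ?_⟩
    have := h3 i (Fin.rev j)
    simpa [colRev] using this

lemma copyCount_compl {k n : ℕ} (H : Fin k → Fin k → Bool) (A : Fin n → Fin n → Bool) :
    copyCount (compl H) (compl A) = copyCount H A := by
  apply copyCount_congr H (compl H) A (compl A) id
  · intro p
    rfl
  · rintro ⟨r, c⟩ ⟨h1, h2, h3⟩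
    refine ⟨h1, h2, fun i j => ?_⟩
    simp only [id, compl]
    rw [h3]
  · rintro ⟨r, c⟩ ⟨h1, h2, h3⟩
    refine ⟨h1, h2, fun i j => ?_⟩
    have := h3 i j
    simp only [compl, Bool.not_inj_iff] at this
    exact this

lemma copyCount_transp {k n : ℕ} (H : Fin k → Fin k → Bool) (A : Fin n → Fin n → Bool) :
    copyCount (transp H) (transp A) = copyCount H A := by
  apply copyCount_congr H (transp H) A (transp A) Prod.swap
  · intro p
    simp
  · rintro ⟨r, c⟩ ⟨h1, h2, h3⟩
    exact ⟨h2, h1, fun i j => h3 j i⟩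
  · rintro ⟨r, c⟩ ⟨h1, h2, h3⟩
    exact ⟨h2, h1, fun i j => h3 j i⟩

lemma hamming_congr {n : ℕ} (A B A' B' : Fin n → Fin n → Bool) (f : Fin n × Fin n → Fin n × Fin n)
    (hinv : ∀ p, f (f p) = p) (h : ∀ p, A' p.1 p.2 ≠ B' p.1 p.2 ↔ A (f p).1 (f p).2 ≠ B (f p).1 (f p).2) :
    hamming A' B' = hamming A B := by
  unfold hamming
  apply card_nbij' f f
  · intro p hp
    simp only [coe_filter, mem_univ, true_and, Set.mem_ofPred_eq] at hp ⊢
    exact (h p).1 hp
  · intro p hp
    simp only [coe_filter, mem_univ, true_and, Set.mem_ofPred_eq] at hp ⊢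
    apply (h (f p)).2
    rw [hinv]
    exact hp
  · intro p _
    exact hinv p
  · intro p _
    exact hinv p

lemma hamming_rowRev {n : ℕ} (A B : Fin n → Fin n → Bool) :
    hamming (rowRev A) (rowRev B) = hamming A B := by
  apply hamming_congr A B _ _ (fun p => (Fin.rev p.1, p.2))
  · intro p
    simp
  · intro p
    simp [rowRev]

lemma hamming_colRev {n : ℕ} (A B : Fin n → Fin n → Bool) :
    hamming (colRev A) (colRev B) = hamming A B := by
  apply hamming_congr A B _ _ (fun p => (p.1, Fin.rev p.2))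
  · intro p
    simp
  · intro p
    simp [colRev]

lemma hamming_compl {n : ℕ} (A B : Fin n → Fin n → Bool) :
    hamming (compl A) (compl B) = hamming A B := by
  apply hamming_congr A B _ _ id
  · intro p
    rfl
  · intro p
    simp [compl]

lemma hamming_transp {n : ℕ} (A B : Fin n → Fin n → Bool) :
    hamming (transp A) (transp B) = hamming A B := by
  apply hamming_congr A B _ _ Prod.swap
  · intro p
    simp
  · intro p
    simp [transp]

/-- The removal bound with constants `c` and `C` for the pattern `H`. -/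
def RemovalBound {k : ℕ} (H : Fin k → Fin k → Bool) (c : ℝ) (C : ℕ) : Prop :=
  ∀ (n : ℕ), 1 ≤ n → ∀ (A : Fin n → Fin n → Bool) (ε : ℝ), 0 < ε → ε < 1 →
    ε ≤ distFree H A → c * ε ^ C * (n : ℝ) ^ (2 * k) ≤ (copyCount H A : ℝ)

/-- Transfer of the removal bound along a symmetry. -/
lemma removal_congr {k : ℕ} (H H' : Fin k → Fin k → Bool) (c : ℝ) (C : ℕ)
    (Φ : ∀ {n : ℕ}, (Fin n → Fin n → Bool) → (Fin n → Fin n → Bool))
    (hinv : ∀ {n : ℕ} (A : Fin n → Fin n → Bool), Φ (Φ A) = A)
    (hcop : ∀ {n : ℕ} (A : Fin n → Fin n → Bool), copyCount H' (Φ A) = copyCount H A)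
    (hham : ∀ {n : ℕ} (A B : Fin n → Fin n → Bool), hamming (Φ A) (Φ B) = hamming A B)
    (hH : RemovalBound H c C) : RemovalBound H' c C := by
  intro n hn A ε h0 h1 hd
  have hA : copyCount H' A = copyCount H (Φ A) := by
    rw [← hcop (Φ A), hinv]
  rw [hA]
  refine hH n hn (Φ A) ε h0 h1 ?_
  have hdist : distFree H (Φ A) = distFree H' A := by
    unfold distFree
    congr 3
    ext d
    constructor
    · rintro ⟨B, hB, rfl⟩
      refine ⟨Φ B, by rw [hcop]; exact hB, ?_⟩
      rw [← hham (Φ A) B, hinv]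
    · rintro ⟨B, hB, rfl⟩
      refine ⟨Φ B, ?_, ?_⟩
      · rw [← hcop (Φ B), hinv]
        exact hB
      · rw [hham]
  rw [hdist]
  exact hd

end Vale.Agent.Lib.P037
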