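import Mathlib
import Vale.Agent.Lib.P037.Final
import Vale.Agent.Lib.P037.GammaArith
import Vale.Agent.Lib.P037.Adjacent
import Vale.Agent.Lib.P037.Symm
import Vale.Agent.Lib.P037.Count2

/-! All `2 × 2` patterns. -/

open Finset

namespace Vale.Agent.Lib.P037

/-- The pattern `[[1,1],[1,0]]`. -/
def gammaH : Fin 2 → Fin 2 → Bool := ![![true, true], ![true, false]]

/-- The pattern `[[1,1],[0,0]]`. -/
def adjH : Fin 2 → Fin 2 → Bool := ![![true, true], ![false, false]]

/-- The pattern `[[1,1],[1,1]]`. -/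
def oneH : Fin 2 → Fin 2 → Bool := ![![true, true], ![true, true]]

lemma pattern_eq (H : Fin 2 → Fin 2 → Bool) : H = ![![H 0 0, H 0 1], ![H 1 0, H 1 1]] := by
  funext i j
  fin_cases i <;> fin_cases j <;> rfl

open Classical

lemma rb_gamma : RemovalBound gammaH (1 / 10 ^ 38) 26 := by
  intro n hn A ε h0 h1 hd
  by_contra hlt
  have hlt' : (copyCount gammaH A : ℝ) < 1 / 10 ^ 38 * ε ^ 26 * (n : ℝ) ^ 4 := by
    simpa using not_le.1 hlt
  have hNN : (gNN A : ℝ) ≤ copyCount gammaH A := by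
    have := quad_count_le gammaH A true true true false rfl rfl rfl rfl
    exact_mod_cast this
  obtain ⟨B, hB, hham⟩ := gamma_main A hn ε h0 h1 (lt_of_le_of_lt hNN hlt')
  refine absurd hd (not_le.2 (distFree_lt' gammaH A B hn ?_ ε hham))
  exact copyCount_eq_zero_of gammaH B true true true false rfl rfl rfl rfl hB

/-- Zero count gives no copies. -/
lemma quad_free_of_zero {n : ℕ} (A : Fin n → Fin n → Bool) (b00 b01 b10 b11 : Bool)
    (h : ∑ r, ∑ r' ∈ univ.filter (fun r' => r < r'),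
      ((univ : Finset (Fin n × Fin n)).filter (fun p => p.1 < p.2 ∧ A r p.1 = b00 ∧ A r p.2 = b01 ∧
        A r' p.1 = b10 ∧ A r' p.2 = b11)).card = 0) :
    ∀ r1 r2 c1 c2 : Fin n, r1 < r2 → c1 < c2 →
      ¬ (A r1 c1 = b00 ∧ A r1 c2 = b01 ∧ A r2 c1 = b10 ∧ A r2 c2 = b11) := by
  intro r1 r2 c1 c2 hr hc ⟨h1, h2, h3, h4⟩
  have h5 := (sum_eq_zero_iff).1 h r1 (mem_univ _)
  have h6 := (sum_eq_zero_iff).1 h5 r2 (mem_filter.2 ⟨mem_univ _, hr⟩)
  rw [card_eq_zero] at h6
  have h7 : (c1, c2) ∈ (univ : Finset (Fin n × Fin n)).filter (fun p => p.1 < p.2 ∧ A r1 p.1 = b00 ∧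
      A r1 p.2 = b01 ∧ A r2 p.1 = b10 ∧ A r2 p.2 = b11) :=
    mem_filter.2 ⟨mem_univ _, hc, h1, h2, h3, h4⟩
  rw [h6] at h7
  exact absurd h7 (notMem_empty _)

lemma hamming_self {n : ℕ} (A : Fin n → Fin n → Bool) : hamming A A = 0 := by
  simp [hamming]

/-- Arithmetic used to pass to the weak parameters. -/
lemma weak_arith (e x N : ℝ) (he : 0 < e) (he1 : e < 1) (hx : 0 < x) (hN1 : 1 ≤ N)
    (hN : N < 1 / 10 ^ 38 * e ^ 26 * x ^ 4) :
    8 ≤ e ^ 2 * x ∧ N < 1 / 64 * e ^ 4 * x ^ 4 := by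
  have h1 : e ^ 26 ≤ e ^ 8 := pow_le_pow_of_le_one he.le he1.le (by norm_num)
  have h2 : e ^ 26 ≤ e ^ 4 := pow_le_pow_of_le_one he.le he1.le (by norm_num)
  have hx4 : 0 < x ^ 4 := by positivity
  have h3 : 10 ^ 38 ≤ e ^ 26 * x ^ 4 := by
    have : (1 : ℝ) < 1 / 10 ^ 38 * e ^ 26 * x ^ 4 := lt_of_le_of_lt hN1 hN
    have h5 : 1 / 10 ^ 38 * e ^ 26 * x ^ 4 = (e ^ 26 * x ^ 4) / 10 ^ 38 := by ring
    rw [h5, lt_div_iff₀ (by positivity)] at this
    linarith
  constructor
  · have h4 : (8 : ℝ) ^ 4 ≤ (e ^ 2 * x) ^ 4 := by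
      have h5 : (e ^ 2 * x) ^ 4 = e ^ 8 * x ^ 4 := by ring
      rw [h5]
      have h6 : e ^ 26 * x ^ 4 ≤ e ^ 8 * x ^ 4 := mul_le_mul_of_nonneg_right h1 hx4.le
      norm_num at h3 ⊢
      linarith
    exact le_of_pow_le_pow_left₀ (by norm_num) (by positivity) h4
  · have h6 : e ^ 26 * x ^ 4 ≤ e ^ 4 * x ^ 4 := mul_le_mul_of_nonneg_right h2 hx4.le
    have h7 : 0 < e ^ 26 * x ^ 4 := by positivity
    calc N < 1 / 10 ^ 38 * e ^ 26 * x ^ 4 := hN
      _ = 1 / 10 ^ 38 * (e ^ 26 * x ^ 4) := by ring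
      _ ≤ 1 / 64 * (e ^ 26 * x ^ 4) := by
          apply mul_le_mul_of_nonneg_right _ h7.le
          norm_num
      _ ≤ 1 / 64 * (e ^ 4 * x ^ 4) := by
          apply mul_le_mul_of_nonneg_left h6
          norm_num
      _ = 1 / 64 * e ^ 4 * x ^ 4 := by ring

lemma rb_adj : RemovalBound adjH (1 / 10 ^ 38) 26 := by
  intro n hn A ε h0 h1 hd
  by_contra hlt
  have hlt' : (copyCount adjH A : ℝ) < 1 / 10 ^ 38 * ε ^ 26 * (n : ℝ) ^ 4 := by
    simpa using not_le.1 hlt
  have hle := quad_count_le adjH A true true false false rfl rfl rfl rfl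
  set NN := ∑ r, ∑ r' ∈ univ.filter (fun r' => r < r'),
      ((univ : Finset (Fin n × Fin n)).filter (fun p => p.1 < p.2 ∧ A r p.1 = true ∧ A r p.2 = true ∧
        A r' p.1 = false ∧ A r' p.2 = false)).card with hNNdef
  have hNN : (NN : ℝ) ≤ copyCount adjH A := by exact_mod_cast hle
  have hfin : ∃ B : Fin n → Fin n → Bool,
      (∀ r1 r2 c1 c2 : Fin n, r1 < r2 → c1 < c2 →
        ¬ (B r1 c1 = true ∧ B r1 c2 = true ∧ B r2 c1 = false ∧ B r2 c2 = false)) ∧
      (hamming A B : ℝ) < ε * (n : ℝ) ^ 2 := by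
    by_cases h00 : NN = 0
    · refine ⟨A, quad_free_of_zero A _ _ _ _ h00, ?_⟩
      rw [hamming_self]
      push_cast
      positivity
    · have hN1 : (1 : ℝ) ≤ NN := by
        have : 1 ≤ NN := Nat.one_le_iff_ne_zero.2 h00
        exact_mod_cast this
      obtain ⟨h8, h64⟩ := weak_arith ε n NN h0 h1 (by exact_mod_cast hn) hN1 (lt_of_le_of_lt hNN hlt')
      exact adj_main A hn ε h0 h1 h8 h64
  obtain ⟨B, hB, hham⟩ := hfin
  refine absurd hd (not_le.2 (distFree_lt' adjH A B hn ?_ ε hham))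
  exact copyCount_eq_zero_of adjH B true true false false rfl rfl rfl rfl hB

lemma rb_one : RemovalBound oneH (1 / 10 ^ 38) 26 := by
  intro n hn A ε h0 h1 hd
  by_contra hlt
  have hlt' : (copyCount oneH A : ℝ) < 1 / 10 ^ 38 * ε ^ 26 * (n : ℝ) ^ 4 := by
    simpa using not_le.1 hlt
  have hle := quad_count_le oneH A true true true true rfl rfl rfl rfl
  set NN := ∑ r, ∑ r' ∈ univ.filter (fun r' => r < r'),
      ((univ : Finset (Fin n × Fin n)).filter (fun p => p.1 < p.2 ∧ A r p.1 = true ∧ A r p.2 = true ∧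
        A r' p.1 = true ∧ A r' p.2 = true)).card with hNNdef
  have hNN : (NN : ℝ) ≤ copyCount oneH A := by exact_mod_cast hle
  have hfin : ∃ B : Fin n → Fin n → Bool,
      (∀ r1 r2 c1 c2 : Fin n, r1 < r2 → c1 < c2 →
        ¬ (B r1 c1 = true ∧ B r1 c2 = true ∧ B r2 c1 = true ∧ B r2 c2 = true)) ∧
      (hamming A B : ℝ) < ε * (n : ℝ) ^ 2 := by
    by_cases h00 : NN = 0
    · refine ⟨A, quad_free_of_zero A _ _ _ _ h00, ?_⟩
      rw [hamming_self]
      push_cast
      positivity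
    · have hN1 : (1 : ℝ) ≤ NN := by
        have : 1 ≤ NN := Nat.one_le_iff_ne_zero.2 h00
        exact_mod_cast this
      obtain ⟨h8, h64⟩ := weak_arith ε n NN h0 h1 (by exact_mod_cast hn) hN1 (lt_of_le_of_lt hNN hlt')
      exact one_main A hn ε h0 h1 h8 h64
  obtain ⟨B, hB, hham⟩ := hfin
  refine absurd hd (not_le.2 (distFree_lt' oneH A B hn ?_ ε hham))
  exact copyCount_eq_zero_of oneH B true true true true rfl rfl rfl rfl hB

lemma rb_diag : RemovalBound diagH (1 / 10 ^ 38) 26 := by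
  intro n hn A ε h0 h1 hd
  have h := diag_removal hn A ε h0 h1 hd
  refine le_trans ?_ h
  have h2 : ε ^ 26 ≤ ε ^ 14 := pow_le_pow_of_le_one h0.le h1.le (by norm_num)
  have hx : (0 : ℝ) ≤ (n : ℝ) ^ 4 := by positivity
  have : (2 * 2 : ℕ) = 4 := rfl
  rw [this]
  apply mul_le_mul_of_nonneg_right _ hx
  calc 1 / 10 ^ 38 * ε ^ 26 ≤ 1 / 10 ^ 14 * ε ^ 26 := by
        apply mul_le_mul_of_nonneg_right _ (by positivity)
        norm_num
    _ ≤ 1 / 10 ^ 14 * ε ^ 14 := by
        apply mul_le_mul_of_nonneg_left h2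
        norm_num

lemma rb_antidiag : RemovalBound antidiagH (1 / 10 ^ 38) 26 := by
  intro n hn A ε h0 h1 hd
  have h := antidiag_removal hn A ε h0 h1 hd
  refine le_trans ?_ h
  have h2 : ε ^ 26 ≤ ε ^ 14 := pow_le_pow_of_le_one h0.le h1.le (by norm_num)
  have hx : (0 : ℝ) ≤ (n : ℝ) ^ 4 := by positivity
  have : (2 * 2 : ℕ) = 4 := rfl
  rw [this]
  apply mul_le_mul_of_nonneg_right _ hx
  calc 1 / 10 ^ 38 * ε ^ 26 ≤ 1 / 10 ^ 14 * ε ^ 26 := by
        apply mul_le_mul_of_nonneg_right _ (by positivity)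
        norm_num
    _ ≤ 1 / 10 ^ 14 * ε ^ 14 := by
        apply mul_le_mul_of_nonneg_left h2
        norm_num

section transfers

variable {k : ℕ} {H : Fin k → Fin k → Bool} {c : ℝ} {C : ℕ}

lemma rb_rowRev (h : RemovalBound H c C) : RemovalBound (rowRev H) c C :=
  removal_congr H (rowRev H) c C rowRev (fun A => rowRev_rowRev A) (fun A => copyCount_rowRev H A)
    (fun A B => hamming_rowRev A B) h

lemma rb_colRev (h : RemovalBound H c C) : RemovalBound (colRev H) c C :=
  removal_congr H (colRev H) c C colRev (fun A => colRev_colRev A) (fun A => copyCount_colRev H A)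
    (fun A B => hamming_colRev A B) h

lemma rb_compl (h : RemovalBound H c C) : RemovalBound (compl H) c C :=
  removal_congr H (compl H) c C compl (fun A => compl_compl A) (fun A => copyCount_compl H A)
    (fun A B => hamming_compl A B) h

lemma rb_transp (h : RemovalBound H c C) : RemovalBound (transp H) c C :=
  removal_congr H (transp H) c C transp (fun A => transp_transp A) (fun A => copyCount_transp H A)
    (fun A B => hamming_transp A B) h

end transfers

lemma rb_ext {H H' : Fin 2 → Fin 2 → Bool} {c : ℝ} {C : ℕ} (h : ∀ i j, H i j = H' i j)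
    (hb : RemovalBound H c C) : RemovalBound H' c C := by
  have : H = H' := funext fun i => funext fun j => h i j
  rwa [← this]

/-- All `2 × 2` patterns. -/
theorem all_patterns (H : Fin 2 → Fin 2 → Bool) : RemovalBound H (1 / 10 ^ 38) 26 := by
  have hdiag : diagH = ![![true, false], ![false, true]] := by
    funext i j
    fin_cases i <;> fin_cases j <;> rfl
  have hanti : antidiagH = ![![false, true], ![true, false]] := by
    funext i j
    fin_cases i <;> fin_cases j <;> rfl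
  rw [pattern_eq H]
  generalize H 0 0 = a
  generalize H 0 1 = b
  generalize H 1 0 = c
  generalize H 1 1 = d
  cases a <;> cases b <;> cases c <;> cases d
  · exact rb_ext (by intro i j; fin_cases i <;> fin_cases j <;> rfl) (rb_compl rb_one)
  · exact rb_ext (by intro i j; fin_cases i <;> fin_cases j <;> rfl) (rb_compl rb_gamma)
  · exact rb_ext (by intro i j; fin_cases i <;> fin_cases j <;> rfl) (rb_compl (rb_colRev rb_gamma))
  · exact rb_ext (by intro i j; fin_cases i <;> fin_cases j <;> rfl) (rb_rowRev rb_adj)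
  · exact rb_ext (by intro i j; fin_cases i <;> fin_cases j <;> rfl) (rb_compl (rb_rowRev rb_gamma))
  · exact rb_ext (by intro i j; fin_cases i <;> fin_cases j <;> rfl) (rb_transp (rb_rowRev rb_adj))
  · rw [← hanti]
    exact rb_antidiag
  · exact rb_ext (by intro i j; fin_cases i <;> fin_cases j <;> rfl) (rb_rowRev (rb_colRev rb_gamma))
  · exact rb_ext (by intro i j; fin_cases i <;> fin_cases j <;> rfl)
      (rb_compl (rb_rowRev (rb_colRev rb_gamma)))
  · rw [← hdiag]
    exact rb_diag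
  · exact rb_ext (by intro i j; fin_cases i <;> fin_cases j <;> rfl) (rb_transp rb_adj)
  · exact rb_ext (by intro i j; fin_cases i <;> fin_cases j <;> rfl) (rb_rowRev rb_gamma)
  · exact rb_ext (by intro i j; fin_cases i <;> fin_cases j <;> rfl) rb_adj
  · exact rb_ext (by intro i j; fin_cases i <;> fin_cases j <;> rfl) (rb_colRev rb_gamma)
  · exact rb_ext (by intro i j; fin_cases i <;> fin_cases j <;> rfl) rb_gamma
  · exact rb_ext (by intro i j; fin_cases i <;> fin_cases j <;> rfl) rb_one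

end Vale.Agent.Lib.P037
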